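import Vale.Agent.P205T.WDefs

/-! Module WA2: API for the convolution. -/

open Complex ComplexConjugate

namespace P205T

private theorem wa2_kx_add (L : Lat) (m n : ℤ × ℤ) : kx L (m + n) = kx L m + kx L n := by
  unfold kx
  rw [Prod.fst_add, Prod.snd_add]
  push_cast
  ring

private theorem wa2_ky_add (L : Lat) (m n : ℤ × ℤ) : ky L (m + n) = ky L m + ky L n := by
  unfold ky
  rw [Prod.fst_add, Prod.snd_add]
  push_cast
  ring

private theorem wa2_ch_add (L : Lat) (m n : ℤ × ℤ) (z : ℂ) :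
    ch L (m + n) z = ch L m z * ch L n z := by
  unfold ch
  rw [← Complex.exp_add, wa2_kx_add, wa2_ky_add]
  congr 1
  push_cast
  ring

private theorem wa2_ch_norm (L : Lat) (n : ℤ × ℤ) (z : ℂ) : ‖ch L n z‖ = 1 := by
  unfold ch
  rw [mul_comm]
  exact Complex.norm_exp_ofReal_mul_I _

private theorem wa2_summable (c : V) : Summable fun n => ‖c n‖ := by
  have h := (lp.memℓp c).summable (by norm_num)
  simpa using h

private theorem wa2_summable_ch (L : Lat) (z : ℂ) (c : V) :
    Summable fun n => ‖c n * ch L n z‖ := by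
  refine (wa2_summable c).congr fun n => ?_
  rw [norm_mul, wa2_ch_norm, mul_one]

/-- `(n, m) ↦ (m, n - m)` -/
private def wa2_equiv : (ℤ × ℤ) × (ℤ × ℤ) ≃ (ℤ × ℤ) × (ℤ × ℤ) where
  toFun p := (p.2, p.1 - p.2)
  invFun p := (p.1 + p.2, p.1)
  left_inv p := by simp
  right_inv p := by simp

private theorem wa2_cauchy (f g : ℤ × ℤ → ℂ) (hf : Summable fun n => ‖f n‖)
    (hg : Summable fun n => ‖g n‖) :
    (∑' n, f n) * (∑' n, g n) = ∑' n, ∑' m, f m * g (n - m) := by
  rw [tsum_mul_tsum_of_summable_norm hf hg]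
  have hs : Summable fun p : (ℤ × ℤ) × (ℤ × ℤ) => f p.1 * g p.2 :=
    summable_mul_of_summable_norm hf hg
  have hs' : Summable fun p : (ℤ × ℤ) × (ℤ × ℤ) => f p.2 * g (p.1 - p.2) :=
    (wa2_equiv.summable_iff (f := fun p : (ℤ × ℤ) × (ℤ × ℤ) => f p.1 * g p.2)).mpr hs
  rw [← wa2_equiv.tsum_eq (fun p : (ℤ × ℤ) × (ℤ × ℤ) => f p.1 * g p.2)]
  exact hs'.tsum_prod

theorem ev_conv (L : Lat) (z : ℂ) (a b : V) : ev L z (conv a b) = ev L z a * ev L z b := by
  rw [ev_apply, ev_apply, ev_apply,
    wa2_cauchy (fun n => a n * ch L n z) (fun n => b n * ch L n z) (wa2_summable_ch L z a)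
      (wa2_summable_ch L z b)]
  refine tsum_congr fun n => ?_
  rw [conv_apply, ← tsum_mul_right]
  refine tsum_congr fun m => ?_
  have h : ch L n z = ch L m z * ch L (n - m) z := by
    rw [← wa2_ch_add, add_sub_cancel]
  rw [h]
  ring

private theorem wa2_T_apply (L : Lat) (h : ℂ) (c : V) (n : ℤ × ℤ) :
    T L h c n = ch L n h * c n :=
  mult_apply ⟨1, fun n => (wa2_ch_norm L n h).le⟩ c n

theorem conv_T (L : Lat) (h : ℂ) (a b : V) : conv (T L h a) (T L h b) = T L h (conv a b) := by
  refine lp.ext (funext fun n => ?_)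
  rw [conv_apply, wa2_T_apply, conv_apply, ← tsum_mul_left]
  refine tsum_congr fun m => ?_
  rw [wa2_T_apply, wa2_T_apply]
  have e : ch L n h = ch L m h * ch L (n - m) h := by
    rw [← wa2_ch_add, add_sub_cancel]
  rw [e]
  ring

theorem conv_J (a b : V) : conv (J a) (J b) = J (conv a b) := by
  refine lp.ext (funext fun n => ?_)
  rw [conv_apply, J_apply, conv_apply, Complex.conj_tsum,
    ← (Equiv.neg (ℤ × ℤ)).tsum_eq (fun m => J a m * J b (n - m))]
  refine tsum_congr fun m => ?_
  have e1 : -(n - -m) = -n - m := by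
    rw [neg_sub, sub_eq_add_neg, sub_eq_add_neg, add_comm]
  show J a (-m) * J b (n - -m) = conj (a m * b (-n - m))
  rw [J_apply, J_apply, neg_neg, e1, map_mul]

private theorem wa2_one_apply (n : ℤ × ℤ) : one n = if n = 0 then 1 else 0 := by
  unfold one
  rcases eq_or_ne n 0 with h | h
  · subst h
    rw [if_pos rfl]
    simp
  · rw [if_neg h, lp.single_apply_ne _ _ _ h]

theorem one_conv (a : V) : conv one a = a := by
  refine lp.ext (funext fun n => ?_)
  rw [conv_apply, tsum_eq_single 0]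
  · rw [wa2_one_apply, if_pos rfl, one_mul, sub_zero]
  · intro m hm
    rw [wa2_one_apply, if_neg hm, zero_mul]

theorem conv_one (a : V) : conv a one = a := by
  refine lp.ext (funext fun n => ?_)
  rw [conv_apply, tsum_eq_single n]
  · rw [wa2_one_apply, if_pos (sub_self n), mul_one]
  · intro m hm
    rw [wa2_one_apply, if_neg (sub_ne_zero.mpr (Ne.symm hm)), mul_zero]

end P205T
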