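import Vale.Agent.P205T.WDefs

/-! Module WM: the multipliers `M0 .. M22` are bounded (frequency lower bound:
`|n.1| ≤ |k(n)||ω₁|/2π`, `|n.2| ≤ |k(n)||ω₂|/2π`), symmetric, and `M11 + M22 = 1 - Z0`. -/

open Complex ComplexConjugate

namespace P205T

theorem WM_D (L : Lat) : (conj L.ω₁ * L.ω₂).im = L.ω₁.re * L.ω₂.im - L.ω₁.im * L.ω₂.re := by
  simp only [Complex.mul_im, Complex.conj_re, Complex.conj_im]
  ring

theorem WM_k1 (L : Lat) (n : ℤ × ℤ) :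
    kx L n * L.ω₁.re + ky L n * L.ω₁.im = 2 * Real.pi * n.1 := by
  have h := L.h
  rw [WM_D] at h
  have h1 : kx L n * L.ω₁.re + ky L n * L.ω₁.im = 2 * Real.pi * n.1 *
      ((L.ω₁.re * L.ω₂.im - L.ω₁.im * L.ω₂.re) / (L.ω₁.re * L.ω₂.im - L.ω₁.im * L.ω₂.re)) := by
    unfold kx ky
    rw [WM_D]
    ring
  rw [h1, div_self h, mul_one]

theorem WM_k2 (L : Lat) (n : ℤ × ℤ) :
    kx L n * L.ω₂.re + ky L n * L.ω₂.im = 2 * Real.pi * n.2 := by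
  have h := L.h
  rw [WM_D] at h
  have h1 : kx L n * L.ω₂.re + ky L n * L.ω₂.im = 2 * Real.pi * n.2 *
      ((L.ω₁.re * L.ω₂.im - L.ω₁.im * L.ω₂.re) / (L.ω₁.re * L.ω₂.im - L.ω₁.im * L.ω₂.re)) := by
    unfold kx ky
    rw [WM_D]
    ring
  rw [h1, div_self h, mul_one]

/-- size of the lattice basis -/
noncomputable def WMS (L : Lat) : ℝ :=
  (L.ω₁.re ^ 2 + L.ω₁.im ^ 2) + (L.ω₂.re ^ 2 + L.ω₂.im ^ 2)

theorem WMS_nonneg (L : Lat) : 0 ≤ WMS L := by unfold WMS; positivity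

theorem WM_lower (L : Lat) {n : ℤ × ℤ} (hn : n ≠ 0) :
    (2 * Real.pi) ^ 2 ≤ (kx L n ^ 2 + ky L n ^ 2) * WMS L := by
  have h1 := WM_k1 L n
  have h2 := WM_k2 L n
  have hc1 : (2 * Real.pi * n.1) ^ 2 ≤
      (kx L n ^ 2 + ky L n ^ 2) * (L.ω₁.re ^ 2 + L.ω₁.im ^ 2) := by
    rw [← h1]
    nlinarith [sq_nonneg (kx L n * L.ω₁.im - ky L n * L.ω₁.re)]
  have hc2 : (2 * Real.pi * n.2) ^ 2 ≤
      (kx L n ^ 2 + ky L n ^ 2) * (L.ω₂.re ^ 2 + L.ω₂.im ^ 2) := by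
    rw [← h2]
    nlinarith [sq_nonneg (kx L n * L.ω₂.im - ky L n * L.ω₂.re)]
  have hint : (1 : ℤ) ≤ n.1 ^ 2 + n.2 ^ 2 := by
    by_contra hlt
    push Not at hlt
    have ha : 0 ≤ n.1 ^ 2 := sq_nonneg _
    have hb : 0 ≤ n.2 ^ 2 := sq_nonneg _
    have ha0 : n.1 ^ 2 = 0 := by omega
    have hb0 : n.2 ^ 2 = 0 := by omega
    exact hn (Prod.ext (pow_eq_zero_iff (two_ne_zero) |>.1 ha0)
      (pow_eq_zero_iff (two_ne_zero) |>.1 hb0))
  have hreal : (1 : ℝ) ≤ (n.1 : ℝ) ^ 2 + (n.2 : ℝ) ^ 2 := by exact_mod_cast hint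
  have hpi : 0 ≤ (2 * Real.pi) ^ 2 := by positivity
  calc (2 * Real.pi) ^ 2 = (2 * Real.pi) ^ 2 * 1 := by ring
    _ ≤ (2 * Real.pi) ^ 2 * ((n.1 : ℝ) ^ 2 + (n.2 : ℝ) ^ 2) :=
        mul_le_mul_of_nonneg_left hreal hpi
    _ = (2 * Real.pi * n.1) ^ 2 + (2 * Real.pi * n.2) ^ 2 := by ring
    _ ≤ _ := add_le_add hc1 hc2
    _ = (kx L n ^ 2 + ky L n ^ 2) * WMS L := by unfold WMS; ring

theorem kk_pos (L : Lat) {n : ℤ × ℤ} (hn : n ≠ 0) : 0 < kx L n ^ 2 + ky L n ^ 2 := by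
  have h := WM_lower L hn
  have hpi : 0 < (2 * Real.pi) ^ 2 := by positivity
  have h0 : 0 ≤ kx L n ^ 2 + ky L n ^ 2 := by positivity
  rcases h0.lt_or_eq with h1 | h1
  · exact h1
  · rw [← h1, zero_mul] at h
    exact absurd h (not_le.2 hpi)

theorem WM_inv_le (L : Lat) {n : ℤ × ℤ} (hn : n ≠ 0) :
    1 / (kx L n ^ 2 + ky L n ^ 2) ≤ WMS L / (2 * Real.pi) ^ 2 := by
  have hpi : 0 < (2 * Real.pi) ^ 2 := by positivity
  rw [div_le_div_iff₀ (kk_pos L hn) hpi, one_mul, mul_comm (WMS L)]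
  exact WM_lower L hn

theorem WM_M0_zero (L : Lat) : M0 L 0 = 0 := by simp [M0]

theorem WM_M0_ne (L : Lat) {n : ℤ × ℤ} (hn : n ≠ 0) :
    M0 L n = ((-1 / (kx L n ^ 2 + ky L n ^ 2) : ℝ) : ℂ) := by
  simp only [M0, if_neg hn]

theorem WM_norm_M0 (L : Lat) {n : ℤ × ℤ} (hn : n ≠ 0) :
    ‖M0 L n‖ = 1 / (kx L n ^ 2 + ky L n ^ 2) := by
  rw [WM_M0_ne L hn, Complex.norm_real, Real.norm_eq_abs, neg_div, abs_neg,
    abs_of_pos (one_div_pos.2 (kk_pos L hn))]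

/-- general bound: a multiplier `c * M0` with `|c| ≤ 1 + |k|^2` -/
theorem WM_bdd {m : ℤ × ℤ → ℂ} (L : Lat) (c : ℤ × ℤ → ℝ)
    (h : ∀ n, ‖m n‖ = c n * ‖M0 L n‖) (hc : ∀ n, c n ≤ 1 + (kx L n ^ 2 + ky L n ^ 2)) :
    Bdd m := by
  refine ⟨WMS L / (2 * Real.pi) ^ 2 + 1, fun n => ?_⟩
  have hK : 0 ≤ WMS L / (2 * Real.pi) ^ 2 := div_nonneg (WMS_nonneg L) (by positivity)
  by_cases hn : n = 0
  · rw [h n, hn, WM_M0_zero, norm_zero, mul_zero]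
    linarith
  · rw [h n, WM_norm_M0 L hn]
    have hp := kk_pos L hn
    calc c n * (1 / (kx L n ^ 2 + ky L n ^ 2))
        ≤ (1 + (kx L n ^ 2 + ky L n ^ 2)) * (1 / (kx L n ^ 2 + ky L n ^ 2)) :=
          mul_le_mul_of_nonneg_right (hc n) (one_div_pos.2 hp).le
      _ = 1 / (kx L n ^ 2 + ky L n ^ 2) + 1 := by field_simp
      _ ≤ _ := by linarith [WM_inv_le L hn]

theorem WM_norm_M1 (L : Lat) (n : ℤ × ℤ) : ‖M1 L n‖ = |kx L n| * ‖M0 L n‖ := by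
  unfold M1
  rw [norm_mul, norm_mul, Complex.norm_I, one_mul, Complex.norm_real, Real.norm_eq_abs]

theorem WM_norm_M2 (L : Lat) (n : ℤ × ℤ) : ‖M2 L n‖ = |ky L n| * ‖M0 L n‖ := by
  unfold M2
  rw [norm_mul, norm_mul, Complex.norm_I, one_mul, Complex.norm_real, Real.norm_eq_abs]

theorem WM_norm_M11 (L : Lat) (n : ℤ × ℤ) : ‖M11 L n‖ = (|kx L n| * |kx L n|) * ‖M0 L n‖ := by
  unfold M11
  rw [norm_mul, norm_mul, Complex.norm_I, one_mul, Complex.norm_real, Real.norm_eq_abs,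
    WM_norm_M1, mul_assoc]

theorem WM_norm_M12 (L : Lat) (n : ℤ × ℤ) : ‖M12 L n‖ = (|kx L n| * |ky L n|) * ‖M0 L n‖ := by
  unfold M12
  rw [norm_mul, norm_mul, Complex.norm_I, one_mul, Complex.norm_real, Real.norm_eq_abs,
    WM_norm_M2, mul_assoc]

theorem WM_norm_M22 (L : Lat) (n : ℤ × ℤ) : ‖M22 L n‖ = (|ky L n| * |ky L n|) * ‖M0 L n‖ := by
  unfold M22
  rw [norm_mul, norm_mul, Complex.norm_I, one_mul, Complex.norm_real, Real.norm_eq_abs,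
    WM_norm_M2, mul_assoc]

theorem WM_ineq1 (a b : ℝ) : |a| ≤ 1 + (a ^ 2 + b ^ 2) := by
  have h := sq_abs a
  nlinarith [sq_nonneg (|a| - 1), sq_nonneg b, abs_nonneg a]

theorem WM_ineq2 (a b : ℝ) : |b| ≤ 1 + (a ^ 2 + b ^ 2) := by
  have h := sq_abs b
  nlinarith [sq_nonneg (|b| - 1), sq_nonneg a, abs_nonneg b]

theorem bdd_M0 (L : Lat) : Bdd (M0 L) :=
  WM_bdd L (fun _ => 1) (fun n => (one_mul _).symm)
    (fun n => by have : 0 ≤ kx L n ^ 2 + ky L n ^ 2 := by positivity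
                 linarith)

theorem bdd_M1 (L : Lat) : Bdd (M1 L) :=
  WM_bdd L (fun n => |kx L n|) (WM_norm_M1 L) (fun _ => WM_ineq1 _ _)

theorem bdd_M2 (L : Lat) : Bdd (M2 L) :=
  WM_bdd L (fun n => |ky L n|) (WM_norm_M2 L) (fun _ => WM_ineq2 _ _)

theorem bdd_M11 (L : Lat) : Bdd (M11 L) :=
  WM_bdd L (fun n => |kx L n| * |kx L n|) (WM_norm_M11 L) (fun n => by
    have h := sq_abs (kx L n)
    nlinarith [sq_nonneg (ky L n)])

theorem bdd_M12 (L : Lat) : Bdd (M12 L) :=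
  WM_bdd L (fun n => |kx L n| * |ky L n|) (WM_norm_M12 L) (fun n => by
    have h := sq_abs (kx L n)
    have h' := sq_abs (ky L n)
    nlinarith [sq_nonneg (|kx L n| - |ky L n|), sq_nonneg (ky L n), sq_nonneg (kx L n)])

theorem bdd_M22 (L : Lat) : Bdd (M22 L) :=
  WM_bdd L (fun n => |ky L n| * |ky L n|) (WM_norm_M22 L) (fun n => by
    have h := sq_abs (ky L n)
    nlinarith [sq_nonneg (kx L n)])

theorem M11_add_M22 (L : Lat) (n : ℤ × ℤ) : M11 L n + M22 L n = 1 - Z0 n := by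
  by_cases hn : n = 0
  · simp [M11, M22, M1, M2, Z0, WM_M0_zero, hn]
  · have hp := kk_pos L hn
    have h1 : M11 L n + M22 L n
        = (-(((kx L n) ^ 2 + (ky L n) ^ 2 : ℝ) : ℂ)) * M0 L n := by
      unfold M11 M22 M1 M2
      push_cast
      ring_nf
      rw [Complex.I_sq]
      ring
    rw [h1, WM_M0_ne L hn, Z0, if_neg hn, sub_zero, ← Complex.ofReal_neg, ← Complex.ofReal_mul,
      ← Complex.ofReal_one]
    congr 1
    field_simp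

theorem WM_kx_neg (L : Lat) (n : ℤ × ℤ) : kx L (-n) = - kx L n := by
  unfold kx
  simp only [Prod.fst_neg, Prod.snd_neg, Int.cast_neg]
  ring

theorem WM_ky_neg (L : Lat) (n : ℤ × ℤ) : ky L (-n) = - ky L n := by
  unfold ky
  simp only [Prod.fst_neg, Prod.snd_neg, Int.cast_neg]
  ring

theorem WM_M0_neg' (L : Lat) (n : ℤ × ℤ) : M0 L (-n) = M0 L n := by
  by_cases hn : n = 0
  · simp [hn]
  · have hn' : -n ≠ 0 := neg_ne_zero.2 hn
    rw [WM_M0_ne L hn, WM_M0_ne L hn', WM_kx_neg, WM_ky_neg, neg_sq, neg_sq]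

theorem M0_neg (L : Lat) (n : ℤ × ℤ) : M0 L (-n) = conj (M0 L n) := by
  rw [WM_M0_neg']
  by_cases hn : n = 0
  · rw [hn, WM_M0_zero, map_zero]
  · rw [WM_M0_ne L hn, Complex.conj_ofReal]

theorem M1_neg (L : Lat) (n : ℤ × ℤ) : M1 L (-n) = conj (M1 L n) := by
  unfold M1
  rw [WM_kx_neg, M0_neg, map_mul, map_mul, Complex.conj_I, Complex.conj_ofReal,
    Complex.ofReal_neg]
  ring

theorem M2_neg (L : Lat) (n : ℤ × ℤ) : M2 L (-n) = conj (M2 L n) := by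
  unfold M2
  rw [WM_ky_neg, M0_neg, map_mul, map_mul, Complex.conj_I, Complex.conj_ofReal,
    Complex.ofReal_neg]
  ring

theorem M11_neg (L : Lat) (n : ℤ × ℤ) : M11 L (-n) = conj (M11 L n) := by
  unfold M11
  rw [WM_kx_neg, M1_neg, map_mul, map_mul, Complex.conj_I, Complex.conj_ofReal,
    Complex.ofReal_neg]
  ring

theorem M12_neg (L : Lat) (n : ℤ × ℤ) : M12 L (-n) = conj (M12 L n) := by
  unfold M12
  rw [WM_kx_neg, M2_neg, map_mul, map_mul, Complex.conj_I, Complex.conj_ofReal,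
    Complex.ofReal_neg]
  ring

theorem M22_neg (L : Lat) (n : ℤ × ℤ) : M22 L (-n) = conj (M22 L n) := by
  unfold M22
  rw [WM_ky_neg, M2_neg, map_mul, map_mul, Complex.conj_I, Complex.conj_ofReal,
    Complex.ofReal_neg]
  ring

theorem Z0_neg (n : ℤ × ℤ) : Z0 (-n) = conj (Z0 n) := by
  unfold Z0
  by_cases hn : n = 0
  · simp [hn]
  · rw [if_neg hn, if_neg (neg_ne_zero.2 hn), map_zero]

end P205T
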