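import Vale.Agent.P205T.WApi1

/-! Module WD: termwise differentiation of `z ↦ ev z (mult m c)` (use `hasFDerivAt_tsum`:
the term is `m n * c n * ch n z`, its derivative in direction `v` is `(I kx v.re + I ky v.im) m n c n ch n z`). -/

open Complex ComplexConjugate

namespace P205T

theorem wd_ch (L : Lat) (n : ℤ × ℤ) (a : ℂ) (z : ℂ) :
    HasFDerivAt (fun z => a * ch L n z)
      (Complex.reCLM.smulRight (Complex.I * (kx L n : ℂ) * a * ch L n z)
        + Complex.imCLM.smulRight (Complex.I * (ky L n : ℂ) * a * ch L n z)) z := by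
  have h1 : HasFDerivAt (fun z : ℂ => ((kx L n * z.re + ky L n * z.im : ℝ) : ℂ))
      (Complex.ofRealCLM.comp (kx L n • Complex.reCLM + ky L n • Complex.imCLM)) z :=
    (Complex.ofRealCLM.comp (kx L n • Complex.reCLM + ky L n • Complex.imCLM)).hasFDerivAt
  have h2 := ((h1.const_mul Complex.I).cexp).const_mul a
  refine h2.congr_fderiv ?_
  ext v
  simp [ch]
  ring

theorem wd_norm (a b : ℂ) (A B : ℝ) (ha : ‖a‖ ≤ A) (hb : ‖b‖ ≤ B) :
    ‖Complex.reCLM.smulRight a + Complex.imCLM.smulRight b‖ ≤ A + B := by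
  refine (norm_add_le _ _).trans (add_le_add ?_ ?_)
  · rw [ContinuousLinearMap.norm_smulRight_apply, Complex.reCLM_norm, one_mul]
    exact ha
  · rw [ContinuousLinearMap.norm_smulRight_apply, Complex.imCLM_norm, one_mul]
    exact hb

theorem ev_mult_hasFDerivAt (L : Lat) {m : ℤ × ℤ → ℂ} (hm : Bdd m)
    (hmx : Bdd fun n => Complex.I * (kx L n : ℂ) * m n) (hmy : Bdd fun n => Complex.I * (ky L n : ℂ) * m n)
    (c : V) (z : ℂ) :
    HasFDerivAt (fun z => ev L z (mult m c))
      (Complex.reCLM.smulRight (ev L z (mult (fun n => Complex.I * (kx L n : ℂ) * m n) c))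
        + Complex.imCLM.smulRight (ev L z (mult (fun n => Complex.I * (ky L n : ℂ) * m n) c))) z := by
  obtain ⟨Kx, hKx⟩ := hmx
  obtain ⟨Ky, hKy⟩ := hmy
  have hc := wb1_summable c
  have bx : ∀ n z, ‖Complex.I * (kx L n : ℂ) * (m n * c n) * ch L n z‖ ≤ Kx * ‖c n‖ := by
    intro n z
    have : Complex.I * (kx L n : ℂ) * (m n * c n) * ch L n z =
      (Complex.I * (kx L n : ℂ) * m n) * c n * ch L n z := by ring
    rw [this, norm_mul, norm_ch, mul_one, norm_mul]
    exact mul_le_mul_of_nonneg_right (hKx n) (norm_nonneg _)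
  have bY : ∀ n z, ‖Complex.I * (ky L n : ℂ) * (m n * c n) * ch L n z‖ ≤ Ky * ‖c n‖ := by
    intro n z
    have : Complex.I * (ky L n : ℂ) * (m n * c n) * ch L n z =
      (Complex.I * (ky L n : ℂ) * m n) * c n * ch L n z := by ring
    rw [this, norm_mul, norm_ch, mul_one, norm_mul]
    exact mul_le_mul_of_nonneg_right (hKy n) (norm_nonneg _)
  have hu : Summable fun n => Kx * ‖c n‖ + Ky * ‖c n‖ := (hc.mul_left Kx).add (hc.mul_left Ky)
  have key := hasFDerivAt_tsum (𝕜 := ℝ) hu (fun n z => wd_ch L n (m n * c n) z)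
    (fun n z => wd_norm _ _ _ _ (bx n z) (bY n z)) (x₀ := 0) (by
      have h := wb1_summable_ev L 0 (mult m c)
      simpa only [mult_apply hm] using h) z
  have e1 : (fun z => ev L z (mult m c)) = fun z => ∑' n, m n * c n * ch L n z := by
    funext z
    rw [ev_apply]
    simp only [mult_apply hm]
  have sx : Summable fun n => Complex.I * (kx L n : ℂ) * (m n * c n) * ch L n z :=
    Summable.of_norm_bounded (hc.mul_left Kx) (fun n => bx n z)
  have sy : Summable fun n => Complex.I * (ky L n : ℂ) * (m n * c n) * ch L n z :=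
    Summable.of_norm_bounded (hc.mul_left Ky) (fun n => bY n z)
  have ex : ev L z (mult (fun n => Complex.I * (kx L n : ℂ) * m n) c) =
      ∑' n, Complex.I * (kx L n : ℂ) * (m n * c n) * ch L n z := by
    rw [ev_apply]
    refine tsum_congr fun n => ?_
    rw [mult_apply ⟨Kx, hKx⟩]
    ring
  have ey : ev L z (mult (fun n => Complex.I * (ky L n : ℂ) * m n) c) =
      ∑' n, Complex.I * (ky L n : ℂ) * (m n * c n) * ch L n z := by
    rw [ev_apply]
    refine tsum_congr fun n => ?_
    rw [mult_apply ⟨Ky, hKy⟩]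
    ring
  rw [e1, ex, ey]
  have hx := ((ContinuousLinearMap.smulRightL ℝ ℂ ℂ) Complex.reCLM).hasSum sx.hasSum
  have hy := ((ContinuousLinearMap.smulRightL ℝ ℂ ℂ) Complex.imCLM).hasSum sy.hasSum
  have hxy := (hx.add hy).tsum_eq
  refine key.congr_fderiv ?_
  exact hxy

end P205T
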