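import Vale.Agent.P205T.WApi1

/-! Module WT: for rapidly decreasing `c` the map `h ↦ T h c ∈ V` is smooth.
Hint: first `HasFDerivAt (fun h => T L h c) (v ↦ v.re • T L h cx + v.im • T L h cy) h` where `cx n = I kx n * c n`,
`cy n = I ky n * c n` are again rapidly decreasing elements of `V`; then induction on the order of differentiability
(`contDiff_succ_iff_hasFDerivAt` or similar).  Alternatively `contDiff_tsum` with `T h c = ∑ ch n h • single n (c n)`. -/

open Complex ComplexConjugate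
open scoped ContDiff

namespace P205T

/-- the phase -/
noncomputable def WT_lin (L : Lat) (n : ℤ × ℤ) : ℂ →L[ℝ] ℝ :=
  kx L n • Complex.reCLM + ky L n • Complex.imCLM

theorem WT_lin_apply (L : Lat) (n : ℤ × ℤ) (z : ℂ) :
    WT_lin L n z = kx L n * z.re + ky L n * z.im := by
  simp [WT_lin]

theorem WT_lin_norm (L : Lat) (n : ℤ × ℤ) : ‖WT_lin L n‖ ≤ |kx L n| + |ky L n| := by
  unfold WT_lin
  refine (norm_add_le _ _).trans ?_
  rw [norm_smul, norm_smul, Complex.reCLM_norm, Complex.imCLM_norm]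
  simp

/-- one term, as a function of the phase -/
noncomputable def WT_e (n : ℤ × ℤ) (a : ℂ) (t : ℝ) : V :=
  lp.singleContinuousLinearMap ℝ (fun _ : ℤ × ℤ => ℂ) 1 n (Complex.exp (t * Complex.I) * a)

theorem WT_e_deriv (n : ℤ × ℤ) (a : ℂ) (t : ℝ) :
    HasDerivAt (WT_e n a) (WT_e n (Complex.I * a) t) t := by
  have h1 : HasDerivAt (fun t : ℝ => Complex.exp (t * Complex.I) * a)
      (Complex.exp (t * Complex.I) * (Complex.I * a)) t := by
    have h2 : HasDerivAt (fun t : ℝ => (t : ℂ) * Complex.I) (1 * Complex.I) t :=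
      (Complex.ofRealCLM.hasDerivAt (x := t)).mul_const Complex.I
    have h3 := (h2.cexp).mul_const a
    refine h3.congr_deriv ?_
    ring
  exact (lp.singleContinuousLinearMap ℝ (fun _ : ℤ × ℤ => ℂ) 1 n).hasFDerivAt.comp_hasDerivAt t h1

theorem WT_e_contDiff (n : ℤ × ℤ) (a : ℂ) : ContDiff ℝ ∞ (WT_e n a) := by
  unfold WT_e
  refine (lp.singleContinuousLinearMap ℝ (fun _ : ℤ × ℤ => ℂ) 1 n).contDiff.comp ?_
  refine ContDiff.mul ?_ contDiff_const
  exact (Complex.ofRealCLM.contDiff.mul contDiff_const).cexp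

theorem WT_e_iter (n : ℤ × ℤ) (k : ℕ) : ∀ a : ℂ,
    iteratedDeriv k (WT_e n a) = WT_e n (Complex.I ^ k * a) := by
  induction k with
  | zero => intro a; simp
  | succ k ih =>
    intro a
    rw [iteratedDeriv_succ']
    have : deriv (WT_e n a) = WT_e n (Complex.I * a) := funext fun t => (WT_e_deriv n a t).deriv
    rw [this, ih, pow_succ, mul_assoc]

theorem WT_e_norm (n : ℤ × ℤ) (a : ℂ) (t : ℝ) : ‖WT_e n a t‖ = ‖a‖ := by
  unfold WT_e
  rw [lp.singleContinuousLinearMap_apply, lp.norm_single one_pos, norm_mul,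
    Complex.norm_exp_ofReal_mul_I, one_mul]

theorem WT_bound (L : Lat) (n : ℤ × ℤ) (a : ℂ) (k : ℕ) (h : ℂ) :
    ‖iteratedFDeriv ℝ k (WT_e n a ∘ WT_lin L n) h‖ ≤ (1 + |kx L n| + |ky L n|) ^ k * ‖a‖ := by
  rw [ContinuousLinearMap.iteratedFDeriv_comp_right (WT_lin L n) (WT_e_contDiff n a) h
    (i := k) (by exact_mod_cast le_top)]
  refine (ContinuousMultilinearMap.norm_compContinuousLinearMap_le _ _).trans ?_
  rw [norm_iteratedFDeriv_eq_norm_iteratedDeriv, WT_e_iter, WT_e_norm, norm_mul, norm_pow,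
    Complex.norm_I, one_pow, one_mul, Finset.prod_const, Finset.card_univ, Fintype.card_fin,
    mul_comm]
  gcongr
  have := WT_lin_norm L n
  linarith

theorem contDiff_T (L : Lat) (c : V) (hc : Rapid L c) : ContDiff ℝ ∞ (fun h : ℂ => T L h c) := by
  have hT : (fun h : ℂ => T L h c) = fun h => ∑' n, (WT_e n (c n) ∘ WT_lin L n) h := by
    funext h
    have h1 := lp.hasSum_single (p := 1) ENNReal.one_ne_top (T L h c)
    rw [← h1.tsum_eq]
    refine tsum_congr fun n => ?_
    rw [T_apply]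
    show _ = lp.singleContinuousLinearMap ℝ (fun _ : ℤ × ℤ => ℂ) 1 n
      (Complex.exp ((WT_lin L n h : ℝ) * Complex.I) * c n)
    rw [lp.singleContinuousLinearMap_apply, WT_lin_apply]
    unfold ch
    rw [mul_comm Complex.I]
  rw [hT]
  refine contDiff_tsum (v := fun k n => (1 + |kx L n| + |ky L n|) ^ k * ‖c n‖) ?_ ?_ ?_
  · intro n
    exact (WT_e_contDiff n (c n)).comp (WT_lin L n).contDiff
  · intro k _
    exact hc k
  · intro k n x _
    exact WT_bound L n (c n) k x

end P205T
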