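import Vale.Agent.P205T.Defs

/-! Module GC: Gauss curvature identity (checked numerically).
Put `ρ = -log a`, `φ = w - ρ`, `b = a⁻² = exp(2ρ)`; then `E = b - ε φ₁²`, `F = -ε φ₁ φ₂`, `G = b - ε φ₂²`,
`Δ := EG - F² = b² - ε b (φ₁²+φ₂²)`, `b_i = 2 b ρ_i`.  With `N1 = 2EF_x - FE_x - EE_y`, `N2 = EG_x - FE_y`,
`Om1 = N1/(2E√Δ)`, `Om2 = N2/(2E√Δ)` one has the polynomial identity in jets (15 variables, `ring`):
`2EΔ(N2_x - N1_y) - 2Δ(N2 E_x - N1 E_y) - E(N2 Δ_x - N1 Δ_y) = 4E²(bΔ(ρ_xx+ρ_yy) + ε b² det H)`,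
`H11 = φ_xx - 2ρ₁φ₁ + d`, `H22 = φ_yy - 2ρ₂φ₂ + d`, `H12 = φ_xy - ρ₁φ₂ - ρ₂φ₁`, `d = ρ₁φ₁+ρ₂φ₂`, i.e.
`dx Om2 - dy Om1 = (bΔ(ρ_xx+ρ_yy) + ε b² det H)/√Δ³`; and `LstarF ε a w = -a²(W(ρ_xx+ρ_yy) + ε a² det H)`,
`W = 1 - ε(p1²+p2²) = Δ/b²`.  (Third derivatives of `φ` cancel; mixed partials of smooth functions commute.) -/

open Complex ComplexConjugate
open scoped ContDiff

namespace P205T

theorem GC_line {f : ℂ → ℝ} {z : ℂ} (v : ℂ) (h : DifferentiableAt ℝ f z) :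
    HasDerivAt (fun t : ℝ => f (z + t • v)) (fderiv ℝ f z v) 0 := by
  have hl : HasDerivAt (fun t : ℝ => z + t • v) v 0 := by
    have := ((hasDerivAt_id (0 : ℝ)).smul_const v).const_add z
    simpa using this
  have h1 : HasFDerivAt f (fderiv ℝ f z) (z + (0 : ℝ) • v) := by
    simpa using h.hasFDerivAt
  exact h1.comp_hasDerivAt (0 : ℝ) hl

theorem GC_eq {f : ℂ → ℝ} {z v : ℂ} {d : ℝ} (h : DifferentiableAt ℝ f z)
    (hd : HasDerivAt (fun t : ℝ => f (z + t • v)) d 0) : fderiv ℝ f z v = d :=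
  (GC_line v h).unique hd

theorem GC_sm {f : ℂ → ℝ} (hf : ContDiff ℝ ∞ f) (v : ℂ) :
    ContDiff ℝ ∞ (fun z => fderiv ℝ f z v) :=
  (hf.fderiv_right (m := ∞) (by simp)).clm_apply contDiff_const

theorem GC_diff {f : ℂ → ℝ} (hf : ContDiff ℝ ∞ f) (z : ℂ) : DifferentiableAt ℝ f z :=
  (hf.differentiable (by simp)).differentiableAt

theorem GC_mixed {f : ℂ → ℝ} (hf : ContDiff ℝ ∞ f) (z u v : ℂ) :
    fderiv ℝ (fun z => fderiv ℝ f z u) z v = fderiv ℝ (fun z => fderiv ℝ f z v) z u := by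
  have h1 : DifferentiableAt ℝ (fderiv ℝ f) z :=
    ((hf.fderiv_right (m := ∞) (by simp)).differentiable (by simp)).differentiableAt
  have h2 : ∀ u : ℂ, fderiv ℝ (fun z => fderiv ℝ f z u) z = (fderiv ℝ (fderiv ℝ f) z).flip u := by
    intro u
    have := fderiv_clm_apply (𝕜 := ℝ) (c := fderiv ℝ f) (u := fun _ => u) h1
      (differentiableAt_const u)
    rw [this]
    ext w
    simp
  rw [h2, h2, ContinuousLinearMap.flip_apply, ContinuousLinearMap.flip_apply]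
  have hs : IsSymmSndFDerivAt ℝ f z := by
    apply ContDiffAt.isSymmSndFDerivAt (n := ∞) hf.contDiffAt
    rw [minSmoothness_of_isRCLikeNormedField]
    exact WithTop.coe_le_coe.2 (le_top : (2 : ℕ∞) ≤ ⊤)
  exact hs.eq v u

/-- derivative of `N / (2 E √Δ)` -/
theorem GC_quot {E N Δ : ℂ → ℝ} {z v : ℂ} (hE : DifferentiableAt ℝ E z)
    (hN : DifferentiableAt ℝ N z) (hΔ : DifferentiableAt ℝ Δ z) (hE0 : 0 < E z)
    (hD : 0 < Δ z) :
    fderiv ℝ (fun z => N z / (2 * E z * √(Δ z))) z v =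
      (2 * E z * Δ z * fderiv ℝ N z v - 2 * Δ z * (N z * fderiv ℝ E z v)
        - E z * (N z * fderiv ℝ Δ z v)) / (4 * E z ^ 2 * √(Δ z) ^ 3) := by
  have hs : 0 < √(Δ z) := Real.sqrt_pos.2 hD
  have hss : √(Δ z) ^ 2 = Δ z := Real.sq_sqrt hD.le
  have hden : 2 * E z * √(Δ z) ≠ 0 := by positivity
  have hdsq : DifferentiableAt ℝ (fun z => √(Δ z)) z := hΔ.sqrt hD.ne'
  have hd0 : DifferentiableAt ℝ (fun z => 2 * E z * √(Δ z)) z :=
    (hE.const_mul 2).fun_mul hdsq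
  have hinv : DifferentiableAt ℝ (fun x : ℝ => x⁻¹) (2 * E z * √(Δ z)) :=
    differentiableAt_inv hden
  have hd1 : DifferentiableAt ℝ (fun z => (2 * E z * √(Δ z))⁻¹) z :=
    hinv.comp z hd0
  have hd : DifferentiableAt ℝ (fun z => N z / (2 * E z * √(Δ z))) z := by
    simp only [div_eq_mul_inv]
    exact hN.fun_mul hd1
  refine GC_eq hd ?_
  have e0 : z + (0 : ℝ) • v = z := by simp
  have l1 := GC_line v hN
  have l2 := GC_line v hE
  have l3 := GC_line v hΔ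
  have l4 : HasDerivAt (fun t : ℝ => √(Δ (z + t • v)))
      (fderiv ℝ Δ z v / (2 * √(Δ (z + (0 : ℝ) • v)))) 0 :=
    l3.sqrt (by rw [e0]; exact hD.ne')
  have l5 := l1.fun_div ((l2.const_mul 2).fun_mul l4) (by
    rw [e0]; exact hden)
  refine l5.congr_deriv ?_
  simp only [e0]
  have h3 : √(Δ z) ^ 3 = Δ z * √(Δ z) := by rw [pow_succ, hss]
  rw [h3]
  rw [div_eq_div_iff (by positivity) (by positivity)]
  have hE' := hE0.ne'
  obtain ⟨s, hs'⟩ : ∃ s, s = √(Δ z) := ⟨_, rfl⟩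
  rw [← hs'] at hs hss ⊢
  rw [← hss]
  field_simp
  ring

/-- derivative of `A B - C D` -/
theorem GC_prod2 {A B C D : ℂ → ℝ} {z : ℂ} (v : ℂ) (hA : DifferentiableAt ℝ A z)
    (hB : DifferentiableAt ℝ B z) (hC : DifferentiableAt ℝ C z) (hD : DifferentiableAt ℝ D z) :
    fderiv ℝ (fun z => A z * B z - C z * D z) z v =
      fderiv ℝ A z v * B z + A z * fderiv ℝ B z v
        - (fderiv ℝ C z v * D z + C z * fderiv ℝ D z v) := by
  refine GC_eq ((hA.fun_mul hB).fun_sub (hC.fun_mul hD)) ?_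
  have e0 : z + (0 : ℝ) • v = z := by simp
  have l := ((GC_line v hA).fun_mul (GC_line v hB)).fun_sub
    ((GC_line v hC).fun_mul (GC_line v hD))
  refine l.congr_deriv ?_
  simp only [e0]

/-- Brioschi's expression -/
noncomputable def GCBr (E F G Ex Ey Fx Fy Gx Gy S : ℝ) : ℝ :=
  (-S / 2) * (E * G - F ^ 2) - (Ex / 2) * ((Fy - Gx / 2) * G - F * (Gy / 2))
    + (Fx - Ey / 2) * ((Fy - Gx / 2) * F - E * (Gy / 2))
  - (- (Ey / 2) * ((Ey / 2) * G - F * (Gx / 2)) + (Gx / 2) * ((Ey / 2) * F - E * (Gx / 2)))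

theorem GC_gen {E F G : ℂ → ℝ} (hE : ContDiff ℝ ∞ E) (hF : ContDiff ℝ ∞ F)
    (hG : ContDiff ℝ ∞ G) (z : ℂ) (hE0 : 0 < E z) (hD : 0 < E z * G z - F z ^ 2) :
    dx (Om2 E F G) z - dy (Om1 E F G) z =
      - GCBr (E z) (F z) (G z) (dx E z) (dy E z) (dx F z) (dy F z) (dx G z) (dy G z)
        (dx (dx G) z - 2 * dx (dy F) z + dy (dy E) z) / √(E z * G z - F z ^ 2) ^ 3 := by
  have dE := GC_diff hE z
  have dF := GC_diff hF z
  have dG := GC_diff hG z
  have sEx : ContDiff ℝ ∞ (dx E) := GC_sm hE 1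
  have sEy : ContDiff ℝ ∞ (dy E) := GC_sm hE I
  have sFx : ContDiff ℝ ∞ (dx F) := GC_sm hF 1
  have sFy : ContDiff ℝ ∞ (dy F) := GC_sm hF I
  have sGx : ContDiff ℝ ∞ (dx G) := GC_sm hG 1
  have dEx := GC_diff sEx z
  have dEy := GC_diff sEy z
  have dFx := GC_diff sFx z
  have dGx := GC_diff sGx z
  have mE : dy (dx E) z = dx (dy E) z := GC_mixed hE z 1 I
  have mF : dy (dx F) z = dx (dy F) z := GC_mixed hF z 1 I
  -- Δ
  have hΔfun : (fun z => E z * G z - F z ^ 2) = fun z => E z * G z - F z * F z := by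
    funext z; ring
  have dΔ : DifferentiableAt ℝ (fun z => E z * G z - F z ^ 2) z := by
    rw [hΔfun]; exact (dE.fun_mul dG).fun_sub (dF.fun_mul dF)
  have eΔ : ∀ v, fderiv ℝ (fun z => E z * G z - F z ^ 2) z v =
      fderiv ℝ E z v * G z + E z * fderiv ℝ G z v
        - (fderiv ℝ F z v * F z + F z * fderiv ℝ F z v) := by
    intro v; rw [hΔfun]; exact GC_prod2 v dE dG dF dF
  -- numerators
  have dN2 : DifferentiableAt ℝ (fun z => E z * dx G z - F z * dy E z) z :=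
    (dE.fun_mul dGx).fun_sub (dF.fun_mul dEy)
  have dN1 : DifferentiableAt ℝ (fun z => 2 * E z * dx F z - F z * dx E z - E z * dy E z) z :=
    (((dE.const_mul 2).fun_mul dFx).fun_sub (dF.fun_mul dEx)).fun_sub (dE.fun_mul dEy)
  have eN2 : fderiv ℝ (fun z => E z * dx G z - F z * dy E z) z 1 =
      dx E z * dx G z + E z * dx (dx G) z - (dx F z * dy E z + F z * dx (dy E) z) :=
    GC_prod2 1 dE dGx dF dEy
  have eN1 : fderiv ℝ (fun z => 2 * E z * dx F z - F z * dx E z - E z * dy E z) z I =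
      2 * dy E z * dx F z + 2 * E z * dx (dy F) z - (dy F z * dx E z + F z * dx (dy E) z)
        - (dy E z * dy E z + E z * dy (dy E) z) := by
    rw [← mE, ← mF]
    refine GC_eq dN1 ?_
    have e0 : z + (0 : ℝ) • I = z := by simp
    have l := ((((GC_line I dE).const_mul 2).fun_mul (GC_line I dFx)).fun_sub
      ((GC_line I dF).fun_mul (GC_line I dEx))).fun_sub ((GC_line I dE).fun_mul (GC_line I dEy))
    refine l.congr_deriv ?_
    simp only [e0]
    rfl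
  have q2 : dx (Om2 E F G) z = _ := GC_quot (v := 1) dE dN2 dΔ hE0 hD
  have q1 : dy (Om1 E F G) z = _ := GC_quot (v := I) dE dN1 dΔ hE0 hD
  rw [q2, q1, eN1, eN2, eΔ, eΔ]
  have hs : 0 < √(E z * G z - F z ^ 2) := Real.sqrt_pos.2 hD
  have h1 : fderiv ℝ E z 1 = dx E z := rfl
  have h2 : fderiv ℝ E z I = dy E z := rfl
  have h3 : fderiv ℝ F z 1 = dx F z := rfl
  have h4 : fderiv ℝ F z I = dy F z := rfl
  have h5 : fderiv ℝ G z 1 = dx G z := rfl
  have h6 : fderiv ℝ G z I = dy G z := rfl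
  rw [h1, h2, h3, h4, h5, h6]
  have hE' := hE0.ne'
  generalize √(E z * G z - F z ^ 2) = s at hs
  rw [← sub_div, div_eq_div_iff (by positivity) (by positivity)]
  unfold GCBr
  ring

/-- derivative of `c A B + d C D` -/
theorem GC_lin {A B C D : ℂ → ℝ} {z : ℂ} (c d : ℝ) (v : ℂ) (hA : DifferentiableAt ℝ A z)
    (hB : DifferentiableAt ℝ B z) (hC : DifferentiableAt ℝ C z) (hD : DifferentiableAt ℝ D z) :
    fderiv ℝ (fun z => c * (A z * B z) + d * (C z * D z)) z v =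
      c * (fderiv ℝ A z v * B z + A z * fderiv ℝ B z v)
        + d * (fderiv ℝ C z v * D z + C z * fderiv ℝ D z v) := by
  refine GC_eq (((hA.fun_mul hB).const_mul c).fun_add ((hC.fun_mul hD).const_mul d)) ?_
  have e0 : z + (0 : ℝ) • v = z := by simp
  have l := (((GC_line v hA).fun_mul (GC_line v hB)).const_mul c).fun_add
    (((GC_line v hC).fun_mul (GC_line v hD)).const_mul d)
  refine l.congr_deriv ?_
  simp only [e0]

/-- derivative of `b + d C D` -/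
theorem GC_add {b C D : ℂ → ℝ} {z : ℂ} (d : ℝ) (v : ℂ) (hb : DifferentiableAt ℝ b z)
    (hC : DifferentiableAt ℝ C z) (hD : DifferentiableAt ℝ D z) :
    fderiv ℝ (fun z => b z + d * (C z * D z)) z v =
      fderiv ℝ b z v + d * (fderiv ℝ C z v * D z + C z * fderiv ℝ D z v) := by
  refine GC_eq (hb.fun_add ((hC.fun_mul hD).const_mul d)) ?_
  have e0 : z + (0 : ℝ) • v = z := by simp
  have l := (GC_line v hb).fun_add (((GC_line v hC).fun_mul (GC_line v hD)).const_mul d)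
  refine l.congr_deriv ?_
  simp only [e0]

/-- derivative of `d C D` -/
theorem GC_mul {C D : ℂ → ℝ} {z : ℂ} (d : ℝ) (v : ℂ)
    (hC : DifferentiableAt ℝ C z) (hD : DifferentiableAt ℝ D z) :
    fderiv ℝ (fun z => d * (C z * D z)) z v =
      d * (fderiv ℝ C z v * D z + C z * fderiv ℝ D z v) := by
  refine GC_eq ((hC.fun_mul hD).const_mul d) ?_
  have e0 : z + (0 : ℝ) • v = z := by simp
  have l := ((GC_line v hC).fun_mul (GC_line v hD)).const_mul d
  refine l.congr_deriv ?_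
  simp only [e0]

theorem GC_exp {ρ : ℂ → ℝ} {z : ℂ} (v : ℂ) (hρ : DifferentiableAt ℝ ρ z) :
    fderiv ℝ (fun z => Real.exp (2 * ρ z)) z v = 2 * (Real.exp (2 * ρ z) * fderiv ℝ ρ z v) := by
  refine GC_eq ((hρ.const_mul 2).exp) ?_
  have e0 : z + (0 : ℝ) • v = z := by simp
  have l := ((GC_line v hρ).const_mul 2).exp
  refine l.congr_deriv ?_
  simp only [e0]
  ring

theorem GC_phi (ε : ℝ) {φ ρ b E F G : ℂ → ℝ} (hφ : ContDiff ℝ ∞ φ) (hρ : ContDiff ℝ ∞ ρ)
    (hb : b = fun z => Real.exp (2 * ρ z))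
    (hE : E = fun z => b z + (-ε) * (dx φ z * dx φ z))
    (hF : F = fun z => (-ε) * (dx φ z * dy φ z))
    (hG : G = fun z => b z + (-ε) * (dy φ z * dy φ z)) (z : ℂ) (hE0 : 0 < E z)
    (hD : 0 < E z * G z - F z ^ 2) :
    dx (Om2 E F G) z - dy (Om1 E F G) z =
      (b z * (E z * G z - F z ^ 2) * (dx (dx ρ) z + dy (dy ρ) z)
        + ε * b z ^ 2 *
          ((dx (dx φ) z - 2 * dx ρ z * dx φ z + (dx ρ z * dx φ z + dy ρ z * dy φ z))
            * (dy (dy φ) z - 2 * dy ρ z * dy φ z + (dx ρ z * dx φ z + dy ρ z * dy φ z))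
            - (dx (dy φ) z - dx ρ z * dy φ z - dy ρ z * dx φ z) ^ 2))
        / √(E z * G z - F z ^ 2) ^ 3 := by
  have sφx : ContDiff ℝ ∞ (dx φ) := GC_sm hφ 1
  have sφy : ContDiff ℝ ∞ (dy φ) := GC_sm hφ I
  have sφxy : ContDiff ℝ ∞ (dx (dy φ)) := GC_sm sφy 1
  have sφxx : ContDiff ℝ ∞ (dx (dx φ)) := GC_sm sφx 1
  have sφyy : ContDiff ℝ ∞ (dy (dy φ)) := GC_sm sφy I
  have sρx : ContDiff ℝ ∞ (dx ρ) := GC_sm hρ 1
  have sρy : ContDiff ℝ ∞ (dy ρ) := GC_sm hρ I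
  have sb : ContDiff ℝ ∞ b := by
    rw [hb]; exact (contDiff_const.mul hρ).exp
  have m1 : dy (dx φ) = dx (dy φ) := funext fun z => GC_mixed hφ z 1 I
  have m2 : dy (dx (dy φ)) = dx (dy (dy φ)) := funext fun z => GC_mixed sφy z 1 I
  have bx : dx b = fun z => 2 * (b z * dx ρ z) := by
    funext z; rw [hb]; exact GC_exp 1 (GC_diff hρ z)
  have by' : dy b = fun z => 2 * (b z * dy ρ z) := by
    funext z; rw [hb]; exact GC_exp I (GC_diff hρ z)
  have Ex : dx E = fun z => 2 * (b z * dx ρ z) + (-2 * ε) * (dx φ z * dx (dx φ) z) := by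
    funext z; rw [hE]
    refine (GC_add (-ε) 1 (GC_diff sb z) (GC_diff sφx z) (GC_diff sφx z)).trans ?_
    have h1 : fderiv ℝ b z 1 = 2 * (b z * dx ρ z) := congrFun bx z
    have h2 : fderiv ℝ (dx φ) z 1 = dx (dx φ) z := rfl
    rw [h1, h2]; ring
  have Ey : dy E = fun z => 2 * (b z * dy ρ z) + (-2 * ε) * (dx φ z * dx (dy φ) z) := by
    funext z; rw [hE]
    refine (GC_add (-ε) I (GC_diff sb z) (GC_diff sφx z) (GC_diff sφx z)).trans ?_
    have h1 : fderiv ℝ b z I = 2 * (b z * dy ρ z) := congrFun by' z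
    have h2 : fderiv ℝ (dx φ) z I = dx (dy φ) z := congrFun m1 z
    rw [h1, h2]; ring
  have Gx : dx G = fun z => 2 * (b z * dx ρ z) + (-2 * ε) * (dy φ z * dx (dy φ) z) := by
    funext z; rw [hG]
    refine (GC_add (-ε) 1 (GC_diff sb z) (GC_diff sφy z) (GC_diff sφy z)).trans ?_
    have h1 : fderiv ℝ b z 1 = 2 * (b z * dx ρ z) := congrFun bx z
    have h2 : fderiv ℝ (dy φ) z 1 = dx (dy φ) z := rfl
    rw [h1, h2]; ring
  have Gy : dy G = fun z => 2 * (b z * dy ρ z) + (-2 * ε) * (dy φ z * dy (dy φ) z) := by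
    funext z; rw [hG]
    refine (GC_add (-ε) I (GC_diff sb z) (GC_diff sφy z) (GC_diff sφy z)).trans ?_
    have h1 : fderiv ℝ b z I = 2 * (b z * dy ρ z) := congrFun by' z
    have h2 : fderiv ℝ (dy φ) z I = dy (dy φ) z := rfl
    rw [h1, h2]; ring
  have Fx : dx F = fun z => (-ε) * (dx (dx φ) z * dy φ z) + (-ε) * (dx φ z * dx (dy φ) z) := by
    funext z; rw [hF]
    refine (GC_mul (-ε) 1 (GC_diff sφx z) (GC_diff sφy z)).trans ?_
    have h2 : fderiv ℝ (dy φ) z 1 = dx (dy φ) z := rfl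
    have h3 : fderiv ℝ (dx φ) z 1 = dx (dx φ) z := rfl
    rw [h3, h2]; ring
  have Fy : dy F = fun z => (-ε) * (dx (dy φ) z * dy φ z) + (-ε) * (dx φ z * dy (dy φ) z) := by
    funext z; rw [hF]
    refine (GC_mul (-ε) I (GC_diff sφx z) (GC_diff sφy z)).trans ?_
    have h2 : fderiv ℝ (dy φ) z I = dy (dy φ) z := rfl
    have h3 : fderiv ℝ (dx φ) z I = dx (dy φ) z := congrFun m1 z
    rw [h3, h2]; ring
  have Gxx : dx (dx G) z = 2 * (2 * (b z * dx ρ z) * dx ρ z + b z * dx (dx ρ) z)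
      + (-2 * ε) * (dx (dy φ) z * dx (dy φ) z + dy φ z * dx (dx (dy φ)) z) := by
    rw [Gx]
    refine (GC_lin 2 (-2 * ε) 1 (GC_diff sb z) (GC_diff sρx z) (GC_diff sφy z)
      (GC_diff sφxy z)).trans ?_
    have h1 : fderiv ℝ b z 1 = 2 * (b z * dx ρ z) := congrFun bx z
    rw [h1]
    rfl
  have Eyy : dy (dy E) z = 2 * (2 * (b z * dy ρ z) * dy ρ z + b z * dy (dy ρ) z)
      + (-2 * ε) * (dx (dy φ) z * dx (dy φ) z + dx φ z * dx (dy (dy φ)) z) := by
    rw [Ey]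
    refine (GC_lin 2 (-2 * ε) I (GC_diff sb z) (GC_diff sρy z) (GC_diff sφx z)
      (GC_diff sφxy z)).trans ?_
    have h1 : fderiv ℝ b z I = 2 * (b z * dy ρ z) := congrFun by' z
    have h2 : fderiv ℝ (dx φ) z I = dx (dy φ) z := congrFun m1 z
    have h3 : fderiv ℝ (dx (dy φ)) z I = dx (dy (dy φ)) z := congrFun m2 z
    rw [h1, h2, h3]
    rfl
  have Fxy : dx (dy F) z = (-ε) * (dx (dx (dy φ)) z * dy φ z + dx (dy φ) z * dx (dy φ) z)
      + (-ε) * (dx (dx φ) z * dy (dy φ) z + dx φ z * dx (dy (dy φ)) z) := by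
    rw [Fy]
    exact (GC_lin (-ε) (-ε) 1 (GC_diff sφxy z) (GC_diff sφy z) (GC_diff sφx z)
      (GC_diff sφyy z))
  have sE : ContDiff ℝ ∞ E := by
    rw [hE]; exact sb.add (contDiff_const.mul (sφx.mul sφx))
  have sF : ContDiff ℝ ∞ F := by
    rw [hF]; exact (contDiff_const.mul (sφx.mul sφy))
  have sG : ContDiff ℝ ∞ G := by
    rw [hG]; exact sb.add (contDiff_const.mul (sφy.mul sφy))
  rw [GC_gen sE sF sG z hE0 hD, Gxx, Eyy, Fxy, Ex, Ey, Fx, Fy, Gx, Gy]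
  have e1 : E z = b z + (-ε) * (dx φ z * dx φ z) := by rw [hE]
  have e2 : F z = (-ε) * (dx φ z * dy φ z) := by rw [hF]
  have e3 : G z = b z + (-ε) * (dy φ z * dy φ z) := by rw [hG]
  congr 1
  rw [e1, e2, e3]
  unfold GCBr
  ring

/-- derivative of `u + c log a` -/
theorem GC_log {u a : ℂ → ℝ} {z : ℂ} (c : ℝ) (v : ℂ) (hu : DifferentiableAt ℝ u z)
    (ha : DifferentiableAt ℝ a z) (hpos : 0 < a z) :
    fderiv ℝ (fun z => u z + c * Real.log (a z)) z v =
      fderiv ℝ u z v + c * (fderiv ℝ a z v / a z) := by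
  refine GC_eq (hu.fun_add ((ha.log hpos.ne').const_mul c)) ?_
  have e0 : z + (0 : ℝ) • v = z := by simp
  have l := (GC_line v hu).fun_add
    (((GC_line v ha).log (by rw [e0]; exact hpos.ne')).const_mul c)
  refine l.congr_deriv ?_
  simp only [e0]

/-- derivative of `u + c A / a` -/
theorem GC_log2 {u A a : ℂ → ℝ} {z : ℂ} (c : ℝ) (v : ℂ) (hu : DifferentiableAt ℝ u z)
    (hA : DifferentiableAt ℝ A z) (ha : DifferentiableAt ℝ a z) (hpos : 0 < a z) :
    fderiv ℝ (fun z => u z + c * (A z / a z)) z v =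
      fderiv ℝ u z v + c * ((fderiv ℝ A z v * a z - A z * fderiv ℝ a z v) / a z ^ 2) := by
  have hinv : DifferentiableAt ℝ (fun x : ℝ => x⁻¹) (a z) := differentiableAt_inv hpos.ne'
  have hd1 : DifferentiableAt ℝ (fun z => (a z)⁻¹) z := hinv.comp z ha
  have hq : DifferentiableAt ℝ (fun z => A z / a z) z := by
    simp only [div_eq_mul_inv]
    exact hA.fun_mul hd1
  refine GC_eq (hu.fun_add (hq.const_mul c)) ?_
  have e0 : z + (0 : ℝ) • v = z := by simp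
  have l := (GC_line v hu).fun_add
    (((GC_line v hA).fun_div (GC_line v ha) (by rw [e0]; exact hpos.ne')).const_mul c)
  refine l.congr_deriv ?_
  simp only [e0]

theorem curv (ε : ℝ) (a w : ℂ → ℝ) (ha : ContDiff ℝ ∞ a) (hw : ContDiff ℝ ∞ w) (hpos : ∀ z, 0 < a z)
    (hε0 : 0 ≤ ε) (hε : ∀ z, ε * (p1 a w z ^ 2 + p2 a w z ^ 2) < 1) (z : ℂ) :
    dx (Om2 (mE ε a w) (mF ε a w) (mG ε a w)) z - dy (Om1 (mE ε a w) (mF ε a w) (mG ε a w)) z
      = - LstarF ε a w z / (a z ^ 8 * √(mE ε a w z * mG ε a w z - mF ε a w z ^ 2) ^ 3) := by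
  obtain ⟨φ, hφd⟩ : ∃ φ : ℂ → ℝ, φ = fun z => w z + 1 * Real.log (a z) := ⟨_, rfl⟩
  obtain ⟨o, hod⟩ : ∃ o : ℂ → ℝ, o = fun _ => 0 := ⟨_, rfl⟩
  obtain ⟨ρ, hρd⟩ : ∃ ρ : ℂ → ℝ, ρ = fun z => o z + (-1) * Real.log (a z) := ⟨_, rfl⟩
  have slog : ContDiff ℝ ∞ fun z => Real.log (a z) := ha.log fun z => (hpos z).ne'
  have so : ContDiff ℝ ∞ o := by rw [hod]; exact contDiff_const
  have sφ : ContDiff ℝ ∞ φ := by rw [hφd]; exact hw.add (contDiff_const.mul slog)
  have sρ : ContDiff ℝ ∞ ρ := by rw [hρd]; exact so.add (contDiff_const.mul slog)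
  have sax : ContDiff ℝ ∞ (dx a) := GC_sm ha 1
  have say : ContDiff ℝ ∞ (dy a) := GC_sm ha I
  have swx : ContDiff ℝ ∞ (dx w) := GC_sm hw 1
  have swy : ContDiff ℝ ∞ (dy w) := GC_sm hw I
  have ox : dx o = o := by rw [hod]; funext z; simp [dx]
  have oy : dy o = o := by rw [hod]; funext z; simp [dy]
  have o0 : ∀ z, o z = 0 := fun z => by rw [hod]
  have φx : dx φ = fun z => dx w z + 1 * (dx a z / a z) := by
    funext z; rw [hφd]; exact GC_log 1 1 (GC_diff hw z) (GC_diff ha z) (hpos z)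
  have φy : dy φ = fun z => dy w z + 1 * (dy a z / a z) := by
    funext z; rw [hφd]; exact GC_log 1 I (GC_diff hw z) (GC_diff ha z) (hpos z)
  have ρx : dx ρ = fun z => dx o z + (-1) * (dx a z / a z) := by
    funext z; rw [hρd]; exact GC_log (-1) 1 (GC_diff so z) (GC_diff ha z) (hpos z)
  have ρy : dy ρ = fun z => dy o z + (-1) * (dy a z / a z) := by
    funext z; rw [hρd]; exact GC_log (-1) I (GC_diff so z) (GC_diff ha z) (hpos z)
  have φxx : dx (dx φ) z = dx (dx w) z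
      + 1 * ((dx (dx a) z * a z - dx a z * dx a z) / a z ^ 2) := by
    rw [φx]; exact GC_log2 1 1 (GC_diff swx z) (GC_diff sax z) (GC_diff ha z) (hpos z)
  have φxy : dx (dy φ) z = dx (dy w) z
      + 1 * ((dx (dy a) z * a z - dy a z * dx a z) / a z ^ 2) := by
    rw [φy]; exact GC_log2 1 1 (GC_diff swy z) (GC_diff say z) (GC_diff ha z) (hpos z)
  have φyy : dy (dy φ) z = dy (dy w) z
      + 1 * ((dy (dy a) z * a z - dy a z * dy a z) / a z ^ 2) := by
    rw [φy]; exact GC_log2 1 I (GC_diff swy z) (GC_diff say z) (GC_diff ha z) (hpos z)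
  have ρxx : dx (dx ρ) z = 0 + (-1) * ((dx (dx a) z * a z - dx a z * dx a z) / a z ^ 2) := by
    rw [ρx, ox]
    refine (GC_log2 (-1) 1 (GC_diff so z) (GC_diff sax z) (GC_diff ha z) (hpos z)).trans ?_
    have : fderiv ℝ o z 1 = 0 := (congrFun ox z).trans (o0 z)
    rw [this]; rfl
  have ρyy : dy (dy ρ) z = 0 + (-1) * ((dy (dy a) z * a z - dy a z * dy a z) / a z ^ 2) := by
    rw [ρy, oy]
    refine (GC_log2 (-1) I (GC_diff so z) (GC_diff say z) (GC_diff ha z) (hpos z)).trans ?_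
    have : fderiv ℝ o z I = 0 := (congrFun oy z).trans (o0 z)
    rw [this]; rfl
  have hb : ∀ z, Real.exp (2 * ρ z) = 1 / a z ^ 2 := by
    intro z
    have : 2 * ρ z = - (Real.log (a z) + Real.log (a z)) := by
      rw [hρd]; simp only [o0]; ring
    rw [this, Real.exp_neg, Real.exp_add, Real.exp_log (hpos z)]
    rw [one_div, sq]
  have eE : mE ε a w = fun z => Real.exp (2 * ρ z) + (-ε) * (dx φ z * dx φ z) := by
    funext z
    rw [hb, φx]
    have := (hpos z).ne'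
    simp only [mE, p1]
    field_simp
    ring
  have eF : mF ε a w = fun z => (-ε) * (dx φ z * dy φ z) := by
    funext z
    rw [φx, φy]
    have := (hpos z).ne'
    simp only [mF, p1, p2]
    field_simp
    ring
  have eG : mG ε a w = fun z => Real.exp (2 * ρ z) + (-ε) * (dy φ z * dy φ z) := by
    funext z
    rw [hb, φy]
    have := (hpos z).ne'
    simp only [mG, p2]
    field_simp
    ring
  have haz := (hpos z).ne'
  have hDval : mE ε a w z * mG ε a w z - mF ε a w z ^ 2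
      = (1 - ε * (p1 a w z ^ 2 + p2 a w z ^ 2)) / a z ^ 4 := by
    simp only [mE, mF, mG]
    field_simp
    ring
  have hD0 : 0 < mE ε a w z * mG ε a w z - mF ε a w z ^ 2 := by
    rw [hDval]
    have := hε z
    have h4 := hpos z
    apply div_pos (by linarith) (by positivity)
  have hE0 : 0 < mE ε a w z := by
    have := hε z
    have h4 := hpos z
    have h5 : 0 ≤ ε * p2 a w z ^ 2 := by positivity
    unfold mE
    apply div_pos (by linarith) (by positivity)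
  have hs : 0 < √(mE ε a w z * mG ε a w z - mF ε a w z ^ 2) := Real.sqrt_pos.2 hD0
  rw [GC_phi ε (b := fun z => Real.exp (2 * ρ z)) sφ sρ rfl eE eF eG z hE0 hD0]
  rw [div_eq_div_iff (by positivity) (by have := hpos z; positivity)]
  rw [← mul_assoc, mul_comm (- LstarF ε a w z) _, mul_comm _ (_ ^ 3)]
  congr 1
  simp only [hb, hDval]
  rw [φxx, φxy, φyy, ρxx, ρyy, φx, φy, ρx, ρy]
  simp only [ox, oy, o0, p1, p2, LstarF, Lstar]
  field_simp
  ring

end P205T
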