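import Vale.Agent.P205T.Defs

/-! Auxiliary lemmas for module GG (helper95): derivatives, joint continuity, fundamental domain. -/

open Complex ComplexConjugate Topology Filter
open scoped ContDiff

namespace P205T

section ggcalc

variable {β : Type*} [NormedAddCommGroup β] [NormedSpace ℝ β]

theorem gg_fderiv_apply (f : ℂ → β) (z v : ℂ) :
    fderiv ℝ f z v = v.re • dx f z + v.im • dy f z := by
  have h : v = v.re • (1 : ℂ) + v.im • Complex.I := by
    apply Complex.ext <;> simp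
  conv_lhs => rw [h]
  rw [map_add, map_smul, map_smul]
  rfl

theorem gg_dx_contDiff {f : ℂ → β} (hf : ContDiff ℝ ∞ f) : ContDiff ℝ ∞ (dx f) :=
  (hf.fderiv_right (m := ∞) le_rfl).clm_apply contDiff_const

theorem gg_dy_contDiff {f : ℂ → β} (hf : ContDiff ℝ ∞ f) : ContDiff ℝ ∞ (dy f) :=
  (hf.fderiv_right (m := ∞) le_rfl).clm_apply contDiff_const

theorem gg_fderiv_per {f : ℂ → β} {c : ℂ} (h : ∀ z, f (z + c) = f z) (z : ℂ) :
    fderiv ℝ f (z + c) = fderiv ℝ f z := by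
  have h1 : (fun x => f (x + c)) = f := funext h
  have h2 := fderiv_comp_add_right (𝕜 := ℝ) (f := f) (x := z) c
  rw [h1] at h2
  exact h2.symm

theorem gg_dx_per {L : Lat} {f : ℂ → β} (h : Per L f) : Per L (dx f) :=
  ⟨fun z => by unfold dx; rw [gg_fderiv_per h.1], fun z => by unfold dx; rw [gg_fderiv_per h.2]⟩

theorem gg_dy_per {L : Lat} {f : ℂ → β} (h : Per L f) : Per L (dy f) :=
  ⟨fun z => by unfold dy; rw [gg_fderiv_per h.1], fun z => by unfold dy; rw [gg_fderiv_per h.2]⟩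

theorem gg_symm {f : ℂ → β} (hf : ContDiff ℝ ∞ f) (z : ℂ) : dy (dx f) z = dx (dy f) z := by
  have hd : DifferentiableAt ℝ (fderiv ℝ f) z :=
    ((hf.fderiv_right (m := 1) (by norm_cast)).differentiable one_ne_zero) z
  have h1 : ∀ u v : ℂ, fderiv ℝ (fun x => fderiv ℝ f x u) z v = fderiv ℝ (fderiv ℝ f) z v u := by
    intro u v
    have h2 : HasFDerivAt (fun x => fderiv ℝ f x u)
        ((ContinuousLinearMap.apply ℝ β u).comp (fderiv ℝ (fderiv ℝ f) z)) z :=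
      (ContinuousLinearMap.apply ℝ β u).hasFDerivAt.comp z hd.hasFDerivAt
    rw [h2.fderiv]
    rfl
  have hs : IsSymmSndFDerivAt ℝ f z := by
    refine ContDiffAt.isSymmSndFDerivAt (n := ∞) hf.contDiffAt ?_
    simp
    norm_cast
  change fderiv ℝ (fun x => fderiv ℝ f x 1) z Complex.I =
    fderiv ℝ (fun x => fderiv ℝ f x Complex.I) z 1
  rw [h1, h1]
  exact hs _ _

end ggcalc

/-! ### joint continuity of first derivatives -/

/-- a family of functions with jointly continuous first derivatives -/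
structure GGJ (f : ℝ → ℂ → ℝ) : Prop where
  d : ∀ ε, Differentiable ℝ (f ε)
  c : Continuous fun q : ℝ × ℂ => f q.1 q.2
  cx : Continuous fun q : ℝ × ℂ => dx (f q.1) q.2
  cy : Continuous fun q : ℝ × ℂ => dy (f q.1) q.2

theorem GGJ.add {f g : ℝ → ℂ → ℝ} (hf : GGJ f) (hg : GGJ g) : GGJ fun ε z => f ε z + g ε z := by
  have h : ∀ ε z, fderiv ℝ (fun z => f ε z + g ε z) z = fderiv ℝ (f ε) z + fderiv ℝ (g ε) z :=
    fun ε z => fderiv_fun_add (hf.d ε z) (hg.d ε z)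
  refine ⟨fun ε => (hf.d ε).add (hg.d ε), hf.c.add hg.c, ?_, ?_⟩
  · have h1 : (fun q : ℝ × ℂ => dx (fun z => f q.1 z + g q.1 z) q.2) =
        fun q => dx (f q.1) q.2 + dx (g q.1) q.2 := by
      funext q
      simp only [dx, h]
      rfl
    rw [h1]
    exact hf.cx.add hg.cx
  · have h1 : (fun q : ℝ × ℂ => dy (fun z => f q.1 z + g q.1 z) q.2) =
        fun q => dy (f q.1) q.2 + dy (g q.1) q.2 := by
      funext q
      simp only [dy, h]
      rfl
    rw [h1]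
    exact hf.cy.add hg.cy

theorem GGJ.mul {f g : ℝ → ℂ → ℝ} (hf : GGJ f) (hg : GGJ g) : GGJ fun ε z => f ε z * g ε z := by
  have h : ∀ ε z v, fderiv ℝ (fun z => f ε z * g ε z) z v =
      f ε z * fderiv ℝ (g ε) z v + g ε z * fderiv ℝ (f ε) z v := by
    intro ε z v
    rw [fderiv_fun_mul (hf.d ε z) (hg.d ε z)]
    rfl
  refine ⟨fun ε => (hf.d ε).mul (hg.d ε), hf.c.mul hg.c, ?_, ?_⟩
  · have h1 : (fun q : ℝ × ℂ => dx (fun z => f q.1 z * g q.1 z) q.2) =
        fun q => f q.1 q.2 * dx (g q.1) q.2 + g q.1 q.2 * dx (f q.1) q.2 := by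
      funext q
      simp only [dx, h]
    rw [h1]
    exact (hf.c.mul hg.cx).add (hg.c.mul hf.cx)
  · have h1 : (fun q : ℝ × ℂ => dy (fun z => f q.1 z * g q.1 z) q.2) =
        fun q => f q.1 q.2 * dy (g q.1) q.2 + g q.1 q.2 * dy (f q.1) q.2 := by
      funext q
      simp only [dy, h]
    rw [h1]
    exact (hf.c.mul hg.cy).add (hg.c.mul hf.cy)

theorem GGJ.inv {f : ℝ → ℂ → ℝ} (hf : GGJ f) (h0 : ∀ ε z, f ε z ≠ 0) :
    GGJ fun ε z => (f ε z)⁻¹ := by
  have h : ∀ ε z v, fderiv ℝ (fun z => (f ε z)⁻¹) z v =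
      -((f ε z ^ 2)⁻¹) * fderiv ℝ (f ε) z v := by
    intro ε z v
    have h1 : HasFDerivAt (fun z => (f ε z)⁻¹) (-((f ε z ^ 2)⁻¹) • fderiv ℝ (f ε) z) z :=
      (hasDerivAt_inv (h0 ε z)).comp_hasFDerivAt z (hf.d ε z).hasFDerivAt
    rw [h1.fderiv]
    rfl
  have hc2 : Continuous fun q : ℝ × ℂ => -((f q.1 q.2 ^ 2)⁻¹) :=
    ((hf.c.pow 2).inv₀ fun q => pow_ne_zero 2 (h0 _ _)).neg
  refine ⟨fun ε => (hf.d ε).inv (h0 ε), hf.c.inv₀ fun q => h0 _ _, ?_, ?_⟩
  · have h1 : (fun q : ℝ × ℂ => dx (fun z => (f q.1 z)⁻¹) q.2) =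
        fun q => -((f q.1 q.2 ^ 2)⁻¹) * dx (f q.1) q.2 := by
      funext q
      simp only [dx, h]
    rw [h1]
    exact hc2.mul hf.cx
  · have h1 : (fun q : ℝ × ℂ => dy (fun z => (f q.1 z)⁻¹) q.2) =
        fun q => -((f q.1 q.2 ^ 2)⁻¹) * dy (f q.1) q.2 := by
      funext q
      simp only [dy, h]
    rw [h1]
    exact hc2.mul hf.cy

theorem GGJ.const {w : ℂ → ℝ} (hw : ContDiff ℝ 1 w) : GGJ fun _ => w := by
  have h := hw.continuous_fderiv one_ne_zero
  refine ⟨fun _ => hw.differentiable one_ne_zero, hw.continuous.comp continuous_snd, ?_, ?_⟩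
  · exact (h.clm_apply continuous_const).comp continuous_snd
  · exact (h.clm_apply continuous_const).comp continuous_snd

theorem GGJ.par {g : ℝ → ℝ} (hg : Continuous g) : GGJ fun ε _ => g ε := by
  refine ⟨fun _ => differentiable_const _, hg.comp continuous_fst, ?_, ?_⟩
  · have h1 : (fun q : ℝ × ℂ => dx (fun _ : ℂ => g q.1) q.2) = fun _ => 0 := by
      funext q
      simp [dx]
    rw [h1]
    exact continuous_const
  · have h1 : (fun q : ℝ × ℂ => dy (fun _ : ℂ => g q.1) q.2) = fun _ => 0 := by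
      funext q
      simp [dy]
    rw [h1]
    exact continuous_const

/-! ### tube lemma and fundamental domain -/

theorem gg_tube {f : ℝ → ℂ → ℝ} (hf : Continuous fun q : ℝ × ℂ => f q.1 q.2) {K : Set ℂ}
    (hK : IsCompact K) {c : ℝ} (h0 : ∀ z, f 0 z < c) :
    ∀ᶠ ε in 𝓝 (0 : ℝ), ∀ z ∈ K, f ε z < c := by
  refine hK.eventually_forall_of_forall_eventually fun y _ => ?_
  exact hf.continuousAt.eventually_lt continuousAt_const (h0 y)

theorem gg_domain (L : Lat) (z : ℂ) : ∃ m n : ℤ,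
    z - m • L.ω₁ - n • L.ω₂ ∈ Metric.closedBall (0 : ℂ) (‖L.ω₁‖ + ‖L.ω₂‖) := by
  let δ : ℝ := (conj L.ω₁ * L.ω₂).im
  have hδ : δ ≠ 0 := L.h
  let s : ℝ := (conj z * L.ω₂).im / δ
  let t : ℝ := (conj L.ω₁ * z).im / δ
  have hz : z = (s : ℂ) * L.ω₁ + (t : ℂ) * L.ω₂ := by
    have hδ' : L.ω₁.re * L.ω₂.im - L.ω₁.im * L.ω₂.re ≠ 0 := by
      have h1 : δ = L.ω₁.re * L.ω₂.im - L.ω₁.im * L.ω₂.re := by
        change (conj L.ω₁ * L.ω₂).im = _
        simp [Complex.mul_im]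
        ring
      rwa [← h1]
    have h1 : δ = L.ω₁.re * L.ω₂.im - L.ω₁.im * L.ω₂.re := by
      change (conj L.ω₁ * L.ω₂).im = _
      simp [Complex.mul_im]
      ring
    have hs : s = (z.re * L.ω₂.im - z.im * L.ω₂.re) / δ := by
      change (conj z * L.ω₂).im / δ = _
      simp [Complex.mul_im]
      ring
    have ht : t = (L.ω₁.re * z.im - L.ω₁.im * z.re) / δ := by
      change (conj L.ω₁ * z).im / δ = _
      simp [Complex.mul_im]
      ring
    rw [hs, ht, h1]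
    apply Complex.ext
    · simp only [Complex.add_re, Complex.re_ofReal_mul]
      rw [div_mul_eq_mul_div, div_mul_eq_mul_div, ← add_div, eq_div_iff hδ']
      ring
    · simp only [Complex.add_im, Complex.im_ofReal_mul]
      rw [div_mul_eq_mul_div, div_mul_eq_mul_div, ← add_div, eq_div_iff hδ']
      ring
  refine ⟨⌊s⌋, ⌊t⌋, ?_⟩
  rw [mem_closedBall_zero_iff]
  have h2 : z - ⌊s⌋ • L.ω₁ - ⌊t⌋ • L.ω₂ =
      ((Int.fract s : ℝ) : ℂ) * L.ω₁ + ((Int.fract t : ℝ) : ℂ) * L.ω₂ := by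
    conv_lhs => rw [hz]
    rw [Int.fract, Int.fract, zsmul_eq_mul, zsmul_eq_mul]
    push_cast
    ring
  rw [h2]
  refine (norm_add_le _ _).trans (add_le_add ?_ ?_)
  · rw [norm_mul, Complex.norm_real, Real.norm_of_nonneg (Int.fract_nonneg _)]
    exact mul_le_of_le_one_left (norm_nonneg _) (Int.fract_lt_one _).le
  · rw [norm_mul, Complex.norm_real, Real.norm_of_nonneg (Int.fract_nonneg _)]
    exact mul_le_of_le_one_left (norm_nonneg _) (Int.fract_lt_one _).le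

theorem gg_per_eq {L : Lat} {β : Type*} {f : ℂ → β} (h : Per L f) (z : ℂ) (m n : ℤ) :
    f (z - m • L.ω₁ - n • L.ω₂) = f z := by
  have h1 : Function.Periodic f L.ω₁ := h.1
  have h2 : Function.Periodic f L.ω₂ := h.2
  rw [h2.sub_zsmul_eq, h1.sub_zsmul_eq]

/-- a periodic family that is `< c` at `ε = 0` is `< c` for small `ε`. -/
theorem gg_small (L : Lat) {f : ℝ → ℂ → ℝ} (hf : Continuous fun q : ℝ × ℂ => f q.1 q.2)
    (hper : ∀ ε, Per L (f ε)) {c : ℝ} (h0 : ∀ z, f 0 z < c) :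
    ∀ᶠ ε in 𝓝 (0 : ℝ), ∀ z, f ε z < c := by
  filter_upwards [gg_tube hf (isCompact_closedBall (0 : ℂ) (‖L.ω₁‖ + ‖L.ω₂‖)) h0] with ε hε z
  obtain ⟨m, n, hmn⟩ := gg_domain L z
  rw [← gg_per_eq (hper ε) z m n]
  exact hε _ hmn

end P205T
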