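import Vale.Agent.P205T.Defs

/-! Module GF: `dθ = -i Ω ∧ θ` for the coframe.  Real part: `(F/√E)_x - (√E)_y = Om1 D/√E`,
imaginary part: `(D/√E)_x = -Om1 F/√E + Om2 √E`, `D = √(EG-F²)`. -/

open Complex ComplexConjugate
open scoped ContDiff

namespace P205T

private theorem GF_line {f : ℂ → ℝ} {z : ℂ} (hf : DifferentiableAt ℝ f z) (v : ℂ) :
    HasDerivAt (fun t : ℝ => f (z + t • v)) (fderiv ℝ f z v) 0 := by
  have h1 : HasDerivAt (fun t : ℝ => z + t • v) v 0 := by
    have h := ((hasDerivAt_id (0 : ℝ)).smul_const v).const_add z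
    simpa using h
  have h2 : HasFDerivAt f (fderiv ℝ f z) (z + (0 : ℝ) • v) := by
    simpa using hf.hasFDerivAt
  exact h2.comp_hasDerivAt (0 : ℝ) h1

/-- the derivative of `√E` -/
private theorem GF_sqrt {E : ℂ → ℝ} {z : ℂ} (hE : DifferentiableAt ℝ E z) (hE0 : 0 < E z) (v : ℂ) :
    fderiv ℝ (fun x => √(E x)) z v = fderiv ℝ E z v / (2 * √(E z)) := by
  have hd : DifferentiableAt ℝ (fun x => √(E x)) z := hE.sqrt hE0.ne'
  have h1 := GF_line hd v
  have h2 := GF_line hE v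
  have h3 := h2.sqrt (by simpa using hE0.ne')
  have h4 := h1.unique h3
  simpa using h4

private theorem GF_ddiv {f g : ℂ → ℝ} {z : ℂ} (hf : DifferentiableAt ℝ f z)
    (hg : DifferentiableAt ℝ g z) (h0 : g z ≠ 0) :
    DifferentiableAt ℝ (fun x => f x / g x) z := by
  have h1 : DifferentiableAt ℝ (fun x => (g x)⁻¹) z := hg.inv h0
  have h2 : DifferentiableAt ℝ (fun x => f x * (g x)⁻¹) z := hf.mul h1
  simpa only [div_eq_mul_inv] using h2

/-- the derivative of a quotient -/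
private theorem GF_div {f g : ℂ → ℝ} {z : ℂ} (hf : DifferentiableAt ℝ f z)
    (hg : DifferentiableAt ℝ g z) (h0 : g z ≠ 0) (v : ℂ) :
    fderiv ℝ (fun x => f x / g x) z v
      = (fderiv ℝ f z v * g z - f z * fderiv ℝ g z v) / g z ^ 2 := by
  have hd : DifferentiableAt ℝ (fun x => f x / g x) z := GF_ddiv hf hg h0
  have h1 := GF_line hd v
  have h2 := GF_line hf v
  have h3 := GF_line hg v
  have h4 := h2.div h3 (by simpa using h0)
  have h5 := h1.unique h4
  simpa using h5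

/-- the derivative of `EG - F²` -/
private theorem GF_det {E F G : ℂ → ℝ} {z : ℂ} (hE : DifferentiableAt ℝ E z)
    (hF : DifferentiableAt ℝ F z) (hG : DifferentiableAt ℝ G z) (v : ℂ) :
    fderiv ℝ (fun x => E x * G x - F x ^ 2) z v
      = fderiv ℝ E z v * G z + E z * fderiv ℝ G z v - 2 * F z * fderiv ℝ F z v := by
  have hd : DifferentiableAt ℝ (fun x => E x * G x - F x ^ 2) z := (hE.mul hG).sub (hF.pow 2)
  have h1 := GF_line hd v
  have h2 := ((GF_line hE v).mul (GF_line hG v)).sub ((GF_line hF v).pow 2)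
  have h5 := h1.unique h2
  simpa using h5

private theorem GF_cast {R S : ℂ → ℝ} {z : ℂ} (hR : DifferentiableAt ℝ R z)
    (hS : DifferentiableAt ℝ S z) (v : ℂ) :
    fderiv ℝ (fun x => ((R x : ℝ) : ℂ) + Complex.I * ((S x : ℝ) : ℂ)) z v
      = ((fderiv ℝ R z v : ℝ) : ℂ) + Complex.I * ((fderiv ℝ S z v : ℝ) : ℂ) := by
  have hr : HasFDerivAt (fun x => ((R x : ℝ) : ℂ)) (Complex.ofRealCLM.comp (fderiv ℝ R z)) z :=
    Complex.ofRealCLM.hasFDerivAt.comp z hR.hasFDerivAt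
  have hs : HasFDerivAt (fun x => ((S x : ℝ) : ℂ)) (Complex.ofRealCLM.comp (fderiv ℝ S z)) z :=
    Complex.ofRealCLM.hasFDerivAt.comp z hS.hasFDerivAt
  have h := hr.add (hs.const_mul Complex.I)
  have h' := h.fderiv
  have h2 : fderiv ℝ (fun x => ((R x : ℝ) : ℂ) + Complex.I * ((S x : ℝ) : ℂ)) z
      = Complex.ofRealCLM.comp (fderiv ℝ R z)
        + Complex.I • (Complex.ofRealCLM.comp (fderiv ℝ S z)) := h'
  rw [h2]
  simp

private theorem GF_ofReal {R : ℂ → ℝ} {z : ℂ} (hR : DifferentiableAt ℝ R z) (v : ℂ) :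
    fderiv ℝ (fun x => ((R x : ℝ) : ℂ)) z v = ((fderiv ℝ R z v : ℝ) : ℂ) := by
  have hr : HasFDerivAt (fun x => ((R x : ℝ) : ℂ)) (Complex.ofRealCLM.comp (fderiv ℝ R z)) z :=
    Complex.ofRealCLM.hasFDerivAt.comp z hR.hasFDerivAt
  rw [hr.fderiv]
  simp

private theorem GF_thy (E F G : ℂ → ℝ) :
    thy E F G = fun x => ((F x / √(E x) : ℝ) : ℂ)
      + Complex.I * ((√(E x * G x - F x ^ 2) / √(E x) : ℝ) : ℂ) := by
  funext x
  unfold thy
  push_cast
  ring

theorem coframe (E F G : ℂ → ℝ) (hE : ContDiff ℝ ∞ E) (hF : ContDiff ℝ ∞ F) (hG : ContDiff ℝ ∞ G)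
    (hE0 : ∀ z, 0 < E z) (hD : ∀ z, 0 < E z * G z - F z ^ 2) (z : ℂ) :
    dx (thy E F G) z - dy (thx E) z
      = - Complex.I * ((Om1 E F G z : ℂ) * thy E F G z - (Om2 E F G z : ℂ) * thx E z) := by
  have dE : DifferentiableAt ℝ E z := (hE.differentiable (by simp)) z
  have dF : DifferentiableAt ℝ F z := (hF.differentiable (by simp)) z
  have dG : DifferentiableAt ℝ G z := (hG.differentiable (by simp)) z
  have dS : DifferentiableAt ℝ (fun x => √(E x)) z := dE.sqrt (hE0 z).ne'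
  have dDet : DifferentiableAt ℝ (fun x => E x * G x - F x ^ 2) z := (dE.mul dG).sub (dF.pow 2)
  have dD : DifferentiableAt ℝ (fun x => √(E x * G x - F x ^ 2)) z := dDet.sqrt (hD z).ne'
  have s0 : 0 < √(E z) := Real.sqrt_pos.2 (hE0 z)
  have D0 : 0 < √(E z * G z - F z ^ 2) := Real.sqrt_pos.2 (hD z)
  have s2 : √(E z) ^ 2 = E z := Real.sq_sqrt (hE0 z).le
  have D2 : √(E z * G z - F z ^ 2) ^ 2 = E z * G z - F z ^ 2 := Real.sq_sqrt (hD z).le
  have dR : DifferentiableAt ℝ (fun x => F x / √(E x)) z := GF_ddiv dF dS s0.ne'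
  have dQ : DifferentiableAt ℝ (fun x => √(E x * G x - F x ^ 2) / √(E x)) z := GF_ddiv dD dS s0.ne'
  have e1 : dx (thy E F G) z
      = ((fderiv ℝ (fun x => F x / √(E x)) z 1 : ℝ) : ℂ)
        + Complex.I * ((fderiv ℝ (fun x => √(E x * G x - F x ^ 2) / √(E x)) z 1 : ℝ) : ℂ) := by
    unfold dx
    rw [GF_thy]
    exact GF_cast dR dQ 1
  have e2 : dy (thx E) z = ((fderiv ℝ (fun x => √(E x)) z Complex.I : ℝ) : ℂ) := by
    unfold dy
    exact GF_ofReal dS Complex.I
  have e3 := GF_div dF dS s0.ne' (1 : ℂ)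
  have e4 := GF_div dD dS s0.ne' (1 : ℂ)
  have e5 := GF_sqrt dE (hE0 z) (1 : ℂ)
  have e6 := GF_sqrt dE (hE0 z) Complex.I
  have e7 := GF_sqrt dDet (hD z) (1 : ℂ)
  have e8 := GF_det dE dF dG (1 : ℂ)
  rw [e1, e2, e3, e4, e5, e6, e7, e8]
  unfold Om1 Om2 thx dx dy
  rw [GF_thy]
  set s := √(E z) with hs
  set D := √(E z * G z - F z ^ 2) with hDD
  have es : E z = s ^ 2 := s2.symm
  have re : (fderiv ℝ F z 1 * s - F z * (fderiv ℝ E z 1 / (2 * s))) / s ^ 2
      - fderiv ℝ E z Complex.I / (2 * s)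
      = (2 * E z * fderiv ℝ F z 1 - F z * fderiv ℝ E z 1 - E z * fderiv ℝ E z Complex.I)
        / (2 * E z * D) * (D / s) := by
    rw [es]
    field_simp
  have im : ((fderiv ℝ E z 1 * G z + E z * fderiv ℝ G z 1 - 2 * F z * fderiv ℝ F z 1) / (2 * D) * s
        - D * (fderiv ℝ E z 1 / (2 * s))) / s ^ 2
      = - ((2 * E z * fderiv ℝ F z 1 - F z * fderiv ℝ E z 1 - E z * fderiv ℝ E z Complex.I)
        / (2 * E z * D) * (F z / s))
        + (E z * fderiv ℝ G z 1 - F z * fderiv ℝ E z Complex.I) / (2 * E z * D) * s := by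
    have hDs : G z * s ^ 2 - F z ^ 2 = D ^ 2 := by
      rw [D2, es]; ring
    rw [es]
    field_simp
    linear_combination fderiv ℝ E z 1 * hDs
  apply Complex.ext
  · simp only [Complex.sub_re, Complex.add_re, Complex.mul_re, Complex.neg_re, Complex.ofReal_re,
      Complex.I_re, Complex.I_im, Complex.ofReal_im, Complex.sub_im, Complex.add_im,
      Complex.mul_im, Complex.neg_im]
    linear_combination re
  · simp only [Complex.sub_re, Complex.add_re, Complex.mul_re, Complex.neg_re, Complex.ofReal_re,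
      Complex.I_re, Complex.I_im, Complex.ofReal_im, Complex.sub_im, Complex.add_im,
      Complex.mul_im, Complex.neg_im]
    linear_combination im

end P205T
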