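import Vale.Agent.P205T.Defs

/-! Module GZ: Stokes on the torus.  `f(t) = ∫₀¹ Ω(sω₁+tω₂)·ω₁ ds` is 1-periodic with
`f'(t) = -det(ω₁,ω₂) c ∫₀¹ κ(sω₁+tω₂) ds` (the other term is `∫₀¹ d/ds (Ω·ω₂) ds = 0`).
(Proof here: divergence theorem on the unit square.) -/

open Complex ComplexConjugate
open scoped ContDiff

namespace P205T

open MeasureTheory

private theorem gz_fderiv (O : ℂ → ℝ) (z w : ℂ) :
    fderiv ℝ O z w = dx O z * w.re + dy O z * w.im := by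
  have h : w = w.re • (1 : ℂ) + w.im • Complex.I := by
    apply Complex.ext <;> simp
  conv_lhs => rw [h]
  rw [map_add, map_smul, map_smul]
  simp only [dx, dy, smul_eq_mul]
  ring

/-- derivative of `O` along the affine chart. -/
private theorem gz_hasFDerivAt (L : Lat) {O : ℂ → ℝ} (hO : ContDiff ℝ ∞ O) (x : ℝ × ℝ) :
    HasFDerivAt (fun q : ℝ × ℝ => O (q.1 * L.ω₁ + q.2 * L.ω₂))
      ((fderiv ℝ O (x.1 * L.ω₁ + x.2 * L.ω₂)).comp
        ((ContinuousLinearMap.fst ℝ ℝ ℝ).smulRight L.ω₁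
          + (ContinuousLinearMap.snd ℝ ℝ ℝ).smulRight L.ω₂)) x := by
  have h1 : HasFDerivAt (fun q : ℝ × ℝ => (q.1 * L.ω₁ + q.2 * L.ω₂ : ℂ))
      ((ContinuousLinearMap.fst ℝ ℝ ℝ).smulRight L.ω₁
          + (ContinuousLinearMap.snd ℝ ℝ ℝ).smulRight L.ω₂) x := by
    have h2 := ((ContinuousLinearMap.fst ℝ ℝ ℝ).smulRight L.ω₁
          + (ContinuousLinearMap.snd ℝ ℝ ℝ).smulRight L.ω₂).hasFDerivAt (x := x)
    refine h2.congr_of_eventuallyEq (Filter.Eventually.of_forall fun q => ?_)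
    simp
  have h3 : HasFDerivAt O (fderiv ℝ O (x.1 * L.ω₁ + x.2 * L.ω₂)) (x.1 * L.ω₁ + x.2 * L.ω₂) :=
    ((hO.differentiable (by simp)) _).hasFDerivAt
  exact HasFDerivAt.comp (g := O) x h3 h1

theorem const_zero (L : Lat) (O1 O2 κ : ℂ → ℝ) (h1 : ContDiff ℝ ∞ O1) (h2 : ContDiff ℝ ∞ O2)
    (hp1 : Per L O1) (hp2 : Per L O2) (hκ : Continuous κ) (hκ0 : ∀ z, 0 < κ z) (c : ℝ)
    (h : ∀ z, dx O2 z - dy O1 z = c * κ z) : c = 0 := by
  have hdet : (conj L.ω₁ * L.ω₂).im = L.ω₁.re * L.ω₂.im - L.ω₂.re * L.ω₁.im := by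
    simp [Complex.mul_im]; ring
  have hL := L.h
  rw [hdet] at hL
  -- the two fields
  obtain ⟨z, hz⟩ : ∃ z : ℝ × ℝ → ℂ, z = fun q => (q.1 * L.ω₁ + q.2 * L.ω₂ : ℂ) := ⟨_, rfl⟩
  have hzc : Continuous z := by rw [hz]; fun_prop
  have hO1 : Continuous (fun q : ℝ × ℝ => O1 (z q)) := h1.continuous.comp hzc
  have hO2 : Continuous (fun q : ℝ × ℝ => O2 (z q)) := h2.continuous.comp hzc
  have hc1 : Continuous (fderiv ℝ O1) := h1.continuous_fderiv (by simp)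
  have hc2 : Continuous (fderiv ℝ O2) := h2.continuous_fderiv (by simp)
  have key := integral2_divergence_prod_of_hasFDerivAt_off_countable
    (fun q : ℝ × ℝ => -(O1 (q.1 * L.ω₁ + q.2 * L.ω₂) * L.ω₂.re
      + O2 (q.1 * L.ω₁ + q.2 * L.ω₂) * L.ω₂.im))
    (fun q : ℝ × ℝ => O1 (q.1 * L.ω₁ + q.2 * L.ω₂) * L.ω₁.re
      + O2 (q.1 * L.ω₁ + q.2 * L.ω₂) * L.ω₁.im)
    (fun x => -(L.ω₂.re • ((fderiv ℝ O1 (x.1 * L.ω₁ + x.2 * L.ω₂)).comp
        ((ContinuousLinearMap.fst ℝ ℝ ℝ).smulRight L.ω₁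
          + (ContinuousLinearMap.snd ℝ ℝ ℝ).smulRight L.ω₂))
      + L.ω₂.im • ((fderiv ℝ O2 (x.1 * L.ω₁ + x.2 * L.ω₂)).comp
        ((ContinuousLinearMap.fst ℝ ℝ ℝ).smulRight L.ω₁
          + (ContinuousLinearMap.snd ℝ ℝ ℝ).smulRight L.ω₂))))
    (fun x => L.ω₁.re • ((fderiv ℝ O1 (x.1 * L.ω₁ + x.2 * L.ω₂)).comp
        ((ContinuousLinearMap.fst ℝ ℝ ℝ).smulRight L.ω₁
          + (ContinuousLinearMap.snd ℝ ℝ ℝ).smulRight L.ω₂))
      + L.ω₁.im • ((fderiv ℝ O2 (x.1 * L.ω₁ + x.2 * L.ω₂)).comp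
        ((ContinuousLinearMap.fst ℝ ℝ ℝ).smulRight L.ω₁
          + (ContinuousLinearMap.snd ℝ ℝ ℝ).smulRight L.ω₂)))
    0 0 1 1 ∅ Set.countable_empty
    (by
      apply Continuous.continuousOn
      rw [hz] at hO1 hO2
      fun_prop)
    (by
      apply Continuous.continuousOn
      rw [hz] at hO1 hO2
      fun_prop)
    (by
      intro x _
      have e1 := (gz_hasFDerivAt L h1 x).mul_const L.ω₂.re
      have e2 := (gz_hasFDerivAt L h2 x).mul_const L.ω₂.im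
      exact (e1.add e2).neg)
    (by
      intro x _
      have e1 := (gz_hasFDerivAt L h1 x).mul_const L.ω₁.re
      have e2 := (gz_hasFDerivAt L h2 x).mul_const L.ω₁.im
      exact e1.add e2)
  -- the integrand
  have hpt : ∀ q : ℝ × ℝ,
      (-(L.ω₂.re • ((fderiv ℝ O1 (q.1 * L.ω₁ + q.2 * L.ω₂)).comp
        ((ContinuousLinearMap.fst ℝ ℝ ℝ).smulRight L.ω₁
          + (ContinuousLinearMap.snd ℝ ℝ ℝ).smulRight L.ω₂))
      + L.ω₂.im • ((fderiv ℝ O2 (q.1 * L.ω₁ + q.2 * L.ω₂)).comp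
        ((ContinuousLinearMap.fst ℝ ℝ ℝ).smulRight L.ω₁
          + (ContinuousLinearMap.snd ℝ ℝ ℝ).smulRight L.ω₂)))) (1, 0)
      + (L.ω₁.re • ((fderiv ℝ O1 (q.1 * L.ω₁ + q.2 * L.ω₂)).comp
        ((ContinuousLinearMap.fst ℝ ℝ ℝ).smulRight L.ω₁
          + (ContinuousLinearMap.snd ℝ ℝ ℝ).smulRight L.ω₂))
      + L.ω₁.im • ((fderiv ℝ O2 (q.1 * L.ω₁ + q.2 * L.ω₂)).comp
        ((ContinuousLinearMap.fst ℝ ℝ ℝ).smulRight L.ω₁
          + (ContinuousLinearMap.snd ℝ ℝ ℝ).smulRight L.ω₂))) (0, 1)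
      = -(L.ω₁.re * L.ω₂.im - L.ω₂.re * L.ω₁.im) * (c * κ (z q)) := by
    intro q
    have hz' : z q = q.1 * L.ω₁ + q.2 * L.ω₂ := by rw [hz]
    rw [← h (z q), hz']
    simp only [neg_apply, add_apply,
      smul_apply, ContinuousLinearMap.comp_apply,
      ContinuousLinearMap.smulRight_apply, ContinuousLinearMap.coe_fst', one_smul, zero_smul,
      ContinuousLinearMap.coe_snd', add_zero, zero_add, gz_fderiv, smul_eq_mul]
    ring
  have hκz : Continuous (fun q : ℝ × ℝ => κ (z q)) := hκ.comp hzc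
  have key2 := key (by
    have hcont : Continuous (fun q : ℝ × ℝ =>
        -(L.ω₁.re * L.ω₂.im - L.ω₂.re * L.ω₁.im) * (c * κ (z q))) := by fun_prop
    refine (hcont.continuousOn.integrableOn_compact (isCompact_uIcc.prod isCompact_uIcc)).congr_fun
      (fun q _ => (hpt q).symm) (measurableSet_uIcc.prod measurableSet_uIcc))
  -- periodicity kills the right hand side
  have p1 : ∀ x : ℝ, O1 (((x : ℝ) : ℂ) * L.ω₁ + ((1 : ℝ) : ℂ) * L.ω₂)
      = O1 (x * L.ω₁ + ((0 : ℝ) : ℂ) * L.ω₂) := by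
    intro x
    have := hp1.2 (x * L.ω₁)
    simpa using this
  have p2 : ∀ x : ℝ, O2 (((x : ℝ) : ℂ) * L.ω₁ + ((1 : ℝ) : ℂ) * L.ω₂)
      = O2 (x * L.ω₁ + ((0 : ℝ) : ℂ) * L.ω₂) := by
    intro x
    have := hp2.2 (x * L.ω₁)
    simpa using this
  have p3 : ∀ y : ℝ, O1 (((1 : ℝ) : ℂ) * L.ω₁ + (y : ℂ) * L.ω₂)
      = O1 (((0 : ℝ) : ℂ) * L.ω₁ + (y : ℂ) * L.ω₂) := by
    intro y
    have := hp1.1 (y * L.ω₂)
    rw [add_comm] at this
    simpa using this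
  have p4 : ∀ y : ℝ, O2 (((1 : ℝ) : ℂ) * L.ω₁ + (y : ℂ) * L.ω₂)
      = O2 (((0 : ℝ) : ℂ) * L.ω₁ + (y : ℂ) * L.ω₂) := by
    intro y
    have := hp2.1 (y * L.ω₂)
    rw [add_comm] at this
    simpa using this
  have hR : (∫ x in (0 : ℝ)..1, ∫ y in (0 : ℝ)..1,
      -(L.ω₁.re * L.ω₂.im - L.ω₂.re * L.ω₁.im) * (c * κ (z (x, y)))) = 0 := by
    calc (∫ x in (0 : ℝ)..1, ∫ y in (0 : ℝ)..1,
      -(L.ω₁.re * L.ω₂.im - L.ω₂.re * L.ω₁.im) * (c * κ (z (x, y)))) = _ := by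
          simp only [← hpt]
      _ = _ := key2
      _ = 0 := by
          simp only [p1, p2, p3, p4]
          ring
  have hpos : 0 < ∫ x in (0 : ℝ)..1, ∫ y in (0 : ℝ)..1, κ (z (x, y)) := by
    apply intervalIntegral.intervalIntegral_pos_of_pos
    · apply Continuous.intervalIntegrable
      exact intervalIntegral.continuous_parametric_intervalIntegral_of_continuous'
        (f := fun x y => κ (z (x, y))) hκz 0 1
    · intro x
      apply intervalIntegral.intervalIntegral_pos_of_pos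
      · apply Continuous.intervalIntegrable
        exact hκz.comp (by fun_prop)
      · intro y; exact hκ0 _
      · norm_num
    · norm_num
  simp only [intervalIntegral.integral_const_mul] at hR
  rcases mul_eq_zero.1 hR with h5 | h5
  · exact absurd (neg_eq_zero.1 h5) hL
  · rcases mul_eq_zero.1 h5 with h6 | h6
    · exact h6
    · exact absurd h6 hpos.ne'

end P205T
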