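import Vale.Agent.P205T.Defs

/-! Module GD: developing map.  Use the Poincaré lemma of Mathlib
(`Convex.exists_forall_hasFDerivAt_of_fderiv_symmetric`, MeasureTheory/Integral/CurveIntegral/Poincare). -/

open Complex ComplexConjugate
open scoped ContDiff

namespace P205T

theorem GD_decomp {F : Type*} [NormedAddCommGroup F] [NormedSpace ℝ F] (A : ℂ →L[ℝ] F) (v : ℂ) :
    A v = v.re • A 1 + v.im • A Complex.I := by
  conv_lhs => rw [← Complex.re_add_im v]
  have h1 : ((v.re : ℂ) + (v.im : ℂ) * Complex.I) = v.re • (1 : ℂ) + v.im • Complex.I := by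
    simp
  rw [h1, map_add, map_smul, map_smul]

/-- the one-form `P dx + Q dy` -/
noncomputable def GD_form {F : Type*} [NormedAddCommGroup F] [NormedSpace ℝ F] (P Q : ℂ → F)
    (z : ℂ) : ℂ →L[ℝ] F :=
  ContinuousLinearMap.smulRightL ℝ ℂ F Complex.reCLM (P z)
    + ContinuousLinearMap.smulRightL ℝ ℂ F Complex.imCLM (Q z)

theorem GD_form_apply {F : Type*} [NormedAddCommGroup F] [NormedSpace ℝ F] (P Q : ℂ → F)
    (z v : ℂ) : GD_form P Q z v = v.re • P z + v.im • Q z := by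
  simp [GD_form]

theorem GD_form_contDiff {F : Type*} [NormedAddCommGroup F] [NormedSpace ℝ F] (P Q : ℂ → F)
    (hP : ContDiff ℝ ∞ P) (hQ : ContDiff ℝ ∞ Q) : ContDiff ℝ ∞ (GD_form P Q) := by
  unfold GD_form
  exact ((ContinuousLinearMap.smulRightL ℝ ℂ F Complex.reCLM).contDiff.comp hP).add
    ((ContinuousLinearMap.smulRightL ℝ ℂ F Complex.imCLM).contDiff.comp hQ)

theorem GD_form_fderiv {F : Type*} [NormedAddCommGroup F] [NormedSpace ℝ F] (P Q : ℂ → F)
    (hP : ContDiff ℝ ∞ P) (hQ : ContDiff ℝ ∞ Q) (a x y : ℂ) :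
    fderiv ℝ (GD_form P Q) a x y = y.re • fderiv ℝ P a x + y.im • fderiv ℝ Q a x := by
  have hPd : HasFDerivAt P (fderiv ℝ P a) a :=
    ((hP.differentiable (by simp)) a).hasFDerivAt
  have hQd : HasFDerivAt Q (fderiv ℝ Q a) a :=
    ((hQ.differentiable (by simp)) a).hasFDerivAt
  have h1 := ((ContinuousLinearMap.smulRightL ℝ ℂ F Complex.reCLM).hasFDerivAt.comp a hPd).add
    ((ContinuousLinearMap.smulRightL ℝ ℂ F Complex.imCLM).hasFDerivAt.comp a hQd)
  have h2 : HasFDerivAt (GD_form P Q) _ a := h1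
  rw [h2.fderiv]
  simp

theorem GD_prim {F : Type*} [NormedAddCommGroup F] [NormedSpace ℝ F] [CompleteSpace F]
    (P Q : ℂ → F) (hP : ContDiff ℝ ∞ P) (hQ : ContDiff ℝ ∞ Q) (h : ∀ z, dx Q z = dy P z) :
    ∃ f : ℂ → F, ContDiff ℝ ∞ f ∧ f 0 = 0 ∧ ∀ z v, fderiv ℝ f z v = v.re • P z + v.im • Q z := by
  have hω := GD_form_contDiff P Q hP hQ
  obtain ⟨f, hf⟩ := (convex_univ (𝕜 := ℝ) (E := ℂ)).exists_forall_hasFDerivAt_of_fderiv_symmetric
    isOpen_univ (show DifferentiableOn ℝ (GD_form P Q) Set.univ from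
      (hω.differentiable (by simp)).differentiableOn) (by
      intro a _ x y
      rw [GD_form_fderiv P Q hP hQ, GD_form_fderiv P Q hP hQ,
        GD_decomp (fderiv ℝ P a) x, GD_decomp (fderiv ℝ Q a) x,
        GD_decomp (fderiv ℝ P a) y, GD_decomp (fderiv ℝ Q a) y]
      have h1 : fderiv ℝ Q a 1 = fderiv ℝ P a Complex.I := h a
      rw [h1]
      module)
  have hf' : ∀ a, HasFDerivAt (fun z => f z - f 0) (GD_form P Q a) a := fun a =>
    (hf a (Set.mem_univ a)).sub_const (f 0)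
  refine ⟨fun z => f z - f 0, ?_, by simp, ?_⟩
  · rw [contDiff_infty_iff_fderiv]
    refine ⟨fun a => (hf' a).differentiableAt, ?_⟩
    have : fderiv ℝ (fun z => f z - f 0) = GD_form P Q := funext fun a => (hf' a).fderiv
    rw [this]
    exact hω
  · intro z v
    rw [(hf' z).fderiv, GD_form_apply]

theorem GD_const {F : Type*} [NormedAddCommGroup F] [NormedSpace ℝ F] (f g : ℂ → F)
    (hf : Differentiable ℝ f) (hg : Differentiable ℝ g)
    (h : ∀ z v, fderiv ℝ f z v = fderiv ℝ g z v) (z : ℂ) : f z - g z = f 0 - g 0 := by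
  have h1 : ∀ z, HasFDerivAt (fun z => f z - g z) (0 : ℂ →L[ℝ] F) z := by
    intro z
    have h2 := (hf z).hasFDerivAt.sub (hg z).hasFDerivAt
    have h3 : fderiv ℝ f z - fderiv ℝ g z = 0 := by
      ext1 v
      simp [h z v]
    rw [h3] at h2
    exact h2
  exact is_const_of_fderiv_eq_zero (𝕜 := ℝ) (f := fun z => f z - g z)
    (fun z => (h1 z).differentiableAt) (fun z => (h1 z).fderiv) z 0

theorem GD_shift {F : Type*} [NormedAddCommGroup F] [NormedSpace ℝ F] (f : ℂ → F)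
    (hf : Differentiable ℝ f) (w : ℂ) (z v : ℂ) :
    fderiv ℝ (fun z => f (z + w)) z v = fderiv ℝ f (z + w) v := by
  rw [fderiv_comp_add_right]

theorem develop (L : Lat) (O1 O2 : ℂ → ℝ) (θx θy : ℂ → ℂ)
    (h1 : ContDiff ℝ ∞ O1) (h2 : ContDiff ℝ ∞ O2) (hx : ContDiff ℝ ∞ θx) (hy : ContDiff ℝ ∞ θy)
    (hp1 : Per L O1) (hp2 : Per L O2) (hpx : Per L θx) (hpy : Per L θy)
    (hcl : ∀ z, dx O2 z = dy O1 z)
    (hθ : ∀ z, dx θy z - dy θx z = - Complex.I * ((O1 z : ℂ) * θy z - (O2 z : ℂ) * θx z)) :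
    ∃ α : ℂ → ℝ, ∃ Z : ℂ → ℂ, ContDiff ℝ ∞ α ∧ ContDiff ℝ ∞ Z ∧ α 0 = 0 ∧ Z 0 = 0 ∧
      (∀ z v, fderiv ℝ α z v = O1 z * v.re + O2 z * v.im) ∧
      (∀ z v, fderiv ℝ Z z v = Complex.exp (Complex.I * (α z : ℂ)) * (θx z * (v.re : ℂ) + θy z * (v.im : ℂ))) ∧
      (∀ z, α (z + L.ω₁) = α z + α L.ω₁) ∧ (∀ z, α (z + L.ω₂) = α z + α L.ω₂) ∧
      (∀ z, Z (z + L.ω₁) = Complex.exp (Complex.I * (α L.ω₁ : ℂ)) * Z z + Z L.ω₁) ∧
      (∀ z, Z (z + L.ω₂) = Complex.exp (Complex.I * (α L.ω₂ : ℂ)) * Z z + Z L.ω₂) := by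
  obtain ⟨α, hα, hα0, hαd⟩ := GD_prim O1 O2 h1 h2 hcl
  have hαdiff : Differentiable ℝ α := hα.differentiable (by simp)
  -- the factor `exp (i α)`
  set E : ℂ → ℂ := fun z => Complex.exp (Complex.I * (α z : ℂ)) with hE
  have hαC : ContDiff ℝ ∞ (fun z => (α z : ℂ)) := Complex.ofRealCLM.contDiff.comp hα
  have hEc : ContDiff ℝ ∞ E := (contDiff_const.mul hαC).cexp
  have hEd : ∀ z v, fderiv ℝ E z v = Complex.I * ((O1 z * v.re + O2 z * v.im : ℝ) : ℂ) * E z := by
    intro z v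
    have e1 : HasFDerivAt (fun z => (α z : ℂ)) (Complex.ofRealCLM.comp (fderiv ℝ α z)) z :=
      Complex.ofRealCLM.hasFDerivAt.comp z (hαdiff z).hasFDerivAt
    have e2 := (e1.const_mul Complex.I).cexp
    have e3 : HasFDerivAt E _ z := e2
    rw [e3.fderiv]
    simp only [ContinuousLinearMap.smul_apply, ContinuousLinearMap.comp_apply, hαd z v, smul_eq_mul,
      Complex.ofRealCLM_apply]
    push_cast
    ring
  have hxd : Differentiable ℝ θx := hx.differentiable (by simp)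
  have hyd : Differentiable ℝ θy := hy.differentiable (by simp)
  have hEdiff : Differentiable ℝ E := hEc.differentiable (by simp)
  have hmul : ∀ (f : ℂ → ℂ), Differentiable ℝ f → ∀ z v,
      fderiv ℝ (fun z => E z * f z) z v
        = E z * (Complex.I * ((O1 z * v.re + O2 z * v.im : ℝ) : ℂ) * f z + fderiv ℝ f z v) := by
    intro f hf z v
    have e3 := (hEdiff z).hasFDerivAt.mul (hf z).hasFDerivAt
    have e4 : HasFDerivAt (fun z => E z * f z) _ z := e3
    rw [e4.fderiv]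
    simp only [ContinuousLinearMap.add_apply, ContinuousLinearMap.smul_apply, smul_eq_mul, hEd z v]
    ring
  obtain ⟨Z, hZ, hZ0, hZd⟩ := GD_prim (fun z => E z * θx z) (fun z => E z * θy z)
    (hEc.mul hx) (hEc.mul hy) (by
      intro z
      have e1 := hmul θy hyd z 1
      have e2 := hmul θx hxd z Complex.I
      show fderiv ℝ (fun z => E z * θy z) z 1 = fderiv ℝ (fun z => E z * θx z) z Complex.I
      rw [e1, e2]
      have e3 : fderiv ℝ θy z 1 - fderiv ℝ θx z Complex.I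
        = - Complex.I * ((O1 z : ℂ) * θy z - (O2 z : ℂ) * θx z) := hθ z
      have e4 : fderiv ℝ θy z 1 = fderiv ℝ θx z Complex.I
        - Complex.I * ((O1 z : ℂ) * θy z - (O2 z : ℂ) * θx z) := by
        linear_combination e3
      rw [e4]
      simp only [Complex.one_re, Complex.one_im, Complex.I_re, Complex.I_im]
      push_cast
      ring)
  have hZdiff : Differentiable ℝ Z := hZ.differentiable (by simp)
  have hαv : ∀ z v, fderiv ℝ α z v = O1 z * v.re + O2 z * v.im := by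
    intro z v
    rw [hαd z v]
    simp only [smul_eq_mul]
    ring
  have hZv : ∀ z v, fderiv ℝ Z z v
      = Complex.exp (Complex.I * (α z : ℂ)) * (θx z * (v.re : ℂ) + θy z * (v.im : ℂ)) := by
    intro z v
    rw [hZd z v]
    simp only [hE, Complex.real_smul]
    ring
  have hαw : ∀ w : ℂ, (∀ z, O1 (z + w) = O1 z) → (∀ z, O2 (z + w) = O2 z) →
      ∀ z, α (z + w) = α z + α w := by
    intro w e1 e2 z
    have e3 := GD_const (fun z => α (z + w)) α
      (hαdiff.comp (differentiable_id.add_const w)) hαdiff (by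
        intro z v
        rw [GD_shift α hαdiff, hαv, hαv, e1, e2]) z
    simp only [zero_add, hα0, sub_zero] at e3
    linarith
  have hZw : ∀ w : ℂ, (∀ z, α (z + w) = α z + α w) → (∀ z, θx (z + w) = θx z) →
      (∀ z, θy (z + w) = θy z) →
      ∀ z, Z (z + w) = Complex.exp (Complex.I * (α w : ℂ)) * Z z + Z w := by
    intro w e0 e1 e2 z
    have e3 := GD_const (fun z => Z (z + w)) (fun z => Complex.exp (Complex.I * (α w : ℂ)) * Z z)
      (hZdiff.comp (differentiable_id.add_const w)) (hZdiff.const_mul _) (by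
        intro z v
        rw [GD_shift Z hZdiff, hZv, e0, e1, e2]
        have e4 := ((hZdiff z).hasFDerivAt.const_mul (Complex.exp (Complex.I * (α w : ℂ))))
        rw [e4.fderiv]
        simp only [ContinuousLinearMap.smul_apply, smul_eq_mul, hZv]
        push_cast
        rw [mul_add Complex.I, Complex.exp_add]
        ring) z
    simp only [zero_add, hZ0, mul_zero, sub_zero] at e3
    linear_combination e3
  have a1 := hαw L.ω₁ hp1.1 hp2.1
  have a2 := hαw L.ω₂ hp1.2 hp2.2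
  exact ⟨α, Z, hα, hZ, hα0, hZ0, hαv, hZv, a1, a2, hZw L.ω₁ a1 hpx.1 hpy.1,
    hZw L.ω₂ a2 hpx.2 hpy.2⟩

end P205T
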