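import Vale.Agent.P205T.GFlatAux

/-! Auxiliary lemmas for module GG (helper95): the metric `m` and its coframe. -/

open Complex ComplexConjugate Topology Filter
open scoped ContDiff

namespace P205T

section fixed

variable {ε : ℝ} {a w : ℂ → ℝ}

theorem gg_p1_smooth (ha : ContDiff ℝ ∞ a) (hw : ContDiff ℝ ∞ w) : ContDiff ℝ ∞ (p1 a w) :=
  (gg_dx_contDiff ha).add (ha.mul (gg_dx_contDiff hw))

theorem gg_p2_smooth (ha : ContDiff ℝ ∞ a) (hw : ContDiff ℝ ∞ w) : ContDiff ℝ ∞ (p2 a w) :=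
  (gg_dy_contDiff ha).add (ha.mul (gg_dy_contDiff hw))

theorem gg_mE_smooth (ha : ContDiff ℝ ∞ a) (hw : ContDiff ℝ ∞ w) (h0 : ∀ z, 0 < a z) :
    ContDiff ℝ ∞ (mE ε a w) :=
  (contDiff_const.sub (contDiff_const.mul ((gg_p1_smooth ha hw).pow 2))).div (ha.pow 2)
    fun z => pow_ne_zero 2 (h0 z).ne'

theorem gg_mF_smooth (ha : ContDiff ℝ ∞ a) (hw : ContDiff ℝ ∞ w) (h0 : ∀ z, 0 < a z) :
    ContDiff ℝ ∞ (mF ε a w) :=
  ((contDiff_const.mul (gg_p1_smooth ha hw)).mul (gg_p2_smooth ha hw)).div (ha.pow 2)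
    fun z => pow_ne_zero 2 (h0 z).ne'

theorem gg_mG_smooth (ha : ContDiff ℝ ∞ a) (hw : ContDiff ℝ ∞ w) (h0 : ∀ z, 0 < a z) :
    ContDiff ℝ ∞ (mG ε a w) :=
  (contDiff_const.sub (contDiff_const.mul ((gg_p2_smooth ha hw).pow 2))).div (ha.pow 2)
    fun z => pow_ne_zero 2 (h0 z).ne'

theorem gg_mE_pos (h0 : ∀ z, 0 < a z) (hε0 : 0 ≤ ε)
    (hε : ∀ z, ε * (p1 a w z ^ 2 + p2 a w z ^ 2) < 1) (z : ℂ) : 0 < mE ε a w z := by
  unfold mE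
  have h1 := hε z
  have h2 : 0 ≤ ε * p2 a w z ^ 2 := by positivity
  refine div_pos ?_ (pow_pos (h0 z) 2)
  linarith

theorem gg_det (h0 : ∀ z, 0 < a z) (z : ℂ) :
    mE ε a w z * mG ε a w z - mF ε a w z ^ 2 =
      (1 - ε * (p1 a w z ^ 2 + p2 a w z ^ 2)) / a z ^ 4 := by
  have h1 := (h0 z).ne'
  unfold mE mG mF
  field_simp
  ring

theorem gg_det_pos (h0 : ∀ z, 0 < a z)
    (hε : ∀ z, ε * (p1 a w z ^ 2 + p2 a w z ^ 2) < 1) (z : ℂ) :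
    0 < mE ε a w z * mG ε a w z - mF ε a w z ^ 2 := by
  rw [gg_det h0]
  have h1 := hε z
  exact div_pos (by linarith) (pow_pos (h0 z) 4)

theorem gg_p_per {L : Lat} (ha : Per L a) (hw : Per L w) : Per L (p1 a w) ∧ Per L (p2 a w) := by
  have h1 := gg_dx_per ha
  have h2 := gg_dy_per ha
  have h3 := gg_dx_per hw
  have h4 := gg_dy_per hw
  refine ⟨⟨fun z => ?_, fun z => ?_⟩, ⟨fun z => ?_, fun z => ?_⟩⟩
  · unfold p1; rw [h1.1, h3.1, ha.1]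
  · unfold p1; rw [h1.2, h3.2, ha.2]
  · unfold p2; rw [h2.1, h4.1, ha.1]
  · unfold p2; rw [h2.2, h4.2, ha.2]

theorem gg_m_per {L : Lat} (ha : Per L a) (hw : Per L w) :
    Per L (mE ε a w) ∧ Per L (mF ε a w) ∧ Per L (mG ε a w) := by
  obtain ⟨h1, h2⟩ := gg_p_per ha hw
  refine ⟨⟨fun z => ?_, fun z => ?_⟩, ⟨fun z => ?_, fun z => ?_⟩, ⟨fun z => ?_, fun z => ?_⟩⟩
  · unfold mE; rw [h1.1, ha.1]
  · unfold mE; rw [h1.2, ha.2]
  · unfold mF; rw [h1.1, h2.1, ha.1]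
  · unfold mF; rw [h1.2, h2.2, ha.2]
  · unfold mG; rw [h2.1, ha.1]
  · unfold mG; rw [h2.2, ha.2]

end fixed

section EFG

variable {E F G : ℂ → ℝ}

theorem gg_D_smooth (hE : ContDiff ℝ ∞ E) (hF : ContDiff ℝ ∞ F) (hG : ContDiff ℝ ∞ G)
    (hD : ∀ z, 0 < E z * G z - F z ^ 2) : ContDiff ℝ ∞ fun z => √(E z * G z - F z ^ 2) :=
  ((hE.mul hG).sub (hF.pow 2)).sqrt fun z => (hD z).ne'

theorem gg_den_ne (hE0 : ∀ z, 0 < E z) (hD : ∀ z, 0 < E z * G z - F z ^ 2) (z : ℂ) :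
    2 * E z * √(E z * G z - F z ^ 2) ≠ 0 :=
  mul_ne_zero (mul_ne_zero two_ne_zero (hE0 z).ne') (Real.sqrt_pos.mpr (hD z)).ne'

theorem gg_Om1_smooth (hE : ContDiff ℝ ∞ E) (hF : ContDiff ℝ ∞ F) (hG : ContDiff ℝ ∞ G)
    (hE0 : ∀ z, 0 < E z) (hD : ∀ z, 0 < E z * G z - F z ^ 2) : ContDiff ℝ ∞ (Om1 E F G) :=
  (((((contDiff_const.mul hE).mul (gg_dx_contDiff hF)).sub (hF.mul (gg_dx_contDiff hE))).sub
    (hE.mul (gg_dy_contDiff hE)))).div ((contDiff_const.mul hE).mul (gg_D_smooth hE hF hG hD))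
    (gg_den_ne hE0 hD)

theorem gg_Om2_smooth (hE : ContDiff ℝ ∞ E) (hF : ContDiff ℝ ∞ F) (hG : ContDiff ℝ ∞ G)
    (hE0 : ∀ z, 0 < E z) (hD : ∀ z, 0 < E z * G z - F z ^ 2) : ContDiff ℝ ∞ (Om2 E F G) :=
  ((hE.mul (gg_dx_contDiff hG)).sub (hF.mul (gg_dy_contDiff hE))).div
    ((contDiff_const.mul hE).mul (gg_D_smooth hE hF hG hD)) (gg_den_ne hE0 hD)

theorem gg_Om_per {L : Lat} (hE : Per L E) (hF : Per L F) (hG : Per L G) :
    Per L (Om1 E F G) ∧ Per L (Om2 E F G) := by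
  have hEx := gg_dx_per hE
  have hEy := gg_dy_per hE
  have hFx := gg_dx_per hF
  have hGx := gg_dx_per hG
  refine ⟨⟨fun z => ?_, fun z => ?_⟩, ⟨fun z => ?_, fun z => ?_⟩⟩
  · unfold Om1; rw [hEx.1, hEy.1, hFx.1, hE.1, hF.1, hG.1]
  · unfold Om1; rw [hEx.2, hEy.2, hFx.2, hE.2, hF.2, hG.2]
  · unfold Om2; rw [hEy.1, hGx.1, hE.1, hF.1, hG.1]
  · unfold Om2; rw [hEy.2, hGx.2, hE.2, hF.2, hG.2]

theorem gg_ofReal {f : ℂ → ℝ} (hf : ContDiff ℝ ∞ f) : ContDiff ℝ ∞ fun z => ((f z : ℝ) : ℂ) :=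
  Complex.ofRealCLM.contDiff.comp hf

theorem gg_thx_smooth (hE : ContDiff ℝ ∞ E) (hE0 : ∀ z, 0 < E z) : ContDiff ℝ ∞ (thx E) :=
  gg_ofReal (hE.sqrt fun z => (hE0 z).ne')

theorem gg_thy_smooth (hE : ContDiff ℝ ∞ E) (hF : ContDiff ℝ ∞ F) (hG : ContDiff ℝ ∞ G)
    (hE0 : ∀ z, 0 < E z) (hD : ∀ z, 0 < E z * G z - F z ^ 2) : ContDiff ℝ ∞ (thy E F G) := by
  have h1 : ContDiff ℝ ∞ fun z => ((F z : ℂ) + Complex.I * ((√(E z * G z - F z ^ 2) : ℝ) : ℂ)) :=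
    (gg_ofReal hF).add (contDiff_const.mul (gg_ofReal (gg_D_smooth hE hF hG hD)))
  have h2 : ContDiff ℝ ∞ fun z => ((√(E z) : ℝ) : ℂ)⁻¹ :=
    (gg_thx_smooth hE hE0).inv fun z => by
      change ((√(E z) : ℝ) : ℂ) ≠ 0
      exact_mod_cast (Real.sqrt_pos.mpr (hE0 z)).ne'
  have h3 : thy E F G = fun z => ((F z : ℂ) + Complex.I * ((√(E z * G z - F z ^ 2) : ℝ) : ℂ)) *
      ((√(E z) : ℝ) : ℂ)⁻¹ := by
    funext z
    exact div_eq_mul_inv _ _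
  rw [h3]
  exact h1.mul h2

theorem gg_th_per {L : Lat} (hE : Per L E) (hF : Per L F) (hG : Per L G) :
    Per L (thx E) ∧ Per L (thy E F G) := by
  refine ⟨⟨fun z => ?_, fun z => ?_⟩, ⟨fun z => ?_, fun z => ?_⟩⟩
  · unfold thx; rw [hE.1]
  · unfold thx; rw [hE.2]
  · unfold thy; rw [hE.1, hF.1, hG.1]
  · unfold thy; rw [hE.2, hF.2, hG.2]

theorem gg_norm_coframe (hE0 : ∀ z, 0 < E z) (hD : ∀ z, 0 < E z * G z - F z ^ 2) (z v : ℂ) :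
    ‖thx E z * (v.re : ℂ) + thy E F G z * (v.im : ℂ)‖ ^ 2 =
      E z * v.re ^ 2 + 2 * F z * v.re * v.im + G z * v.im ^ 2 := by
  have hs : 0 < √(E z) := Real.sqrt_pos.mpr (hE0 z)
  have hs2 : √(E z) ^ 2 = E z := Real.sq_sqrt (hE0 z).le
  have hd2 : √(E z * G z - F z ^ 2) ^ 2 = E z * G z - F z ^ 2 := Real.sq_sqrt (hD z).le
  have h1 : thx E z * (v.re : ℂ) + thy E F G z * (v.im : ℂ) =
      ((√(E z) * v.re + F z / √(E z) * v.im : ℝ) : ℂ) +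
      ((√(E z * G z - F z ^ 2) / √(E z) * v.im : ℝ) : ℂ) * Complex.I := by
    unfold thx thy
    push_cast
    ring
  rw [h1, ← Complex.normSq_eq_norm_sq, Complex.normSq_add_mul_I]
  have h2 : (√(E z) * v.re + F z / √(E z) * v.im) ^ 2 +
      (√(E z * G z - F z ^ 2) / √(E z) * v.im) ^ 2 =
      √(E z) ^ 2 * v.re ^ 2 + 2 * F z * v.re * v.im +
      (F z ^ 2 + √(E z * G z - F z ^ 2) ^ 2) / √(E z) ^ 2 * v.im ^ 2 := by
    field_simp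
    ring
  rw [h2, hs2, hd2]
  have h3 := (hE0 z).ne'
  field_simp
  ring

end EFG

theorem gg_norm_m {ε : ℝ} {a w : ℂ → ℝ} (h0 : ∀ z, 0 < a z) (hε0 : 0 ≤ ε)
    (hε : ∀ z, ε * (p1 a w z ^ 2 + p2 a w z ^ 2) < 1) (z v : ℂ) :
    a z ^ 2 * ‖thx (mE ε a w) z * (v.re : ℂ) + thy (mE ε a w) (mF ε a w) (mG ε a w) z *
      (v.im : ℂ)‖ ^ 2 = ‖v‖ ^ 2 - ε * (p1 a w z * v.re + p2 a w z * v.im) ^ 2 := by
  rw [gg_norm_coframe (gg_mE_pos h0 hε0 hε) (gg_det_pos h0 hε)]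
  have h1 : ‖v‖ ^ 2 = v.re ^ 2 + v.im ^ 2 := by
    rw [← Complex.normSq_eq_norm_sq, Complex.normSq_apply]
    ring
  have h2 := (h0 z).ne'
  rw [h1]
  unfold mE mF mG
  field_simp
  ring

/-! ### joint continuity -/

section joint

variable {e : ℝ → ℝ} {b : ℝ → ℂ → ℝ} {w : ℂ → ℝ}

theorem gg_j_p1 (hb : GGJ b) (hbx : GGJ fun ε => dx (b ε)) (hw : ContDiff ℝ ∞ w) :
    GGJ fun ε => p1 (b ε) w :=
  hbx.add (hb.mul (GGJ.const ((gg_dx_contDiff hw).of_le (by norm_cast))))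

theorem gg_j_p2 (hb : GGJ b) (hby : GGJ fun ε => dy (b ε)) (hw : ContDiff ℝ ∞ w) :
    GGJ fun ε => p2 (b ε) w :=
  hby.add (hb.mul (GGJ.const ((gg_dy_contDiff hw).of_le (by norm_cast))))

theorem gg_j_m (he : Continuous e) (hb : GGJ b) (hbx : GGJ fun ε => dx (b ε))
    (hby : GGJ fun ε => dy (b ε)) (hw : ContDiff ℝ ∞ w) (h0 : ∀ ε z, 0 < b ε z) :
    GGJ (fun ε => mE (e ε) (b ε) w) ∧ GGJ (fun ε => mF (e ε) (b ε) w) ∧
      GGJ (fun ε => mG (e ε) (b ε) w) := by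
  have h1 := gg_j_p1 hb hbx hw
  have h2 := gg_j_p2 hb hby hw
  have hi := (hb.mul hb).inv fun ε z => mul_ne_zero (h0 ε z).ne' (h0 ε z).ne'
  refine ⟨?_, ?_, ?_⟩
  · have h3 := ((GGJ.par (continuous_const (y := (1 : ℝ)))).add
      ((GGJ.par he.neg).mul (h1.mul h1))).mul hi
    have h4 : (fun ε => mE (e ε) (b ε) w) = fun ε z =>
        (1 + -e ε * (p1 (b ε) w z * p1 (b ε) w z)) * (b ε z * b ε z)⁻¹ := by
      funext ε z
      unfold mE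
      rw [div_eq_mul_inv]
      ring
    rw [h4]
    exact h3
  · have h3 := ((GGJ.par he.neg).mul (h1.mul h2)).mul hi
    have h4 : (fun ε => mF (e ε) (b ε) w) = fun ε z =>
        (-e ε * (p1 (b ε) w z * p2 (b ε) w z)) * (b ε z * b ε z)⁻¹ := by
      funext ε z
      unfold mF
      rw [div_eq_mul_inv]
      ring
    rw [h4]
    exact h3
  · have h3 := ((GGJ.par (continuous_const (y := (1 : ℝ)))).add
      ((GGJ.par he.neg).mul (h2.mul h2))).mul hi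
    have h4 : (fun ε => mG (e ε) (b ε) w) = fun ε z =>
        (1 + -e ε * (p2 (b ε) w z * p2 (b ε) w z)) * (b ε z * b ε z)⁻¹ := by
      funext ε z
      unfold mG
      rw [div_eq_mul_inv]
      ring
    rw [h4]
    exact h3

theorem gg_j_Om {E F G : ℝ → ℂ → ℝ} (hE : GGJ E) (hF : GGJ F) (hG : GGJ G)
    (hE0 : ∀ ε z, 0 < E ε z) (hD : ∀ ε z, 0 < E ε z * G ε z - F ε z ^ 2) :
    (Continuous fun q : ℝ × ℂ => Om1 (E q.1) (F q.1) (G q.1) q.2) ∧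
    (Continuous fun q : ℝ × ℂ => Om2 (E q.1) (F q.1) (G q.1) q.2) ∧
    (Continuous fun q : ℝ × ℂ => thx (E q.1) q.2) ∧
    (Continuous fun q : ℝ × ℂ => thy (E q.1) (F q.1) (G q.1) q.2) := by
  have hDc : Continuous fun q : ℝ × ℂ => √(E q.1 q.2 * G q.1 q.2 - F q.1 q.2 ^ 2) :=
    Real.continuous_sqrt.comp ((hE.c.mul hG.c).sub (hF.c.pow 2))
  have hden : ∀ q : ℝ × ℂ, 2 * E q.1 q.2 * √(E q.1 q.2 * G q.1 q.2 - F q.1 q.2 ^ 2) ≠ 0 :=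
    fun q => gg_den_ne (hE0 q.1) (hD q.1) q.2
  have hdc : Continuous fun q : ℝ × ℂ =>
      2 * E q.1 q.2 * √(E q.1 q.2 * G q.1 q.2 - F q.1 q.2 ^ 2) :=
    (continuous_const.mul hE.c).mul hDc
  have hthx : Continuous fun q : ℝ × ℂ => thx (E q.1) q.2 :=
    Complex.continuous_ofReal.comp (Real.continuous_sqrt.comp hE.c)
  refine ⟨?_, ?_, hthx, ?_⟩
  · exact ((((continuous_const.mul hE.c).mul hF.cx).sub (hF.c.mul hE.cx)).sub
      (hE.c.mul hE.cy)).div hdc hden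
  · exact ((hE.c.mul hG.cx).sub (hF.c.mul hE.cy)).div hdc hden
  · refine Continuous.div ((Complex.continuous_ofReal.comp hF.c).add
      (continuous_const.mul (Complex.continuous_ofReal.comp hDc))) hthx fun q => ?_
    change ((√(E q.1 q.2) : ℝ) : ℂ) ≠ 0
    exact_mod_cast (Real.sqrt_pos.mpr (hE0 q.1 q.2)).ne'

end joint

end P205T
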