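import Vale.Agent.P205T.WApi1

/-! Module FO: smooth `Λ`-periodic functions have rapidly decreasing Fourier coefficients and are the sum of their
Fourier series.  Uses `UnitAddTorus.mFourierCoeff`, `UnitAddTorus.hasSum_mFourier_series_apply_of_summable`
(Mathlib.Analysis.Fourier.AddCircleMulti) for `g(s,t) = f(s ω₁ + t ω₂)`; decay by integration by parts. -/

open Complex ComplexConjugate
open scoped ContDiff

namespace P205T

/-- exponential -/
noncomputable def foE (n : ℤ × ℤ) (p : ℝ × ℝ) : ℂ :=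
  Complex.exp (-(2 * Real.pi * Complex.I * (n.1 * p.1 + n.2 * p.2)))

noncomputable def foPt (L : Lat) (p : ℝ × ℝ) : ℂ := p.1 * L.ω₁ + p.2 * L.ω₂

noncomputable def foC (L : Lat) (g : ℂ → ℂ) (n : ℤ × ℤ) : ℂ :=
  ∫ p in Set.Ioc (0:ℝ) 1 ×ˢ Set.Ioc (0:ℝ) 1, foE n p * g (foPt L p)

/-- the lattice with the generators exchanged -/
noncomputable def foSwap (L : Lat) : Lat where
  ω₁ := L.ω₂
  ω₂ := L.ω₁
  h := by
    have h := L.h
    simp only [Complex.mul_im, Complex.conj_re, Complex.conj_im] at h ⊢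
    intro h0
    apply h
    linarith

theorem foE_cont (n : ℤ × ℤ) : Continuous (foE n) := by
  unfold foE
  fun_prop

theorem foPt_cont (L : Lat) : Continuous (foPt L) := by
  unfold foPt
  fun_prop

theorem foE_norm (n : ℤ × ℤ) (p : ℝ × ℝ) : ‖foE n p‖ = 1 := by
  unfold foE
  rw [Complex.norm_exp]
  have : (-(2 * (Real.pi : ℂ) * Complex.I * ((n.1 : ℂ) * (p.1 : ℂ) + (n.2 : ℂ) * (p.2 : ℂ)))).re = 0 := by
    have e : (-(2 * (Real.pi : ℂ) * Complex.I * ((n.1 : ℂ) * (p.1 : ℂ) + (n.2 : ℂ) * (p.2 : ℂ))))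
        = ((-(2 * Real.pi * ((n.1 : ℝ) * p.1 + (n.2 : ℝ) * p.2)) : ℝ) : ℂ) * Complex.I := by
      push_cast; ring
    rw [e]
    simp
  rw [this, Real.exp_zero]

theorem foInt (L : Lat) {g : ℂ → ℂ} (hg : Continuous g) (n : ℤ × ℤ) :
    MeasureTheory.IntegrableOn (fun p : ℝ × ℝ => foE n p * g (foPt L p))
      (Set.Ioc (0:ℝ) 1 ×ˢ Set.Ioc (0:ℝ) 1) := by
  have h1 : Continuous (fun p : ℝ × ℝ => foE n p * g (foPt L p)) :=
    (foE_cont n).mul (hg.comp (foPt_cont L))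
  have h2 : IsCompact (Set.Icc (0:ℝ) 1 ×ˢ Set.Icc (0:ℝ) 1) := isCompact_Icc.prod isCompact_Icc
  exact (h1.continuousOn.integrableOn_compact h2).mono_set
    (Set.prod_mono Set.Ioc_subset_Icc_self Set.Ioc_subset_Icc_self)

theorem foC_swap (L : Lat) (g : ℂ → ℂ) (n : ℤ × ℤ) :
    foC (foSwap L) g (n.2, n.1) = foC L g n := by
  unfold foC
  have h := MeasureTheory.setIntegral_prod_swap (μ := (MeasureTheory.volume : MeasureTheory.Measure ℝ))
    (ν := (MeasureTheory.volume : MeasureTheory.Measure ℝ)) (Set.Ioc (0:ℝ) 1) (Set.Ioc (0:ℝ) 1)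
    (fun p : ℝ × ℝ => foE n p * g (foPt L p))
  rw [MeasureTheory.Measure.volume_eq_prod, ← h]
  congr 1
  funext p
  simp only [foE, foPt, foSwap, Prod.swap]
  rw [add_comm ((n.2 : ℂ) * _), add_comm ((p.1 : ℂ) * L.ω₂)]

theorem foC_iter (L : Lat) {g : ℂ → ℂ} (hg : Continuous g) (n : ℤ × ℤ) :
    foC L g n = ∫ s in Set.Ioc (0:ℝ) 1, ∫ t in (0:ℝ)..1, foE n (s, t) * g (foPt L (s, t)) := by
  unfold foC
  rw [MeasureTheory.Measure.volume_eq_prod, MeasureTheory.setIntegral_prod]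
  · simp only [intervalIntegral.integral_of_le zero_le_one]
  · have := foInt L hg n
    rwa [MeasureTheory.Measure.volume_eq_prod] at this

theorem fo_hd (t : ℝ) : HasDerivAt (fun t : ℝ => (t : ℂ)) 1 t := by
  simpa using HasDerivAt.ofReal_comp (hasDerivAt_id t)

theorem fo_inner (L : Lat) {g : ℂ → ℂ} (hg : ContDiff ℝ ∞ g) (hp : Per L g) (n : ℤ × ℤ) (s : ℝ) :
    ∫ t in (0:ℝ)..1, foE n (s, t) * (fderiv ℝ g (foPt L (s, t)) L.ω₂)
      = (2 * Real.pi * Complex.I * n.2) * ∫ t in (0:ℝ)..1, foE n (s, t) * g (foPt L (s, t)) := by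
  have hE : ∀ t : ℝ, HasDerivAt (fun t : ℝ => foE n (s, t))
      (-(2 * Real.pi * Complex.I * n.2) * foE n (s, t)) t := by
    intro t
    unfold foE
    have h1 : HasDerivAt (fun t : ℝ => (t : ℂ)) 1 t := fo_hd t
    have h2 : HasDerivAt (fun t : ℝ => -(2 * (Real.pi : ℂ) * Complex.I * ((n.1 : ℂ) * (s : ℂ) + (n.2 : ℂ) * (t : ℂ))))
        (-(2 * (Real.pi : ℂ) * Complex.I * ((n.2 : ℂ) * 1))) t :=
      (((h1.const_mul (n.2 : ℂ)).const_add ((n.1 : ℂ) * (s : ℂ))).const_mul (2 * (Real.pi : ℂ) * Complex.I)).neg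
    convert h2.cexp using 1
    simp only
    ring
  have hG : ∀ t : ℝ, HasDerivAt (fun t : ℝ => g (foPt L (s, t))) (fderiv ℝ g (foPt L (s, t)) L.ω₂) t := by
    intro t
    have h1 : HasDerivAt (fun t : ℝ => foPt L (s, t)) L.ω₂ t := by
      unfold foPt
      have h1 : HasDerivAt (fun t : ℝ => (t : ℂ)) 1 t := fo_hd t
      simpa using (h1.mul_const L.ω₂).const_add ((s : ℂ) * L.ω₁)
    have h2 : HasFDerivAt g (fderiv ℝ g (foPt L (s, t))) (foPt L (s, t)) :=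
      ((hg.differentiable (by simp)) _).hasFDerivAt
    exact h2.comp_hasDerivAt t h1
  have hcE : Continuous (fun t : ℝ => foE n (s, t)) := (foE_cont n).comp (by fun_prop)
  have hcG : Continuous (fun t : ℝ => fderiv ℝ g (foPt L (s, t)) L.ω₂) := by
    have h1 : Continuous (fun z : ℂ => fderiv ℝ g z L.ω₂) :=
      (hg.continuous_fderiv (by simp)).clm_apply continuous_const
    exact h1.comp ((foPt_cont L).comp (by fun_prop))
  have key := intervalIntegral.integral_mul_deriv_eq_deriv_mul (a := (0:ℝ)) (b := 1)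
    (u := fun t : ℝ => foE n (s, t)) (v := fun t : ℝ => g (foPt L (s, t)))
    (u' := fun t : ℝ => -(2 * Real.pi * Complex.I * n.2) * foE n (s, t))
    (v' := fun t : ℝ => fderiv ℝ g (foPt L (s, t)) L.ω₂)
    (fun t _ => hE t) (fun t _ => hG t)
    ((continuous_const.mul hcE).intervalIntegrable _ _) (hcG.intervalIntegrable _ _)
  rw [key]
  have e1 : g (foPt L (s, 1)) = g (foPt L (s, 0)) := by
    have := hp.2 (foPt L (s, 0))
    rw [← this]
    congr 1
    simp [foPt]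
  have e2 : foE n (s, 1) = foE n (s, 0) := by
    unfold foE
    have e3 : (-(2 * (Real.pi : ℂ) * Complex.I * ((n.1 : ℂ) * ((s : ℝ) : ℂ) + (n.2 : ℂ) * ((1 : ℝ) : ℂ))))
        = -(2 * (Real.pi : ℂ) * Complex.I * ((n.1 : ℂ) * ((s : ℝ) : ℂ) + (n.2 : ℂ) * ((0 : ℝ) : ℂ)))
          + ((-n.2 : ℤ) : ℂ) * (2 * Real.pi * Complex.I) := by
      push_cast; ring
    simp only
    rw [e3, Complex.exp_add, Complex.exp_int_mul_two_pi_mul_I, mul_one]
  rw [e1, e2, sub_self, zero_sub, ← intervalIntegral.integral_neg, ← intervalIntegral.integral_const_mul]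
  congr 1
  funext t
  ring

theorem fo_d2 (L : Lat) {g : ℂ → ℂ} (hg : ContDiff ℝ ∞ g) (hp : Per L g) (n : ℤ × ℤ) :
    foC L (fun z => fderiv ℝ g z L.ω₂) n = (2 * Real.pi * Complex.I * n.2) * foC L g n := by
  have hc : Continuous (fun z : ℂ => fderiv ℝ g z L.ω₂) :=
    (hg.continuous_fderiv (by simp)).clm_apply continuous_const
  rw [foC_iter L hc, foC_iter L hg.continuous, ← MeasureTheory.integral_const_mul]
  congr 1
  funext s
  exact fo_inner L hg hp n s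

theorem fo_smooth_d {g : ℂ → ℂ} (hg : ContDiff ℝ ∞ g) (v : ℂ) :
    ContDiff ℝ ∞ (fun z => fderiv ℝ g z v) :=
  (hg.fderiv_right (m := ∞) (by simp)).clm_apply contDiff_const

theorem fo_per_d (L : Lat) {g : ℂ → ℂ} (hp : Per L g) (v : ℂ) :
    Per L (fun z => fderiv ℝ g z v) := by
  constructor
  · intro z
    have : (fun w => g (w + L.ω₁)) = g := funext hp.1
    have h2 : fderiv ℝ (fun w => g (w + L.ω₁)) z = fderiv ℝ g (z + L.ω₁) := fderiv_comp_add_right L.ω₁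
    simp only
    rw [← h2, this]
  · intro z
    have : (fun w => g (w + L.ω₂)) = g := funext hp.2
    have h2 : fderiv ℝ (fun w => g (w + L.ω₂)) z = fderiv ℝ g (z + L.ω₂) := fderiv_comp_add_right L.ω₂
    simp only
    rw [← h2, this]

theorem fo_bound0 (L : Lat) {g : ℂ → ℂ} (hg : Continuous g) :
    ∃ C : ℝ, 0 ≤ C ∧ ∀ n, ‖foC L g n‖ ≤ C := by
  have h2 : IsCompact (Set.Icc (0:ℝ) 1 ×ˢ Set.Icc (0:ℝ) 1) := isCompact_Icc.prod isCompact_Icc
  obtain ⟨K, hK⟩ := h2.exists_bound_of_continuousOn (f := fun p => g (foPt L p))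
    (hg.comp (foPt_cont L)).continuousOn
  refine ⟨|K|, abs_nonneg _, fun n => ?_⟩
  have hv : MeasureTheory.volume (Set.Ioc (0:ℝ) 1 ×ˢ Set.Ioc (0:ℝ) 1) = 1 := by
    rw [MeasureTheory.Measure.volume_eq_prod, MeasureTheory.Measure.prod_prod]
    simp
  have := MeasureTheory.norm_setIntegral_le_of_norm_le_const (μ := MeasureTheory.volume)
    (s := Set.Ioc (0:ℝ) 1 ×ˢ Set.Ioc (0:ℝ) 1)
    (f := fun p : ℝ × ℝ => foE n p * g (foPt L p)) (C := |K|) (by rw [hv]; simp)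
    (fun p hp => by
      rw [norm_mul, foE_norm, one_mul]
      exact (hK p (Set.prod_mono Set.Ioc_subset_Icc_self Set.Ioc_subset_Icc_self hp)).trans (le_abs_self K))
  unfold foC
  refine this.trans ?_
  rw [MeasureTheory.measureReal_def, hv]
  simp

theorem fo_bound2 (L : Lat) (N : ℕ) : ∀ {g : ℂ → ℂ}, ContDiff ℝ ∞ g → Per L g →
    ∃ C : ℝ, 0 ≤ C ∧ ∀ n : ℤ × ℤ, |(n.2 : ℝ)| ^ N * ‖foC L g n‖ ≤ C := by
  induction N with
  | zero =>
    intro g hg _
    obtain ⟨C, h0, hC⟩ := fo_bound0 L hg.continuous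
    exact ⟨C, h0, fun n => by simpa using hC n⟩
  | succ N ih =>
    intro g hg hp
    obtain ⟨C, h0, hC⟩ := ih (fo_smooth_d hg L.ω₂) (fo_per_d L hp L.ω₂)
    refine ⟨C, h0, fun n => ?_⟩
    have h1 := hC n
    rw [fo_d2 L hg hp, norm_mul] at h1
    have h3 : ‖(2 * Real.pi * Complex.I * n.2 : ℂ)‖ = 2 * Real.pi * |(n.2 : ℝ)| := by
      rw [norm_mul, norm_mul, norm_mul, Complex.norm_I, mul_one]
      have e1 : ‖(2:ℂ)‖ = 2 := by simp
      have e2 : ‖((Real.pi : ℝ) : ℂ)‖ = Real.pi := by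
        rw [Complex.norm_real, Real.norm_eq_abs, abs_of_pos Real.pi_pos]
      have e3 : ‖((n.2 : ℤ) : ℂ)‖ = |(n.2 : ℝ)| := by
        rw [Complex.norm_intCast]
      rw [e1, e2, e3]
    rw [h3] at h1
    have h4 : (1:ℝ) ≤ 2 * Real.pi := by linarith [Real.pi_gt_three]
    have h5 : 0 ≤ |(n.2 : ℝ)| ^ N * (|(n.2 : ℝ)| * ‖foC L g n‖) := by positivity
    calc |(n.2 : ℝ)| ^ (N + 1) * ‖foC L g n‖ = 1 * (|(n.2 : ℝ)| ^ N * (|(n.2 : ℝ)| * ‖foC L g n‖)) := by ring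
      _ ≤ (2 * Real.pi) * (|(n.2 : ℝ)| ^ N * (|(n.2 : ℝ)| * ‖foC L g n‖)) :=
          mul_le_mul_of_nonneg_right h4 h5
      _ = |(n.2 : ℝ)| ^ N * (2 * Real.pi * |(n.2 : ℝ)| * ‖foC L g n‖) := by ring
      _ ≤ C := h1

theorem fo_bound1 (L : Lat) (N : ℕ) {g : ℂ → ℂ} (hg : ContDiff ℝ ∞ g) (hp : Per L g) :
    ∃ C : ℝ, 0 ≤ C ∧ ∀ n : ℤ × ℤ, |(n.1 : ℝ)| ^ N * ‖foC L g n‖ ≤ C := by
  obtain ⟨C, h0, hC⟩ := fo_bound2 (foSwap L) N hg ⟨hp.2, hp.1⟩
  refine ⟨C, h0, fun n => ?_⟩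
  have := hC (n.2, n.1)
  rwa [foC_swap] at this

theorem fo_pow3 (a b : ℝ) (ha : 0 ≤ a) (hb : 0 ≤ b) (N : ℕ) :
    (1 + a + b) ^ N ≤ 3 ^ N * (1 + a ^ N + b ^ N) := by
  have hm : 1 + a + b ≤ 3 * max 1 (max a b) := by
    have h1 := le_max_left 1 (max a b)
    have h2 : a ≤ max 1 (max a b) := (le_max_left a b).trans (le_max_right _ _)
    have h3 : b ≤ max 1 (max a b) := (le_max_right a b).trans (le_max_right _ _)
    linarith
  have h2 : (1 + a + b) ^ N ≤ (3 * max 1 (max a b)) ^ N := pow_le_pow_left₀ (by positivity) hm N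
  refine h2.trans ?_
  rw [mul_pow]
  refine mul_le_mul_of_nonneg_left ?_ (by positivity)
  have pa : 0 ≤ a ^ N := by positivity
  have pb : 0 ≤ b ^ N := by positivity
  rcases max_choice 1 (max a b) with h | h
  · rw [h, one_pow]; linarith
  · rw [h]
    rcases max_choice a b with h' | h'
    · rw [h']; linarith
    · rw [h']; linarith

theorem fo_decay (L : Lat) (N : ℕ) {g : ℂ → ℂ} (hg : ContDiff ℝ ∞ g) (hp : Per L g) :
    ∃ C : ℝ, 0 ≤ C ∧ ∀ n : ℤ × ℤ, (1 + |(n.1 : ℝ)| + |(n.2 : ℝ)|) ^ N * ‖foC L g n‖ ≤ C := by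
  obtain ⟨C0, h0, hC0⟩ := fo_bound0 L hg.continuous
  obtain ⟨C1, h1, hC1⟩ := fo_bound1 L N hg hp
  obtain ⟨C2, h2, hC2⟩ := fo_bound2 L N hg hp
  refine ⟨3 ^ N * (C0 + C1 + C2), by positivity, fun n => ?_⟩
  calc (1 + |(n.1 : ℝ)| + |(n.2 : ℝ)|) ^ N * ‖foC L g n‖
      ≤ (3 ^ N * (1 + |(n.1 : ℝ)| ^ N + |(n.2 : ℝ)| ^ N)) * ‖foC L g n‖ :=
        mul_le_mul_of_nonneg_right (fo_pow3 _ _ (abs_nonneg _) (abs_nonneg _) N) (norm_nonneg _)
    _ = 3 ^ N * (‖foC L g n‖ + |(n.1 : ℝ)| ^ N * ‖foC L g n‖ + |(n.2 : ℝ)| ^ N * ‖foC L g n‖) := by ring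
    _ ≤ 3 ^ N * (C0 + C1 + C2) := by
        refine mul_le_mul_of_nonneg_left ?_ (by positivity)
        linarith [hC0 n, hC1 n, hC2 n]

theorem fo_sum1 : Summable fun k : ℤ => 1 / (1 + |(k : ℝ)|) ^ 2 := by
  have h : Summable fun k : ℤ => |(1:ℝ) / ((k : ℝ)) ^ 2| := by
    rw [summable_abs_iff]
    exact Real.summable_one_div_int_pow.mpr (by norm_num)
  have h0 : Summable fun k : ℤ => (if k = 0 then (1:ℝ) else 0) := by
    refine summable_of_ne_finset_zero (s := {0}) ?_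
    intro k hk
    simp at hk
    simp [hk]
  refine Summable.of_nonneg_of_le (fun k => by positivity) (fun k => ?_) (h.add h0)
  by_cases hk : k = 0
  · subst hk; simp
  · have hk' : (0:ℝ) < |(k : ℝ)| := by positivity
    simp only [hk, if_false, add_zero]
    rw [abs_of_nonneg (by positivity : (0:ℝ) ≤ 1 / (k:ℝ) ^ 2), ← sq_abs (k : ℝ)]
    apply one_div_le_one_div_of_le (by positivity)
    apply pow_le_pow_left₀ (by positivity)
    linarith

theorem fo_sum2 : Summable fun n : ℤ × ℤ => 1 / (1 + |(n.1 : ℝ)| + |(n.2 : ℝ)|) ^ 4 := by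
  have h := Summable.mul_of_nonneg fo_sum1 fo_sum1 (fun k => by positivity) (fun k => by positivity)
  refine Summable.of_nonneg_of_le (fun k => by positivity) (fun n => ?_) h
  rw [one_div_mul_one_div]
  apply one_div_le_one_div_of_le (by positivity)
  have e : (1 + |(n.1 : ℝ)| + |(n.2 : ℝ)|) ^ 4
      = (1 + |(n.1 : ℝ)| + |(n.2 : ℝ)|) ^ 2 * (1 + |(n.1 : ℝ)| + |(n.2 : ℝ)|) ^ 2 := by ring
  rw [e]
  have p1 := abs_nonneg (n.1 : ℝ)
  have p2 := abs_nonneg (n.2 : ℝ)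
  apply mul_le_mul
  · exact pow_le_pow_left₀ (by positivity) (by linarith) 2
  · exact pow_le_pow_left₀ (by positivity) (by linarith) 2
  · positivity
  · positivity

theorem fo_summable (L : Lat) (N : ℕ) {g : ℂ → ℂ} (hg : ContDiff ℝ ∞ g) (hp : Per L g) :
    Summable fun n : ℤ × ℤ => (1 + |(n.1 : ℝ)| + |(n.2 : ℝ)|) ^ N * ‖foC L g n‖ := by
  obtain ⟨C, h0, hC⟩ := fo_decay L (N + 4) hg hp
  refine Summable.of_nonneg_of_le (fun n => by positivity) (fun n => ?_) (fo_sum2.mul_left C)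
  have hpos : (0:ℝ) < (1 + |(n.1 : ℝ)| + |(n.2 : ℝ)|) ^ 4 := by positivity
  rw [mul_one_div, le_div_iff₀ hpos]
  calc (1 + |(n.1 : ℝ)| + |(n.2 : ℝ)|) ^ N * ‖foC L g n‖ * (1 + |(n.1 : ℝ)| + |(n.2 : ℝ)|) ^ 4
      = (1 + |(n.1 : ℝ)| + |(n.2 : ℝ)|) ^ (N + 4) * ‖foC L g n‖ := by ring
    _ ≤ C := hC n

theorem fo_k (L : Lat) : ∃ K : ℝ, 1 ≤ K ∧ ∀ n : ℤ × ℤ,
    1 + |kx L n| + |ky L n| ≤ K * (1 + |(n.1 : ℝ)| + |(n.2 : ℝ)|) := by
  set D : ℝ := |(conj L.ω₁ * L.ω₂).im| with hD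
  have hD0 : 0 < D := abs_pos.mpr L.h
  set S : ℝ := |L.ω₁.re| + |L.ω₁.im| + |L.ω₂.re| + |L.ω₂.im| with hS
  have hS0 : 0 ≤ S := by positivity
  have q : 0 ≤ 2 * Real.pi * S / D := by positivity
  refine ⟨1 + 2 * (2 * Real.pi * S / D), by linarith, fun n => ?_⟩
  have p1 := abs_nonneg (n.1 : ℝ)
  have p2 := abs_nonneg (n.2 : ℝ)
  have hx : |kx L n| ≤ (2 * Real.pi * S / D) * (|(n.1 : ℝ)| + |(n.2 : ℝ)|) := by
    unfold kx
    rw [abs_div, ← hD, abs_mul, abs_of_pos (by positivity : (0:ℝ) < 2 * Real.pi),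
      div_mul_eq_mul_div]
    apply div_le_div_of_nonneg_right _ hD0.le
    rw [mul_assoc (2 * Real.pi)]
    refine mul_le_mul_of_nonneg_left ?_ (by positivity)
    refine (abs_sub _ _).trans ?_
    rw [abs_mul, abs_mul]
    have h1 : |L.ω₂.im| ≤ S := by
      have := abs_nonneg L.ω₁.re; have := abs_nonneg L.ω₁.im; have := abs_nonneg L.ω₂.re
      rw [hS]; linarith
    have h2 : |L.ω₁.im| ≤ S := by
      have := abs_nonneg L.ω₁.re; have := abs_nonneg L.ω₂.im; have := abs_nonneg L.ω₂.re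
      rw [hS]; linarith
    have := mul_le_mul_of_nonneg_left h1 p1
    have := mul_le_mul_of_nonneg_left h2 p2
    linarith
  have hy : |ky L n| ≤ (2 * Real.pi * S / D) * (|(n.1 : ℝ)| + |(n.2 : ℝ)|) := by
    unfold ky
    rw [abs_div, ← hD, abs_mul, abs_of_pos (by positivity : (0:ℝ) < 2 * Real.pi),
      div_mul_eq_mul_div]
    apply div_le_div_of_nonneg_right _ hD0.le
    rw [mul_assoc (2 * Real.pi)]
    refine mul_le_mul_of_nonneg_left ?_ (by positivity)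
    refine (abs_add_le _ _).trans ?_
    rw [abs_mul, abs_mul, abs_neg]
    have h1 : |L.ω₂.re| ≤ S := by
      have := abs_nonneg L.ω₁.re; have := abs_nonneg L.ω₁.im; have := abs_nonneg L.ω₂.im
      rw [hS]; linarith
    have h2 : |L.ω₁.re| ≤ S := by
      have := abs_nonneg L.ω₁.im; have := abs_nonneg L.ω₂.im; have := abs_nonneg L.ω₂.re
      rw [hS]; linarith
    have := mul_le_mul_of_nonneg_left h1 p1
    have := mul_le_mul_of_nonneg_left h2 p2
    linarith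
  nlinarith [mul_nonneg q p1, mul_nonneg q p2]

theorem fo_per_int (L : Lat) {g : ℂ → ℂ} (hp : Per L g) (m k : ℤ) (z : ℂ) :
    g (z + m * L.ω₁ + k * L.ω₂) = g z := by
  have h1 : Function.Periodic g L.ω₁ := hp.1
  have h2 : Function.Periodic g L.ω₂ := hp.2
  rw [h2.int_mul k, h1.int_mul m]

/-- the function on the torus -/
noncomputable def foF0 (L : Lat) (g : ℂ → ℂ) (x : UnitAddTorus (Fin 2)) : ℂ :=
  g (foPt L (Function.surjInv (f := ((↑) : ℝ → UnitAddCircle)) QuotientAddGroup.mk_surjective (x 0),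
    Function.surjInv (f := ((↑) : ℝ → UnitAddCircle)) QuotientAddGroup.mk_surjective (x 1)))

theorem foF0_coe (L : Lat) {g : ℂ → ℂ} (hp : Per L g) (x : Fin 2 → ℝ) :
    foF0 L g (fun i => (x i : UnitAddCircle)) = g (foPt L (x 0, x 1)) := by
  unfold foF0
  have key : ∀ a : ℝ, ∃ m : ℤ,
      Function.surjInv (f := ((↑) : ℝ → UnitAddCircle)) QuotientAddGroup.mk_surjective (a : UnitAddCircle)
        = a + m := by
    intro a
    have h1 : ((Function.surjInv (f := ((↑) : ℝ → UnitAddCircle)) QuotientAddGroup.mk_surjective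
        (a : UnitAddCircle) : ℝ) : UnitAddCircle) = (a : UnitAddCircle) :=
      Function.surjInv_eq _ _
    have h2 : ((Function.surjInv (f := ((↑) : ℝ → UnitAddCircle)) QuotientAddGroup.mk_surjective
        (a : UnitAddCircle) - a : ℝ) : UnitAddCircle) = 0 := by
      rw [AddCircle.coe_sub, h1, sub_self]
    rw [AddCircle.coe_eq_zero_iff] at h2
    obtain ⟨m, hm⟩ := h2
    refine ⟨m, ?_⟩
    have : (m : ℝ) = m • (1:ℝ) := by simp
    rw [this, hm]; ring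
  obtain ⟨m, hm⟩ := key (x 0)
  obtain ⟨k, hk⟩ := key (x 1)
  rw [hm, hk, ← fo_per_int L hp m k (foPt L (x 0, x 1))]
  congr 1
  simp only [foPt]
  push_cast
  ring

theorem foF0_cont (L : Lat) {g : ℂ → ℂ} (hg : Continuous g) (hp : Per L g) : Continuous (foF0 L g) := by
  have hq : IsOpenQuotientMap (Pi.map (fun _ : Fin 2 => ((↑) : ℝ → UnitAddCircle))) :=
    IsOpenQuotientMap.piMap (fun _ => QuotientAddGroup.isOpenQuotientMap_mk)
  rw [← hq.continuous_comp_iff]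
  have : foF0 L g ∘ (Pi.map (fun _ : Fin 2 => ((↑) : ℝ → UnitAddCircle)))
      = fun x : Fin 2 → ℝ => g (foPt L (x 0, x 1)) := by
    funext x
    exact foF0_coe L hp x
  rw [this]
  exact hg.comp ((foPt_cont L).comp (by fun_prop))

/-- the continuous function on the torus -/
noncomputable def foF (L : Lat) (g : ℂ → ℂ) (hg : Continuous g) (hp : Per L g) :
    C(UnitAddTorus (Fin 2), ℂ) := ⟨foF0 L g, foF0_cont L hg hp⟩

theorem fo_mF (n : Fin 2 → ℤ) (x : Fin 2 → ℝ) :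
    UnitAddTorus.mFourier n (fun i => (x i : UnitAddCircle))
      = Complex.exp (2 * Real.pi * Complex.I * (n 0 * x 0 + n 1 * x 1)) := by
  simp only [UnitAddTorus.mFourier, ContinuousMap.coe_mk, Fin.prod_univ_two]
  rw [fourier_coe_apply, fourier_coe_apply, ← Complex.exp_add]
  congr 1
  simp only [Complex.ofReal_one, div_one]
  ring

theorem fo_mFneg (n : Fin 2 → ℤ) (x : Fin 2 → ℝ) :
    UnitAddTorus.mFourier (-n) (fun i => (x i : UnitAddCircle)) = foE (n 0, n 1) (x 0, x 1) := by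
  rw [fo_mF, foE]
  congr 1
  simp only [Pi.neg_apply]
  push_cast
  ring

theorem fo_coeff (L : Lat) (g : ℂ → ℂ) (hg : Continuous g) (hp : Per L g) (n : Fin 2 → ℤ) :
    UnitAddTorus.mFourierCoeff (foF L g hg hp) n = foC L g (n 0, n 1) := by
  rw [UnitAddTorus.mFourierCoeff_eq_integral _ n (fun _ => 0)]
  have hF : ∀ x : Fin 2 → ℝ, (UnitAddTorus.mFourier (-n)) (fun i => (x i : UnitAddCircle)) •
      (foF L g hg hp) (fun i => (x i : UnitAddCircle))
      = (fun p : ℝ × ℝ => foE (n 0, n 1) p * g (foPt L p)) (MeasurableEquiv.finTwoArrow x) := by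
    intro x
    rw [fo_mFneg]
    have : (foF L g hg hp) (fun i => (x i : UnitAddCircle)) = g (foPt L (x 0, x 1)) := foF0_coe L hp x
    rw [this, smul_eq_mul]
    rfl
  simp only [hF]
  have hs : {x : Fin 2 → ℝ | ∀ i, x i ∈ Set.Ioc (0:ℝ) (0 + 1)}
      = MeasurableEquiv.finTwoArrow ⁻¹' (Set.Ioc (0:ℝ) 1 ×ˢ Set.Ioc (0:ℝ) 1) := by
    ext x
    simp [Fin.forall_fin_two, MeasurableEquiv.finTwoArrow]
  rw [hs]
  unfold foC
  exact (MeasureTheory.volume_preserving_finTwoArrow ℝ).setIntegral_preimage_emb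
    (MeasurableEquiv.measurableEmbedding _) (fun p : ℝ × ℝ => foE (n 0, n 1) p * g (foPt L p))
    (Set.Ioc (0:ℝ) 1 ×ˢ Set.Ioc (0:ℝ) 1)

theorem fo_hasSum (L : Lat) {g : ℂ → ℂ} (hg : ContDiff ℝ ∞ g) (hp : Per L g) (s t : ℝ) :
    HasSum (fun n : ℤ × ℤ => foC L g n * Complex.exp (2 * Real.pi * Complex.I * (n.1 * s + n.2 * t)))
      (g (foPt L (s, t))) := by
  have hsum : Summable (UnitAddTorus.mFourierCoeff (foF L g hg.continuous hp)) := by
    have h1 : UnitAddTorus.mFourierCoeff (foF L g hg.continuous hp)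
        = (foC L g) ∘ (finTwoArrowEquiv ℤ) := by
      funext n
      exact fo_coeff L g hg.continuous hp n
    rw [h1, (finTwoArrowEquiv ℤ).summable_iff]
    have := fo_summable L 0 hg hp
    simp only [pow_zero, one_mul] at this
    exact this.of_norm
  have h := UnitAddTorus.hasSum_mFourier_series_apply_of_summable hsum
    (fun i => ((![s, t] i : ℝ) : UnitAddCircle))
  have hv : (foF L g hg.continuous hp) (fun i => ((![s, t] i : ℝ) : UnitAddCircle)) = g (foPt L (s, t)) :=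
    foF0_coe L hp ![s, t]
  rw [hv] at h
  rw [← (finTwoArrowEquiv ℤ).hasSum_iff]
  convert h using 1
  funext n
  rw [fo_mF, fo_coeff, smul_eq_mul]
  rfl

theorem fo_ch (L : Lat) (n : ℤ × ℤ) (s t : ℝ) :
    ch L n (foPt L (s, t)) = Complex.exp (2 * Real.pi * Complex.I * (n.1 * s + n.2 * t)) := by
  unfold ch
  have hL : L.ω₁.re * L.ω₂.im - L.ω₁.im * L.ω₂.re ≠ 0 := by
    have h := L.h
    simp only [Complex.mul_im, Complex.conj_re, Complex.conj_im] at h
    intro h0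
    apply h
    linarith
  have e : kx L n * (foPt L (s, t)).re + ky L n * (foPt L (s, t)).im = 2 * Real.pi * (n.1 * s + n.2 * t) := by
    unfold kx ky foPt
    have e0 : (conj L.ω₁ * L.ω₂).im = L.ω₁.re * L.ω₂.im - L.ω₁.im * L.ω₂.re := by
      simp only [Complex.mul_im, Complex.conj_re, Complex.conj_im]; ring
    rw [e0]
    simp only [Complex.add_re, Complex.add_im, Complex.mul_re, Complex.mul_im, Complex.ofReal_re,
      Complex.ofReal_im]
    obtain ⟨D, hD⟩ : ∃ D : ℝ, D = L.ω₁.re * L.ω₂.im - L.ω₁.im * L.ω₂.re := ⟨_, rfl⟩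
    rw [← hD] at hL ⊢
    field_simp
    rw [hD]
    ring
  rw [e]
  congr 1
  push_cast
  ring

theorem fo_pt_surj (L : Lat) (z : ℂ) : ∃ s t : ℝ, foPt L (s, t) = z := by
  have hL : L.ω₁.re * L.ω₂.im - L.ω₁.im * L.ω₂.re ≠ 0 := by
    have h := L.h
    simp only [Complex.mul_im, Complex.conj_re, Complex.conj_im] at h
    intro h0
    apply h
    linarith
  refine ⟨(L.ω₂.im * z.re - L.ω₂.re * z.im) / (L.ω₁.re * L.ω₂.im - L.ω₁.im * L.ω₂.re),
    (L.ω₁.re * z.im - L.ω₁.im * z.re) / (L.ω₁.re * L.ω₂.im - L.ω₁.im * L.ω₂.re), ?_⟩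
  obtain ⟨D, hD⟩ : ∃ D : ℝ, D = L.ω₁.re * L.ω₂.im - L.ω₁.im * L.ω₂.re := ⟨_, rfl⟩
  rw [← hD] at hL ⊢
  apply Complex.ext
  · simp only [foPt, Complex.add_re, Complex.mul_re, Complex.ofReal_re, Complex.ofReal_im]
    field_simp
    rw [hD]
    ring
  · simp only [foPt, Complex.add_im, Complex.mul_im, Complex.ofReal_re, Complex.ofReal_im]
    field_simp
    rw [hD]
    ring

theorem fo_conj (L : Lat) (f : ℂ → ℝ) (n : ℤ × ℤ) :
    conj (foC L (fun z => (f z : ℂ)) (-n)) = foC L (fun z => (f z : ℂ)) n := by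
  unfold foC
  rw [← integral_conj]
  congr 1
  funext p
  simp only
  rw [map_mul, Complex.conj_ofReal]
  congr 1
  unfold foE
  rw [← Complex.exp_conj]
  congr 1
  simp only [map_neg, map_mul, map_add, Complex.conj_I, Complex.conj_ofReal, map_ofNat, Prod.fst_neg,
    Prod.snd_neg, Int.cast_neg, map_intCast]
  ring

theorem exists_fourier (L : Lat) (f : ℂ → ℝ) (hf : ContDiff ℝ ∞ f) (hper : Per L f) :
    ∃ c : V, Rapid L c ∧ J c = c ∧ ∀ z, ev L z c = (f z : ℂ) := by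
  have hg : ContDiff ℝ ∞ (fun z => (f z : ℂ)) := Complex.ofRealCLM.contDiff.comp hf
  have hp : Per L (fun z => (f z : ℂ)) :=
    ⟨fun z => by simp only [hper.1 z], fun z => by simp only [hper.2 z]⟩
  have hmem : Memℓp (foC L (fun z => (f z : ℂ))) 1 := by
    rw [memℓp_gen_iff (by simp)]
    have := fo_summable L 0 hg hp
    simpa using this
  let c : V := ⟨foC L (fun z => (f z : ℂ)), hmem⟩
  have hc : ∀ n, c n = foC L (fun z => (f z : ℂ)) n := fun n => rfl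
  refine ⟨c, ?_, ?_, ?_⟩
  · intro N
    obtain ⟨K, hK1, hK⟩ := fo_k L
    refine Summable.of_nonneg_of_le (fun n => by positivity) (fun n => ?_)
      ((fo_summable L N hg hp).mul_left (K ^ N))
    rw [hc]
    calc (1 + |kx L n| + |ky L n|) ^ N * ‖foC L (fun z => (f z : ℂ)) n‖
        ≤ (K * (1 + |(n.1 : ℝ)| + |(n.2 : ℝ)|)) ^ N * ‖foC L (fun z => (f z : ℂ)) n‖ :=
          mul_le_mul_of_nonneg_right (pow_le_pow_left₀ (by positivity) (hK n) N) (norm_nonneg _)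
      _ = K ^ N * ((1 + |(n.1 : ℝ)| + |(n.2 : ℝ)|) ^ N * ‖foC L (fun z => (f z : ℂ)) n‖) := by
          rw [mul_pow, mul_assoc]
  · apply lp.ext
    funext n
    rw [J_apply, hc, hc]
    exact fo_conj L f n
  · intro z
    obtain ⟨s, t, rfl⟩ := fo_pt_surj L z
    rw [ev_apply]
    have h := (fo_hasSum L hg hp s t).tsum_eq
    rw [← h]
    apply tsum_congr
    intro n
    rw [hc, fo_ch]

end P205T
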