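import Vale.Agent.P205T.Defs

/-! Module WB2: convolution on `ℓ¹(ℤ²)` as a continuous bilinear map. -/

open Complex ComplexConjugate

namespace P205T

theorem wb2_summable (c : V) : Summable fun n => ‖c n‖ := by
  have h := (memℓp_gen_iff (p := 1) (by simp)).1 (lp.memℓp c)
  simpa using h

theorem wb2_norm (c : V) : ‖c‖ = ∑' n, ‖c n‖ := by
  have h := lp.norm_eq_tsum_rpow (p := 1) (by simp) c
  simpa using h

theorem wb2_mem {f : ℤ × ℤ → ℂ} (h : Summable fun n => ‖f n‖) :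
    Memℓp (E := fun _ : ℤ × ℤ => ℂ) f 1 := by
  refine (memℓp_gen_iff (p := 1) (by simp)).2 ?_
  simpa using h

/-- `(n, m) ↦ (m, n - m)` -/
def wb2_equiv : (ℤ × ℤ) × (ℤ × ℤ) ≃ (ℤ × ℤ) × (ℤ × ℤ) where
  toFun p := (p.2, p.1 - p.2)
  invFun q := (q.2 + q.1, q.1)
  left_inv p := by simp
  right_inv q := by simp

theorem wb2_mul (a b : V) : Summable fun q : (ℤ × ℤ) × (ℤ × ℤ) => ‖a q.1‖ * ‖b q.2‖ :=
  (wb2_summable a).mul_of_nonneg (wb2_summable b) (fun _ => norm_nonneg _) (fun _ => norm_nonneg _)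

theorem wb2_sum (a b : V) :
    Summable fun p : (ℤ × ℤ) × (ℤ × ℤ) => ‖a p.2‖ * ‖b (p.1 - p.2)‖ :=
  (wb2_equiv.summable_iff (f := fun q : (ℤ × ℤ) × (ℤ × ℤ) => ‖a q.1‖ * ‖b q.2‖)).2 (wb2_mul a b)

theorem wb2_fiber (a b : V) (n : ℤ × ℤ) : Summable fun m => ‖a m‖ * ‖b (n - m)‖ :=
  (wb2_sum a b).prod_factor n

theorem wb2_fiber' (a b : V) (n : ℤ × ℤ) : Summable fun m => a m * b (n - m) := by
  refine Summable.of_norm ?_
  simp only [norm_mul]
  exact wb2_fiber a b n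

theorem wb2_le (a b : V) (n : ℤ × ℤ) :
    ‖∑' m, a m * b (n - m)‖ ≤ ∑' m, ‖a m‖ * ‖b (n - m)‖ := by
  refine (norm_tsum_le_tsum_norm ?_).trans (le_of_eq ?_)
  · simp only [norm_mul]
    exact wb2_fiber a b n
  · simp only [norm_mul]

theorem wb2_outer (a b : V) : Summable fun n => ∑' m, ‖a m‖ * ‖b (n - m)‖ :=
  (wb2_sum a b).prod

theorem wb2_conv_summable (a b : V) : Summable fun n => ‖∑' m, a m * b (n - m)‖ :=
  Summable.of_nonneg_of_le (fun _ => norm_nonneg _) (wb2_le a b) (wb2_outer a b)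

theorem wb2_total (a b : V) : ∑' n, ∑' m, ‖a m‖ * ‖b (n - m)‖ = ‖a‖ * ‖b‖ := by
  rw [wb2_norm, wb2_norm, (wb2_summable a).tsum_mul_tsum (wb2_summable b) (wb2_mul a b),
    ← (wb2_sum a b).tsum_prod]
  exact wb2_equiv.tsum_eq (fun q : (ℤ × ℤ) × (ℤ × ℤ) => ‖a q.1‖ * ‖b q.2‖)

theorem exists_conv : ∃ B : V →L[ℝ] V →L[ℝ] V,
    ∀ (a b : V) (n : ℤ × ℤ), B a b n = ∑' m : ℤ × ℤ, a m * b (n - m) := by
  refine ⟨LinearMap.mkContinuous₂ (LinearMap.mk₂ ℝ
    (fun a b : V => (⟨fun n => ∑' m, a m * b (n - m), wb2_mem (wb2_conv_summable a b)⟩ : V))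
    (fun a a' b => ?_) (fun r a b => ?_) (fun a b b' => ?_) (fun r a b => ?_)) 1
    (fun a b => ?_), fun a b n => rfl⟩
  · apply lp.ext
    funext n
    show ∑' m, (a + a') m * b (n - m) = ∑' m, a m * b (n - m) + ∑' m, a' m * b (n - m)
    rw [← (wb2_fiber' a b n).tsum_add (wb2_fiber' a' b n)]
    refine tsum_congr fun m => ?_
    rw [lp.coeFn_add, Pi.add_apply, add_mul]
  · apply lp.ext
    funext n
    show ∑' m, (r • a) m * b (n - m) = r • ∑' m, a m * b (n - m)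
    rw [← (wb2_fiber' a b n).tsum_const_smul r]
    refine tsum_congr fun m => ?_
    rw [lp.coeFn_smul, Pi.smul_apply, smul_mul_assoc]
  · apply lp.ext
    funext n
    show ∑' m, a m * (b + b') (n - m) = ∑' m, a m * b (n - m) + ∑' m, a m * b' (n - m)
    rw [← (wb2_fiber' a b n).tsum_add (wb2_fiber' a b' n)]
    refine tsum_congr fun m => ?_
    rw [lp.coeFn_add, Pi.add_apply, mul_add]
  · apply lp.ext
    funext n
    show ∑' m, a m * (r • b) (n - m) = r • ∑' m, a m * b (n - m)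
    rw [← (wb2_fiber' a b n).tsum_const_smul r]
    refine tsum_congr fun m => ?_
    rw [lp.coeFn_smul, Pi.smul_apply, mul_smul_comm]
  · rw [one_mul, ← wb2_total, wb2_norm]
    exact (wb2_conv_summable a b).tsum_le_tsum (wb2_le a b) (wb2_outer a b)

end P205T
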