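import Vale.Agent.P205T.WExist
import Vale.Agent.P205T.WConv

/-! Definitions of the operations on `V = ℓ¹(ℤ²)`. -/

open Complex ComplexConjugate

namespace P205T

/-- bounded multiplier -/
def Bdd (m : ℤ × ℤ → ℂ) : Prop := ∃ K : ℝ, ∀ n, ‖m n‖ ≤ K

noncomputable def ev (L : Lat) (z : ℂ) : V →L[ℝ] ℂ := (exists_ev L z).choose
theorem ev_apply (L : Lat) (z : ℂ) (c : V) : ev L z c = ∑' n, c n * ch L n z :=
  (exists_ev L z).choose_spec c

open Classical in
noncomputable def mult (m : ℤ × ℤ → ℂ) : V →L[ℝ] V :=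
  if h : Bdd m then (exists_mult m h).choose else 0
theorem mult_apply {m : ℤ × ℤ → ℂ} (hm : Bdd m) (c : V) (n : ℤ × ℤ) : mult m c n = m n * c n := by
  unfold mult; rw [dif_pos hm]; exact (exists_mult m hm).choose_spec c n

noncomputable def J : V →L[ℝ] V := exists_J.choose
theorem J_apply (c : V) (n : ℤ × ℤ) : J c n = conj (c (-n)) := exists_J.choose_spec c n

noncomputable def conv : V →L[ℝ] V →L[ℝ] V := exists_conv.choose
theorem conv_apply (a b : V) (n : ℤ × ℤ) : conv a b n = ∑' m : ℤ × ℤ, a m * b (n - m) :=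
  exists_conv.choose_spec a b n

/-- the unit `δ₀` -/
noncomputable def one : V := lp.single 1 (0 : ℤ × ℤ) (1 : ℂ)

/-- translation by `h` -/
noncomputable def T (L : Lat) (h : ℂ) : V →L[ℝ] V := mult (fun n => ch L n h)

/-- `Δ⁻¹` and its derivatives -/
noncomputable def M0 (L : Lat) (n : ℤ × ℤ) : ℂ :=
  if n = 0 then 0 else ((-1 / (kx L n ^ 2 + ky L n ^ 2) : ℝ) : ℂ)
noncomputable def M1 (L : Lat) (n : ℤ × ℤ) : ℂ := Complex.I * (kx L n : ℂ) * M0 L n
noncomputable def M2 (L : Lat) (n : ℤ × ℤ) : ℂ := Complex.I * (ky L n : ℂ) * M0 L n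
noncomputable def M11 (L : Lat) (n : ℤ × ℤ) : ℂ := Complex.I * (kx L n : ℂ) * M1 L n
noncomputable def M12 (L : Lat) (n : ℤ × ℤ) : ℂ := Complex.I * (kx L n : ℂ) * M2 L n
noncomputable def M22 (L : Lat) (n : ℤ × ℤ) : ℂ := Complex.I * (ky L n : ℂ) * M2 L n
/-- projection to the zero mode -/
noncomputable def Z0 (n : ℤ × ℤ) : ℂ := if n = 0 then 1 else 0

/-- rapidly decreasing sequences -/
def Rapid (L : Lat) (c : V) : Prop :=
  ∀ N : ℕ, Summable fun n : ℤ × ℤ => (1 + |kx L n| + |ky L n|) ^ N * ‖c n‖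

/-- the polynomial map in `V` -/
noncomputable def Lhat (A A1 A2 A11 A12 A22 : V) (W : Fin 5 → V) (ε : ℝ) : V :=
  conv (one - ε • (conv (A1 + conv A (W 0)) (A1 + conv A (W 0)) + conv (A2 + conv A (W 1)) (A2 + conv A (W 1))))
    (conv A (A11 + A22) - conv A1 A1 - conv A2 A2)
  + ε • (conv A (
      conv (A11 + conv A (W 2) - conv A (conv (W 0) (W 0)) + (conv (W 0) (A1 + conv A (W 0)) + conv (W 1) (A2 + conv A (W 1))))
        (conv (A1 + conv A (W 0)) (A1 + conv A (W 0)))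
      + (2 : ℝ) • conv (A12 + conv A (W 3) - conv A (conv (W 0) (W 1)))
        (conv (A1 + conv A (W 0)) (A2 + conv A (W 1)))
      + conv (A22 + conv A (W 4) - conv A (conv (W 1) (W 1)) + (conv (W 0) (A1 + conv A (W 0)) + conv (W 1) (A2 + conv A (W 1))))
        (conv (A2 + conv A (W 1)) (A2 + conv A (W 1))))
    - conv (conv A A) (
      conv (A11 + conv A (W 2) - conv A (conv (W 0) (W 0)) + (conv (W 0) (A1 + conv A (W 0)) + conv (W 1) (A2 + conv A (W 1))))
        (A22 + conv A (W 4) - conv A (conv (W 1) (W 1)) + (conv (W 0) (A1 + conv A (W 0)) + conv (W 1) (A2 + conv A (W 1))))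
      - conv (A12 + conv A (W 3) - conv A (conv (W 0) (W 1))) (A12 + conv A (W 3) - conv A (conv (W 0) (W 1)))))

/-- the equation `Gmap = 0`: `u = Δa + (zero mode)`, `a = 1 + M0 u` -/
noncomputable def Gmap (L : Lat) (q : V × ((Fin 5 → V) × ℝ)) : V :=
  Lhat (one + mult (M0 L) q.1) (mult (M1 L) q.1) (mult (M2 L) q.1) (mult (M11 L) q.1) (mult (M12 L) q.1)
    (mult (M22 L) q.1) q.2.1 q.2.2 + mult Z0 q.1

end P205T
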