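import Mathlib

/-! Module HO: horizontal curve in `S³` with prescribed length and holonomy.
`γ = (√(1-u) e^{iα}, √u e^{iβ})`, `u(t) = u₀ + δ sin(2πMt)`, `κ = 2πn'` const, `α' = -uκ`, `β' = (1-u)κ` (so
`α(t) = -κ(u₀ t + δ(1-cos 2πMt)/(2πM))`, `β = α + κt`): `|γ| = 1`, horizontal, speed
`v = √(u'²/(4u(1-u)) + u(1-u)κ²) > 0`, `γ(t+1) = e^{-iκu₀} γ(t)`.
Choose `n' = 1, u₀ = P'/2π` if `P' = P mod 2π ≠ 0`, and `n' = 2, u₀ = 1/2` if `P' = 0`: `κu₀ ≡ P mod 2π`.
Length `L(δ) = ∫₀¹ v`: `L(0) = κ√(u₀(1-u₀)) ≤ 2π ≤ Q`, `L(δ₀) ≥ ∫|u'| = 4Mδ₀ ≥ Q` for `M` large; IVT gives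
`L(δ) = Q`.  Then parametrise by arc length (`arclength` below). -/

open Complex ComplexConjugate
open scoped ContDiff

namespace P205T

/-- Module HO1: arc length reparametrisation. -/
theorem arclength (v : ℝ → ℝ) (hv : ContDiff ℝ ∞ v) (hv0 : ∀ t, 0 < v t) (hper : ∀ t, v (t + 1) = v t)
    (Q : ℝ) (hQ : ∫ t in (0:ℝ)..1, v t = Q) :
    ∃ τ : ℝ → ℝ, ContDiff ℝ ∞ τ ∧ (∀ s, deriv τ s = 1 / v (τ s)) ∧ ∀ s, τ (s + Q) = τ s + 1 := by
  have hvc : Continuous v := hv.continuous
  let S : ℝ → ℝ := fun t => ∫ x in (0:ℝ)..t, v x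
  have hS : ∀ t, HasDerivAt S (v t) t := fun t =>
    intervalIntegral.integral_hasDerivAt_right (hvc.intervalIntegrable _ _)
      hvc.aestronglyMeasurable.stronglyMeasurableAtFilter hvc.continuousAt
  have hSd : deriv S = v := funext fun t => (hS t).deriv
  have hSC : ContDiff ℝ ∞ S := by
    rw [contDiff_infty_iff_deriv]
    exact ⟨fun t => (hS t).differentiableAt, by rw [hSd]; exact hv⟩
  have hSmono : StrictMono S := strictMono_of_deriv_pos fun t => by rw [hSd]; exact hv0 t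
  have hSper : ∀ t, S (t + 1) = S t + Q := by
    intro t
    have h1 : Function.Periodic v 1 := hper
    have h2 := h1.intervalIntegral_add_eq t 0
    have h3 : S (t + 1) = S t + ∫ x in t..(t + 1), v x :=
      (intervalIntegral.integral_add_adjacent_intervals (hvc.intervalIntegrable _ _)
        (hvc.intervalIntegrable _ _)).symm
    rw [h3, h2, zero_add, hQ]
  have hQ0 : 0 < Q := by
    have h1 := hSmono (show (0:ℝ) < 1 by norm_num)
    have h0 : S 0 = 0 := by simp [S]
    have h2 : S 1 = Q := hQ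
    rw [h0, h2] at h1
    exact h1
  have hSn : ∀ n : ℕ, S n = n * Q ∧ S (-n) = -(n * Q) := by
    intro n
    induction n with
    | zero => simp [S]
    | succ n ih =>
      constructor
      · push_cast
        rw [hSper, ih.1]
        ring
      · have h1 := hSper (-((n + 1 : ℕ) : ℝ))
        have h2 : (-((n + 1 : ℕ) : ℝ)) + 1 = -(n : ℝ) := by push_cast; ring
        rw [h2, ih.2] at h1
        push_cast at h1 ⊢
        linarith
  have hSsurj : Function.Surjective S := by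
    intro y
    obtain ⟨n, hn⟩ := exists_nat_gt (|y| / Q)
    rw [div_lt_iff₀ hQ0] at hn
    have h1 := abs_lt.mp hn
    have h2 : y ∈ Set.Icc (S (-n)) (S n) := by
      rw [(hSn n).1, (hSn n).2]
      exact ⟨h1.1.le, h1.2.le⟩
    obtain ⟨t, -, ht⟩ := intermediate_value_Icc (show (-(n:ℝ)) ≤ n by
      have : (0:ℝ) ≤ n := n.cast_nonneg
      linarith) (hSC.continuous.continuousOn) h2
    exact ⟨t, ht⟩
  let e : ℝ ≃ₜ ℝ := (hSmono.orderIsoOfSurjective S hSsurj).toHomeomorph
  have he : ∀ t, e t = S t := fun t => rfl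
  have heC : ContDiff ℝ ∞ e.symm :=
    e.contDiff_symm_deriv (f' := v) (fun t => (hv0 t).ne') (fun t => hS t) hSC
  refine ⟨e.symm, heC, fun s => ?_, fun s => ?_⟩
  · have h1 : HasDerivAt e.symm (v (e.symm s))⁻¹ s :=
      HasDerivAt.of_local_left_inverse (f := S) e.symm.continuous.continuousAt
        (hS (e.symm s)) (hv0 _).ne' (Filter.Eventually.of_forall fun y => e.apply_symm_apply y)
    rw [h1.deriv, one_div]
  · have h1 : e (e.symm s + 1) = s + Q := by
      rw [he, hSper, ← he, e.apply_symm_apply]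
    rw [← h1, e.symm_apply_apply]

end P205T
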