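import Mathlib

/-!
# P205, torus case: definitions (helper2)

Paper proof.  `ℂ = ℝ²`, lattice `Λ = ℤ ω₁ + ℤ ω₂`, metric `g = l(z)² |dz|²` with `l = exp w` smooth, Λ-periodic.
We look for `F = (1/k) A ψ(μ k Z)`, `A = l a`, `ψ : ℝ² → S³ ⊂ ℂ²` a flat isometric immersion (Hopf torus), `|μ| = 1`.
`|dF|² = ε dA² + A² |dZ|²`, `ε = 1/k²`.  With `p = ∇a + a ∇w` (so `∇A = l p`) we need
`|dZ|² = m := a⁻² (|dz|² - ε (p·dz)²)`, i.e. `m` must be flat.  `m` is flat iff `Lstar = 0` (polynomial elliptic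
equation for `a`, solved near `a = 1`, `ε = 0`).
-/

open Complex ComplexConjugate
open scoped ContDiff

namespace P205T

/-- partial derivatives on `ℂ = ℝ²` (for real or complex valued functions) -/
noncomputable def dx {β : Type*} [NormedAddCommGroup β] [NormedSpace ℝ β] (f : ℂ → β) (z : ℂ) : β :=
  fderiv ℝ f z 1
noncomputable def dy {β : Type*} [NormedAddCommGroup β] [NormedSpace ℝ β] (f : ℂ → β) (z : ℂ) : β :=
  fderiv ℝ f z Complex.I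

/-- lattice data -/
structure Lat where
  ω₁ : ℂ
  ω₂ : ℂ
  h : (conj ω₁ * ω₂).im ≠ 0

/-- `Λ`-periodicity -/
def Per (L : Lat) {β : Type*} (f : ℂ → β) : Prop :=
  (∀ z, f (z + L.ω₁) = f z) ∧ ∀ z, f (z + L.ω₂) = f z

/-- The polynomial (★) in the jets of `a` and `w` (valid in any commutative ring). -/
def Lstar {R : Type*} [CommRing R] (ε a a1 a2 a11 a12 a22 w1 w2 w11 w12 w22 : R) : R :=
  (1 - ε * ((a1 + a * w1) ^ 2 + (a2 + a * w2) ^ 2)) * (a * (a11 + a22) - a1 ^ 2 - a2 ^ 2)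
  + ε * (a * ((a11 + a * w11 - a * w1 ^ 2 + (w1 * (a1 + a * w1) + w2 * (a2 + a * w2))) * (a1 + a * w1) ^ 2
      + 2 * (a12 + a * w12 - a * w1 * w2) * (a1 + a * w1) * (a2 + a * w2)
      + (a22 + a * w22 - a * w2 ^ 2 + (w1 * (a1 + a * w1) + w2 * (a2 + a * w2))) * (a2 + a * w2) ^ 2)
    - a ^ 2 * ((a11 + a * w11 - a * w1 ^ 2 + (w1 * (a1 + a * w1) + w2 * (a2 + a * w2)))
        * (a22 + a * w22 - a * w2 ^ 2 + (w1 * (a1 + a * w1) + w2 * (a2 + a * w2)))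
        - (a12 + a * w12 - a * w1 * w2) ^ 2))

/-- `Lstar` evaluated on the jets of two functions at a point -/
noncomputable def LstarF (ε : ℝ) (a w : ℂ → ℝ) (z : ℂ) : ℝ :=
  Lstar ε (a z) (dx a z) (dy a z) (dx (dx a) z) (dx (dy a) z) (dy (dy a) z)
    (dx w z) (dy w z) (dx (dx w) z) (dx (dy w) z) (dy (dy w) z)

/-- `p = ∇a + a ∇w` -/
noncomputable def p1 (a w : ℂ → ℝ) (z : ℂ) : ℝ := dx a z + a z * dx w z
noncomputable def p2 (a w : ℂ → ℝ) (z : ℂ) : ℝ := dy a z + a z * dy w z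

/-- the metric `m = E dx² + 2F dx dy + G dy²` -/
noncomputable def mE (ε : ℝ) (a w : ℂ → ℝ) (z : ℂ) : ℝ := (1 - ε * p1 a w z ^ 2) / a z ^ 2
noncomputable def mF (ε : ℝ) (a w : ℂ → ℝ) (z : ℂ) : ℝ := (- ε * p1 a w z * p2 a w z) / a z ^ 2
noncomputable def mG (ε : ℝ) (a w : ℂ → ℝ) (z : ℂ) : ℝ := (1 - ε * p2 a w z ^ 2) / a z ^ 2

/-- connection form `Ω = Om1 dx + Om2 dy` of the metric `E, F, G` -/
noncomputable def Om1 (E F G : ℂ → ℝ) (z : ℂ) : ℝ :=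
  (2 * E z * dx F z - F z * dx E z - E z * dy E z) / (2 * E z * √(E z * G z - F z ^ 2))
noncomputable def Om2 (E F G : ℂ → ℝ) (z : ℂ) : ℝ :=
  (E z * dx G z - F z * dy E z) / (2 * E z * √(E z * G z - F z ^ 2))

/-- orthonormal coframe `θ = θx dx + θy dy` (complex valued), `|θ|² = E dx² + 2F dx dy + G dy²` -/
noncomputable def thx (E : ℂ → ℝ) (z : ℂ) : ℂ := ((√(E z) : ℝ) : ℂ)
noncomputable def thy (E F G : ℂ → ℝ) (z : ℂ) : ℂ :=
  ((F z : ℂ) + Complex.I * ((√(E z * G z - F z ^ 2) : ℝ) : ℂ)) / ((√(E z) : ℝ) : ℂ)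

/-! ## Wiener algebra -/

/-- the Banach space `ℓ¹(ℤ², ℂ)` (used over `ℝ`) -/
noncomputable abbrev V := lp (fun _ : ℤ × ℤ => ℂ) 1

/-- frequencies: `k(n) = (kx, ky)` with `k(n)·ω₁ = 2π n.1`, `k(n)·ω₂ = 2π n.2` -/
noncomputable def kx (L : Lat) (n : ℤ × ℤ) : ℝ :=
  2 * Real.pi * (n.1 * L.ω₂.im - n.2 * L.ω₁.im) / (conj L.ω₁ * L.ω₂).im
noncomputable def ky (L : Lat) (n : ℤ × ℤ) : ℝ :=
  2 * Real.pi * (- n.1 * L.ω₂.re + n.2 * L.ω₁.re) / (conj L.ω₁ * L.ω₂).im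

/-- character -/
noncomputable def ch (L : Lat) (n : ℤ × ℤ) (z : ℂ) : ℂ :=
  Complex.exp (Complex.I * ((kx L n * z.re + ky L n * z.im : ℝ) : ℂ))

end P205T
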