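import Mathlib

/-! Module HO: horizontal curve in `S³` with prescribed length and holonomy.
`γ = (√(1-u) e^{iα}, √u e^{iβ})`, `u(t) = u₀ + δ sin(2πMt)`, `κ = 2πn'` const, `α' = -uκ`, `β' = (1-u)κ` (so
`α(t) = -κ(u₀ t + δ(1-cos 2πMt)/(2πM))`, `β = α + κt`): `|γ| = 1`, horizontal, speed
`v = √(u'²/(4u(1-u)) + u(1-u)κ²) > 0`, `γ(t+1) = e^{-iκu₀} γ(t)`.
Choose `n' = 1, u₀ = P'/2π` if `P' = P mod 2π ≠ 0`, and `n' = 2, u₀ = 1/2` if `P' = 0`: `κu₀ ≡ P mod 2π`.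
Length `L(δ) = ∫₀¹ v`: `L(0) = κ√(u₀(1-u₀)) ≤ 2π ≤ Q`, `L(δ₀) ≥ ∫|u'| = 4Mδ₀ ≥ Q` for `M` large; IVT gives
`L(δ) = Q`.  Then parametrise by arc length (`arclength` below). -/

open Complex ComplexConjugate
open scoped ContDiff

namespace P205T

theorem HO2_polar {a α : ℝ → ℝ} {a' α' t : ℝ} (ha : HasDerivAt a a' t) (hα : HasDerivAt α α' t) :
    HasDerivAt (fun t => (a t : ℂ) * Complex.exp (Complex.I * (α t : ℂ)))
      (((a' : ℂ) + Complex.I * ((a t * α' : ℝ) : ℂ)) * Complex.exp (Complex.I * (α t : ℂ))) t := by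
  have h1 := ha.ofReal_comp.mul ((hα.ofReal_comp.const_mul Complex.I).cexp)
  refine h1.congr_deriv ?_
  push_cast
  ring

theorem HO2_norm_exp (θ : ℝ) : ‖Complex.exp (Complex.I * (θ : ℂ))‖ = 1 := by
  rw [mul_comm]; exact Complex.norm_exp_ofReal_mul_I θ

theorem HO2_norm (x y θ : ℝ) :
    ‖((x : ℂ) + Complex.I * (y : ℂ)) * Complex.exp (Complex.I * (θ : ℂ))‖ ^ 2 = x ^ 2 + y ^ 2 := by
  rw [norm_mul, HO2_norm_exp, mul_one, Complex.sq_norm, Complex.normSq_apply]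
  simp
  ring

theorem HO2_im (a x y θ : ℝ) :
    (conj ((a : ℂ) * Complex.exp (Complex.I * (θ : ℂ))) *
      (((x : ℂ) + Complex.I * (y : ℂ)) * Complex.exp (Complex.I * (θ : ℂ)))).im = a * y := by
  have h1 : conj (Complex.exp (Complex.I * (θ : ℂ))) * Complex.exp (Complex.I * (θ : ℂ)) = 1 := by
    rw [← Complex.normSq_eq_conj_mul_self, Complex.normSq_eq_norm_sq, HO2_norm_exp]
    simp
  have h2 : conj ((a : ℂ) * Complex.exp (Complex.I * (θ : ℂ))) *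
      (((x : ℂ) + Complex.I * (y : ℂ)) * Complex.exp (Complex.I * (θ : ℂ))) =
      (a : ℂ) * ((x : ℂ) + Complex.I * (y : ℂ)) := by
    rw [map_mul, Complex.conj_ofReal]
    linear_combination ((a : ℂ) * ((x : ℂ) + Complex.I * (y : ℂ))) * h1
  rw [h2]
  simp

theorem HO2_norm' (a θ : ℝ) : ‖(a : ℂ) * Complex.exp (Complex.I * (θ : ℂ))‖ ^ 2 = a ^ 2 := by
  rw [norm_mul, HO2_norm_exp, mul_one, Complex.norm_real, Real.norm_eq_abs, sq_abs]

/-- the function `u` -/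
noncomputable def HO2_u (u₀ δ : ℝ) (M : ℕ) (t : ℝ) : ℝ :=
  u₀ + δ * Real.sin (2 * Real.pi * M * t)

/-- its derivative -/
noncomputable def HO2_u' (δ : ℝ) (M : ℕ) (t : ℝ) : ℝ :=
  δ * (2 * Real.pi * M) * Real.cos (2 * Real.pi * M * t)

/-- the speed -/
noncomputable def HO2_v (u₀ κ δ : ℝ) (M : ℕ) (t : ℝ) : ℝ :=
  √(HO2_u' δ M t ^ 2 / (4 * (HO2_u u₀ δ M t * (1 - HO2_u u₀ δ M t))) +
    HO2_u u₀ δ M t * (1 - HO2_u u₀ δ M t) * κ ^ 2)

/-- the angle -/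
noncomputable def HO2_al (u₀ κ δ : ℝ) (M : ℕ) (t : ℝ) : ℝ :=
  -κ * (u₀ * t + δ * (1 - Real.cos (2 * Real.pi * M * t)) / (2 * Real.pi * M))

theorem HO2_bd {u₀ δ : ℝ} (hδ0 : 0 ≤ δ) (h1 : δ < u₀) (h2 : δ < 1 - u₀) (M : ℕ) (t : ℝ) :
    0 < HO2_u u₀ δ M t ∧ HO2_u u₀ δ M t < 1 := by
  unfold HO2_u
  have h3 := Real.neg_one_le_sin (2 * Real.pi * M * t)
  have h4 := Real.sin_le_one (2 * Real.pi * M * t)
  constructor <;> nlinarith

theorem HO2_derU (u₀ δ : ℝ) (M : ℕ) (t : ℝ) : HasDerivAt (HO2_u u₀ δ M) (HO2_u' δ M t) t := by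
  unfold HO2_u HO2_u'
  have h1 : HasDerivAt (fun t : ℝ => 2 * Real.pi * M * t) (2 * Real.pi * M) t := by
    simpa using (hasDerivAt_id t).const_mul (2 * Real.pi * (M : ℝ))
  have h2 := (h1.sin.const_mul δ).const_add u₀
  refine h2.congr_deriv ?_
  ring

theorem HO2_derAl (u₀ κ δ : ℝ) {M : ℕ} (hM : 0 < M) (t : ℝ) :
    HasDerivAt (HO2_al u₀ κ δ M) (-κ * HO2_u u₀ δ M t) t := by
  unfold HO2_al HO2_u
  have hM' : (0 : ℝ) < M := by exact_mod_cast hM
  have h1 : HasDerivAt (fun t : ℝ => 2 * Real.pi * M * t) (2 * Real.pi * M) t := by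
    simpa using (hasDerivAt_id t).const_mul (2 * Real.pi * (M : ℝ))
  have h2 := (((h1.cos.const_sub 1).const_mul δ).div_const (2 * Real.pi * M))
  have h3 := (((hasDerivAt_id t).const_mul u₀).add h2).const_mul (-κ)
  refine h3.congr_deriv ?_
  have hpi := Real.pi_pos
  field_simp

theorem HO2_sinper (M : ℕ) (t : ℝ) :
    Real.sin (2 * Real.pi * M * (t + 1)) = Real.sin (2 * Real.pi * M * t) ∧
    Real.cos (2 * Real.pi * M * (t + 1)) = Real.cos (2 * Real.pi * M * t) := by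
  have e : 2 * Real.pi * M * (t + 1) = 2 * Real.pi * M * t + M * (2 * Real.pi) := by ring
  rw [e]
  exact ⟨Real.sin_add_nat_mul_two_pi _ M, Real.cos_add_nat_mul_two_pi _ M⟩

/-- the curve for given parameters -/
theorem HO2_curve {u₀ κ δ P Q : ℝ} {M : ℕ} (hM : 0 < M) (hκ : 0 < κ) (hδ0 : 0 ≤ δ) (h1 : δ < u₀)
    (h2 : δ < 1 - u₀) (hL : ∫ t in (0:ℝ)..1, HO2_v u₀ κ δ M t = Q)
    (hκ1 : Complex.exp (Complex.I * (κ : ℂ)) = 1)
    (hP : Complex.exp (-(Complex.I * ((κ * u₀ : ℝ) : ℂ))) = Complex.exp (-(Complex.I * P))) :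
    ∃ g₁ g₂ : ℝ → ℂ, ∃ v : ℝ → ℝ, ContDiff ℝ ∞ g₁ ∧ ContDiff ℝ ∞ g₂ ∧ ContDiff ℝ ∞ v ∧
      (∀ t, 0 < v t) ∧ (∀ t, v (t + 1) = v t) ∧ (∫ t in (0:ℝ)..1, v t = Q) ∧
      (∀ t, ‖g₁ t‖ ^ 2 + ‖g₂ t‖ ^ 2 = 1) ∧
      (∀ t, ‖deriv g₁ t‖ ^ 2 + ‖deriv g₂ t‖ ^ 2 = v t ^ 2) ∧
      (∀ t, (conj (g₁ t) * deriv g₁ t + conj (g₂ t) * deriv g₂ t).im = 0) ∧
      (∀ t, g₁ (t + 1) = Complex.exp (-(Complex.I * P)) * g₁ t) ∧
      (∀ t, g₂ (t + 1) = Complex.exp (-(Complex.I * P)) * g₂ t) := by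
  set u := HO2_u u₀ δ M with hu
  set al := HO2_al u₀ κ δ M with hal
  have hu01 : ∀ t, 0 < u t ∧ u t < 1 := fun t => HO2_bd hδ0 h1 h2 M t
  have huc : ContDiff ℝ ∞ u := by
    rw [hu]; unfold HO2_u; fun_prop
  have hu'c : ContDiff ℝ ∞ (HO2_u' δ M) := by
    unfold HO2_u'; fun_prop
  have halc : ContDiff ℝ ∞ al := by
    rw [hal]; unfold HO2_al; fun_prop
  have hbec : ContDiff ℝ ∞ (fun t => al t + κ * t) := by fun_prop
  have hac : ContDiff ℝ ∞ (fun t => √(1 - u t)) :=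
    (contDiff_const.sub huc).sqrt (fun t => by linarith [(hu01 t).2])
  have hbc : ContDiff ℝ ∞ (fun t => √(u t)) := huc.sqrt (fun t => (hu01 t).1.ne')
  have hofR : ContDiff ℝ ∞ (fun x : ℝ => (x : ℂ)) := Complex.ofRealCLM.contDiff
  have hupos : ∀ t, 0 < u t * (1 - u t) := fun t => mul_pos (hu01 t).1 (by linarith [(hu01 t).2])
  have hargpos : ∀ t, 0 < HO2_u' δ M t ^ 2 / (4 * (u t * (1 - u t))) + u t * (1 - u t) * κ ^ 2 := by
    intro t
    have := hupos t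
    positivity
  have hderA : ∀ t, HasDerivAt (fun t => √(1 - u t)) (-(HO2_u' δ M t) / (2 * √(1 - u t))) t := by
    intro t
    have h := (HO2_derU u₀ δ M t).const_sub 1
    exact h.sqrt (by
      have := (hu01 t).2
      show 1 - u t ≠ 0
      linarith)
  have hderB : ∀ t, HasDerivAt (fun t => √(u t)) (HO2_u' δ M t / (2 * √(u t))) t := by
    intro t
    exact (HO2_derU u₀ δ M t).sqrt (hu01 t).1.ne'
  have hderal : ∀ t, HasDerivAt al (-κ * u t) t := fun t => HO2_derAl u₀ κ δ hM t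
  have hderbe : ∀ t, HasDerivAt (fun t => al t + κ * t) (κ * (1 - u t)) t := by
    intro t
    have := (hderal t).add ((hasDerivAt_id t).const_mul κ)
    refine this.congr_deriv ?_
    ring
  have hg1 : ∀ t, HasDerivAt (fun t => ((√(1 - u t) : ℝ) : ℂ) *
      Complex.exp (Complex.I * (al t : ℂ))) _ t := fun t => HO2_polar (hderA t) (hderal t)
  have hg2 : ∀ t, HasDerivAt (fun t => ((√(u t) : ℝ) : ℂ) *
      Complex.exp (Complex.I * ((al t + κ * t : ℝ) : ℂ))) _ t :=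
    fun t => HO2_polar (α := fun t => al t + κ * t) (hderB t) (hderbe t)
  have hsa : ∀ t, √(1 - u t) ^ 2 = 1 - u t := fun t => Real.sq_sqrt (by linarith [(hu01 t).2])
  have hsb : ∀ t, √(u t) ^ 2 = u t := fun t => Real.sq_sqrt (hu01 t).1.le
  have hsa0 : ∀ t, 0 < √(1 - u t) := fun t => Real.sqrt_pos.2 (by linarith [(hu01 t).2])
  have hsb0 : ∀ t, 0 < √(u t) := fun t => Real.sqrt_pos.2 (hu01 t).1
  have huper : ∀ t, u (t + 1) = u t := by
    intro t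
    rw [hu]; unfold HO2_u
    rw [(HO2_sinper M t).1]
  have hu'per : ∀ t, HO2_u' δ M (t + 1) = HO2_u' δ M t := by
    intro t
    unfold HO2_u'
    rw [(HO2_sinper M t).2]
  have halper : ∀ t, al (t + 1) = al t - κ * u₀ := by
    intro t
    rw [hal]; unfold HO2_al
    rw [(HO2_sinper M t).2]
    ring
  refine ⟨fun t => ((√(1 - u t) : ℝ) : ℂ) * Complex.exp (Complex.I * (al t : ℂ)),
    fun t => ((√(u t) : ℝ) : ℂ) * Complex.exp (Complex.I * ((al t + κ * t : ℝ) : ℂ)),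
    HO2_v u₀ κ δ M, ?_, ?_, ?_, ?_, ?_, hL, ?_, ?_, ?_, ?_, ?_⟩
  · exact (hofR.comp hac).mul (contDiff_const.mul (hofR.comp halc)).cexp
  · exact (hofR.comp hbc).mul (contDiff_const.mul (hofR.comp hbec)).cexp
  · unfold HO2_v
    refine ContDiff.sqrt ?_ (fun t => (hargpos t).ne')
    refine ContDiff.add (ContDiff.div (hu'c.pow 2) ?_ (fun t => by
      have := hupos t
      positivity)) ?_
    · exact contDiff_const.mul (huc.mul (contDiff_const.sub huc))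
    · exact (huc.mul (contDiff_const.sub huc)).mul contDiff_const
  · intro t
    exact Real.sqrt_pos.2 (hargpos t)
  · intro t
    unfold HO2_v
    have e1 := huper t
    rw [hu] at e1
    rw [e1, hu'per t]
  · intro t
    rw [HO2_norm', HO2_norm', hsa, hsb]
    ring
  · intro t
    rw [(hg1 t).deriv, (hg2 t).deriv, HO2_norm, HO2_norm]
    unfold HO2_v
    rw [Real.sq_sqrt (hargpos t).le]
    have e1 := hsa t
    have e2 := hsb t
    have p1 := hsa0 t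
    have p2 := hsb0 t
    have q1 := (hu01 t).1
    have q2 : 0 < 1 - u t := by linarith [(hu01 t).2]
    have f1 : (-(HO2_u' δ M t) / (2 * √(1 - u t))) ^ 2 = HO2_u' δ M t ^ 2 / (4 * (1 - u t)) := by
      rw [div_pow, mul_pow, e1]; ring
    have f2 : (HO2_u' δ M t / (2 * √(u t))) ^ 2 = HO2_u' δ M t ^ 2 / (4 * u t) := by
      rw [div_pow, mul_pow, e2]; ring
    have f3 : (√(1 - u t) * (-κ * u t)) ^ 2 = (1 - u t) * (κ * u t) ^ 2 := by
      rw [mul_pow, e1]; ring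
    have f4 : (√(u t) * (κ * (1 - u t))) ^ 2 = u t * (κ * (1 - u t)) ^ 2 := by
      rw [mul_pow, e2]
    rw [f1, f2, f3, f4]
    show _ = HO2_u' δ M t ^ 2 / (4 * (u t * (1 - u t))) + u t * (1 - u t) * κ ^ 2
    field_simp
    ring
  · intro t
    rw [(hg1 t).deriv, (hg2 t).deriv, Complex.add_im, HO2_im, HO2_im]
    have e1 := hsa t
    have e2 := hsb t
    calc √(1 - u t) * (√(1 - u t) * (-κ * u t)) + √(u t) * (√(u t) * (κ * (1 - u t)))
        = √(1 - u t) ^ 2 * (-κ * u t) + √(u t) ^ 2 * (κ * (1 - u t)) := by ring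
      _ = 0 := by rw [e1, e2]; ring
  · intro t
    show ((√(1 - u (t + 1)) : ℝ) : ℂ) * Complex.exp (Complex.I * (al (t + 1) : ℂ)) =
      Complex.exp (-(Complex.I * P)) * (((√(1 - u t) : ℝ) : ℂ) * Complex.exp (Complex.I * (al t : ℂ)))
    rw [huper, halper, ← hP]
    have e : Complex.I * ((al t - κ * u₀ : ℝ) : ℂ) =
        -(Complex.I * ((κ * u₀ : ℝ) : ℂ)) + Complex.I * (al t : ℂ) := by push_cast; ring
    rw [e, Complex.exp_add]
    ring
  · intro t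
    show ((√(u (t + 1)) : ℝ) : ℂ) * Complex.exp (Complex.I * ((al (t + 1) + κ * (t + 1) : ℝ) : ℂ)) =
      Complex.exp (-(Complex.I * P)) *
        (((√(u t) : ℝ) : ℂ) * Complex.exp (Complex.I * ((al t + κ * t : ℝ) : ℂ)))
    rw [huper, halper, ← hP]
    have e : Complex.I * ((al t - κ * u₀ + κ * (t + 1) : ℝ) : ℂ) =
        -(Complex.I * ((κ * u₀ : ℝ) : ℂ)) + Complex.I * ((al t + κ * t : ℝ) : ℂ) +
          Complex.I * (κ : ℂ) := by push_cast; ring
    rw [e, Complex.exp_add, Complex.exp_add, hκ1]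
    ring

/-- clamped parameter -/
noncomputable def HO2_cl (δ₀ δ : ℝ) : ℝ := max 0 (min δ₀ δ)

theorem HO2_len_cont {u₀ κ δ₀ : ℝ} (h0 : 0 ≤ δ₀) (h1 : δ₀ < u₀) (h2 : δ₀ < 1 - u₀) (M : ℕ) :
    Continuous (fun δ => ∫ t in (0:ℝ)..1, HO2_v u₀ κ (HO2_cl δ₀ δ) M t) := by
  have hcl : Continuous (HO2_cl δ₀) := by unfold HO2_cl; fun_prop
  refine intervalIntegral.continuous_parametric_intervalIntegral_of_continuous' ?_ _ _
  have hb : ∀ q : ℝ × ℝ, 0 < HO2_u u₀ (HO2_cl δ₀ q.1) M q.2 ∧ HO2_u u₀ (HO2_cl δ₀ q.1) M q.2 < 1 := by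
    intro q
    have ha : HO2_cl δ₀ q.1 ≤ δ₀ := by
      unfold HO2_cl
      exact max_le h0 (min_le_left _ _)
    have hc0 : 0 ≤ HO2_cl δ₀ q.1 := by
      unfold HO2_cl
      exact le_max_left _ _
    exact HO2_bd hc0 (lt_of_le_of_lt ha h1) (lt_of_le_of_lt ha h2) M q.2
  have hu : Continuous (fun q : ℝ × ℝ => HO2_u u₀ (HO2_cl δ₀ q.1) M q.2) := by
    unfold HO2_u; fun_prop
  have hu' : Continuous (fun q : ℝ × ℝ => HO2_u' (HO2_cl δ₀ q.1) M q.2) := by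
    unfold HO2_u'; fun_prop
  show Continuous (fun q : ℝ × ℝ => HO2_v u₀ κ (HO2_cl δ₀ q.1) M q.2)
  unfold HO2_v
  refine Continuous.sqrt (Continuous.add (Continuous.div (hu'.pow 2) ?_ (fun q => ?_)) ?_)
  · exact continuous_const.mul (hu.mul (continuous_const.sub hu))
  · have := hb q
    have h3 : 0 < 1 - HO2_u u₀ (HO2_cl δ₀ q.1) M q.2 := by linarith [this.2]
    have h4 := this.1
    positivity
  · exact (hu.mul (continuous_const.sub hu)).mul continuous_const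

theorem HO2_len_large {u₀ κ δ : ℝ} {M : ℕ} (hM : 0 < M) (hδ0 : 0 ≤ δ) (h1 : δ < u₀)
    (h2 : δ < 1 - u₀) (hc : Continuous (HO2_v u₀ κ δ M)) :
    Real.pi * M * δ ≤ ∫ t in (0:ℝ)..1, HO2_v u₀ κ δ M t := by
  have hM' : (0 : ℝ) < M := by exact_mod_cast hM
  have hpi := Real.pi_pos
  have hpt : ∀ t, δ * (2 * Real.pi * M) * Real.cos (2 * Real.pi * M * t) ^ 2 ≤ HO2_v u₀ κ δ M t := by
    intro t
    have hb := HO2_bd hδ0 h1 h2 M t
    set U := HO2_u u₀ δ M t with hU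
    have hU2 : 0 < U * (1 - U) := mul_pos hb.1 (by linarith [hb.2])
    have hU3 : 4 * (U * (1 - U)) ≤ 1 := by nlinarith [sq_nonneg (2 * U - 1)]
    have h3 : |HO2_u' δ M t| ≤ HO2_v u₀ κ δ M t := by
      unfold HO2_v
      rw [← Real.sqrt_sq_eq_abs]
      refine Real.sqrt_le_sqrt ?_
      have h4 : HO2_u' δ M t ^ 2 ≤ HO2_u' δ M t ^ 2 / (4 * (U * (1 - U))) := by
        rw [le_div_iff₀ (by positivity)]
        exact mul_le_of_le_one_right (sq_nonneg _) hU3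
      have h5 : 0 ≤ U * (1 - U) * κ ^ 2 := by positivity
      linarith
    refine le_trans ?_ h3
    unfold HO2_u'
    rw [abs_mul, abs_of_nonneg (by positivity)]
    refine mul_le_mul_of_nonneg_left ?_ (by positivity)
    rw [← sq_abs]
    have h6 : |Real.cos (2 * Real.pi * M * t)| ≤ 1 := Real.abs_cos_le_one _
    have h7 := abs_nonneg (Real.cos (2 * Real.pi * M * t))
    nlinarith
  have hint : ∫ t in (0:ℝ)..1, δ * (2 * Real.pi * M) * Real.cos (2 * Real.pi * M * t) ^ 2 =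
      Real.pi * M * δ := by
    have hd : ∀ t ∈ Set.uIcc (0:ℝ) 1, HasDerivAt (fun t : ℝ => δ * (2 * Real.pi * M) *
        (t / 2 + Real.sin (2 * (2 * Real.pi * M * t)) / (8 * Real.pi * M)))
        (δ * (2 * Real.pi * M) * Real.cos (2 * Real.pi * M * t) ^ 2) t := by
      intro t _
      have e1 : HasDerivAt (fun t : ℝ => 2 * (2 * Real.pi * M * t)) (2 * (2 * Real.pi * M)) t := by
        simpa using ((hasDerivAt_id t).const_mul (2 * Real.pi * (M : ℝ))).const_mul 2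
      have e2 := (((hasDerivAt_id t).div_const 2).add (e1.sin.div_const (8 * Real.pi * M))).const_mul
        (δ * (2 * Real.pi * M))
      refine e2.congr_deriv ?_
      rw [Real.cos_sq]
      field_simp
      ring
    rw [intervalIntegral.integral_eq_sub_of_hasDerivAt hd]
    · have e3 : Real.sin (2 * (2 * Real.pi * M * 1)) = 0 := by
        have e4 : 2 * (2 * Real.pi * M * 1) = ((4 * M : ℕ) : ℝ) * Real.pi := by push_cast; ring
        rw [e4, Real.sin_nat_mul_pi]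
      rw [e3]
      simp
      ring
    · apply Continuous.intervalIntegrable
      fun_prop
  rw [← hint]
  refine intervalIntegral.integral_mono_on zero_le_one ?_ (hc.intervalIntegrable _ _)
    (fun t _ => hpt t)
  apply Continuous.intervalIntegrable
  fun_prop

/-- Module HO2: horizontal curve, not parametrised by arc length. -/
theorem hopf_raw (P Q : ℝ) (hQ : 2 * Real.pi ≤ Q) :
    ∃ g₁ g₂ : ℝ → ℂ, ∃ v : ℝ → ℝ, ContDiff ℝ ∞ g₁ ∧ ContDiff ℝ ∞ g₂ ∧ ContDiff ℝ ∞ v ∧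
      (∀ t, 0 < v t) ∧ (∀ t, v (t + 1) = v t) ∧ (∫ t in (0:ℝ)..1, v t = Q) ∧
      (∀ t, ‖g₁ t‖ ^ 2 + ‖g₂ t‖ ^ 2 = 1) ∧
      (∀ t, ‖deriv g₁ t‖ ^ 2 + ‖deriv g₂ t‖ ^ 2 = v t ^ 2) ∧
      (∀ t, (conj (g₁ t) * deriv g₁ t + conj (g₂ t) * deriv g₂ t).im = 0) ∧
      (∀ t, g₁ (t + 1) = Complex.exp (-(Complex.I * P)) * g₁ t) ∧
      (∀ t, g₂ (t + 1) = Complex.exp (-(Complex.I * P)) * g₂ t) := by
  have hpi := Real.pi_pos
  -- the parameters
  obtain ⟨u₀, κ, hu0, hu1, hκ, hκ1, hP, hsmall⟩ : ∃ u₀ κ : ℝ, 0 < u₀ ∧ u₀ < 1 ∧ 0 < κ ∧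
      Complex.exp (Complex.I * (κ : ℂ)) = 1 ∧
      Complex.exp (-(Complex.I * ((κ * u₀ : ℝ) : ℂ))) = Complex.exp (-(Complex.I * P)) ∧
      κ * √(u₀ * (1 - u₀)) ≤ 2 * Real.pi := by
    set P' := toIcoMod Real.two_pi_pos 0 P with hP'
    have hmem := toIcoMod_mem_Ico Real.two_pi_pos 0 P
    rw [← hP', zero_add] at hmem
    obtain ⟨m, hm⟩ : ∃ m : ℤ, P = P' + m * (2 * Real.pi) := by
      refine ⟨toIcoDiv Real.two_pi_pos 0 P, ?_⟩
      have := toIcoMod_add_toIcoDiv_zsmul Real.two_pi_pos 0 P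
      rw [zsmul_eq_mul] at this
      rw [hP']
      exact this.symm
    have hexp : ∀ x : ℝ, ∀ k : ℤ, x = P' + k * (2 * Real.pi) →
        Complex.exp (-(Complex.I * (x : ℂ))) = Complex.exp (-(Complex.I * (P' : ℂ))) := by
      intro x k hx
      rw [Complex.exp_eq_exp_iff_exists_int]
      refine ⟨-k, ?_⟩
      rw [hx]; push_cast; ring
    rcases hmem.1.eq_or_lt with h0 | h0
    · refine ⟨1 / 2, 4 * Real.pi, by norm_num, by norm_num, by positivity, ?_, ?_, ?_⟩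
      · rw [Complex.exp_eq_one_iff]
        refine ⟨2, ?_⟩
        push_cast; ring
      · rw [hexp (4 * Real.pi * (1 / 2)) 1 (by rw [← h0]; push_cast; ring), hexp P m hm]
      · have : √((1 / 2 : ℝ) * (1 - 1 / 2)) = 1 / 2 := by
          rw [show (1 / 2 : ℝ) * (1 - 1 / 2) = (1 / 2) ^ 2 by norm_num]
          exact Real.sqrt_sq (by norm_num)
        rw [this]; linarith
    · refine ⟨P' / (2 * Real.pi), 2 * Real.pi, by positivity, ?_, by positivity, ?_, ?_, ?_⟩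
      · rw [div_lt_one (by positivity)]; exact hmem.2
      · rw [Complex.exp_eq_one_iff]
        refine ⟨1, ?_⟩
        push_cast; ring
      · have e : 2 * Real.pi * (P' / (2 * Real.pi)) = P' := by field_simp
        rw [e, hexp P m hm]
      · have : √(P' / (2 * Real.pi) * (1 - P' / (2 * Real.pi))) ≤ 1 := by
          rw [Real.sqrt_le_one]
          nlinarith [sq_nonneg (P' / (2 * Real.pi) - 1 / 2)]
        nlinarith
  -- the amplitude
  set δ₀ := min u₀ (1 - u₀) / 2 with hδ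
  have hmin : 0 < min u₀ (1 - u₀) := lt_min hu0 (by linarith)
  have hδ0 : 0 < δ₀ := by positivity
  have hδ1 : δ₀ < u₀ := by
    have := min_le_left u₀ (1 - u₀)
    linarith
  have hδ2 : δ₀ < 1 - u₀ := by
    have := min_le_right u₀ (1 - u₀)
    linarith
  obtain ⟨M, hM⟩ := exists_nat_gt (Q / (Real.pi * δ₀))
  have hQ0 : 0 < Q := by linarith
  have hMpos : 0 < M := by
    have : (0 : ℝ) < M := lt_trans (by positivity) hM
    exact_mod_cast this
  have hcont := HO2_len_cont (κ := κ) hδ0.le hδ1 hδ2 M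
  have hvc : ∀ δ, 0 ≤ δ → δ ≤ δ₀ → Continuous (HO2_v u₀ κ δ M) := by
    intro δ ha hb
    have hbd : ∀ t, 0 < HO2_u u₀ δ M t ∧ HO2_u u₀ δ M t < 1 := fun t =>
      HO2_bd ha (by linarith) (by linarith) M t
    have hu : Continuous (HO2_u u₀ δ M) := by unfold HO2_u; fun_prop
    have hu' : Continuous (HO2_u' δ M) := by unfold HO2_u'; fun_prop
    unfold HO2_v
    refine Continuous.sqrt (Continuous.add (Continuous.div (hu'.pow 2) ?_ (fun t => ?_)) ?_)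
    · exact continuous_const.mul (hu.mul (continuous_const.sub hu))
    · have h3 : 0 < 1 - HO2_u u₀ δ M t := by linarith [(hbd t).2]
      have h4 := (hbd t).1
      positivity
    · exact (hu.mul (continuous_const.sub hu)).mul continuous_const
  have hclid : ∀ δ, 0 ≤ δ → δ ≤ δ₀ → HO2_cl δ₀ δ = δ := by
    intro δ ha hb
    unfold HO2_cl
    rw [min_eq_right hb, max_eq_right ha]
  have hL0 : ∫ t in (0:ℝ)..1, HO2_v u₀ κ (HO2_cl δ₀ 0) M t ≤ Q := by
    rw [hclid 0 le_rfl hδ0.le]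
    have e : ∀ t, HO2_v u₀ κ 0 M t = κ * √(u₀ * (1 - u₀)) := by
      intro t
      unfold HO2_v HO2_u' HO2_u
      have : (0 * (2 * Real.pi * M) * Real.cos (2 * Real.pi * M * t)) ^ 2 /
          (4 * ((u₀ + 0 * Real.sin (2 * Real.pi * M * t)) *
            (1 - (u₀ + 0 * Real.sin (2 * Real.pi * M * t))))) +
          (u₀ + 0 * Real.sin (2 * Real.pi * M * t)) *
            (1 - (u₀ + 0 * Real.sin (2 * Real.pi * M * t))) * κ ^ 2 =
          κ ^ 2 * (u₀ * (1 - u₀)) := by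
        simp
        ring
      rw [this, Real.sqrt_mul (sq_nonneg κ), Real.sqrt_sq hκ.le]
    simp only [e]
    simp
    linarith
  have hL1 : Q ≤ ∫ t in (0:ℝ)..1, HO2_v u₀ κ (HO2_cl δ₀ δ₀) M t := by
    rw [hclid δ₀ hδ0.le le_rfl]
    refine le_trans ?_ (HO2_len_large hMpos hδ0.le hδ1 hδ2 (hvc δ₀ hδ0.le le_rfl))
    rw [div_lt_iff₀ (by positivity)] at hM
    nlinarith
  obtain ⟨δ, hδm, hδL⟩ := intermediate_value_Icc hδ0.le hcont.continuousOn ⟨hL0, hL1⟩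
  simp only [] at hδL
  rw [hclid δ hδm.1 hδm.2] at hδL
  exact HO2_curve hMpos hκ hδm.1 (lt_of_le_of_lt hδm.2 hδ1) (lt_of_le_of_lt hδm.2 hδ2) hδL hκ1 hP

end P205T
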