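import Vale.Agent.P205T.Arc
import Vale.Agent.P205T.HopfRaw

/-! Module HO: horizontal curve in `S³` with prescribed length and holonomy.
`γ = (√(1-u) e^{iα}, √u e^{iβ})`, `u(t) = u₀ + δ sin(2πMt)`, `κ = 2πn'` const, `α' = -uκ`, `β' = (1-u)κ` (so
`α(t) = -κ(u₀ t + δ(1-cos 2πMt)/(2πM))`, `β = α + κt`): `|γ| = 1`, horizontal, speed
`v = √(u'²/(4u(1-u)) + u(1-u)κ²) > 0`, `γ(t+1) = e^{-iκu₀} γ(t)`.
Choose `n' = 1, u₀ = P'/2π` if `P' = P mod 2π ≠ 0`, and `n' = 2, u₀ = 1/2` if `P' = 0`: `κu₀ ≡ P mod 2π`.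
Length `L(δ) = ∫₀¹ v`: `L(0) = κ√(u₀(1-u₀)) ≤ 2π ≤ Q`, `L(δ₀) ≥ ∫|u'| = 4Mδ₀ ≥ Q` for `M` large; IVT gives
`L(δ) = Q`.  Then parametrise by arc length (`arclength` below). -/

open Complex ComplexConjugate
open scoped ContDiff

namespace P205T

theorem HO3_deriv {g : ℝ → ℂ} {τ v : ℝ → ℝ} (hg : ContDiff ℝ ∞ g) (hτ : ContDiff ℝ ∞ τ)
    (hd : ∀ s, deriv τ s = 1 / v (τ s)) (t : ℝ) :
    deriv (fun s => g (τ s)) t = ((1 / v (τ t) : ℝ) : ℂ) * deriv g (τ t) := by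
  have h1 : HasDerivAt τ (1 / v (τ t)) t := by
    rw [← hd t]
    exact ((hτ.differentiable (by simp)) t).hasDerivAt
  have h2 : HasDerivAt g (deriv g (τ t)) (τ t) := ((hg.differentiable (by simp)) _).hasDerivAt
  have h3 := h2.scomp t h1
  have h4 : deriv (g ∘ τ) t = (1 / v (τ t)) • deriv g (τ t) := h3.deriv
  rw [← Complex.real_smul]
  exact h4

theorem hopf_curve (P Q : ℝ) (hQ : 2 * Real.pi ≤ Q) :
    ∃ g₁ g₂ : ℝ → ℂ, ContDiff ℝ ∞ g₁ ∧ ContDiff ℝ ∞ g₂ ∧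
      (∀ t, ‖g₁ t‖ ^ 2 + ‖g₂ t‖ ^ 2 = 1) ∧
      (∀ t, ‖deriv g₁ t‖ ^ 2 + ‖deriv g₂ t‖ ^ 2 = 1) ∧
      (∀ t, (conj (g₁ t) * deriv g₁ t + conj (g₂ t) * deriv g₂ t).im = 0) ∧
      (∀ t, g₁ (t + Q) = Complex.exp (-(Complex.I * P)) * g₁ t) ∧
      (∀ t, g₂ (t + Q) = Complex.exp (-(Complex.I * P)) * g₂ t) := by
  obtain ⟨g₁, g₂, v, hg1, hg2, hv, hv0, hvp, hvQ, hn, hd, hh, hp1, hp2⟩ := hopf_raw P Q hQ
  obtain ⟨τ, hτ, hτd, hτp⟩ := arclength v hv hv0 hvp Q hvQ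
  refine ⟨fun s => g₁ (τ s), fun s => g₂ (τ s), hg1.comp hτ, hg2.comp hτ, fun t => hn (τ t),
    fun t => ?_, fun t => ?_, fun t => ?_, fun t => ?_⟩
  · rw [HO3_deriv hg1 hτ hτd, HO3_deriv hg2 hτ hτd, norm_mul, norm_mul, mul_pow, mul_pow, ← mul_add,
      hd, Complex.norm_real, Real.norm_eq_abs, sq_abs]
    have := (hv0 (τ t)).ne'
    field_simp
  · rw [HO3_deriv hg1 hτ hτd, HO3_deriv hg2 hτ hτd]
    have h1 : conj (g₁ (τ t)) * (((1 / v (τ t) : ℝ) : ℂ) * deriv g₁ (τ t)) +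
        conj (g₂ (τ t)) * (((1 / v (τ t) : ℝ) : ℂ) * deriv g₂ (τ t)) =
        ((1 / v (τ t) : ℝ) : ℂ) * (conj (g₁ (τ t)) * deriv g₁ (τ t) +
          conj (g₂ (τ t)) * deriv g₂ (τ t)) := by ring
    rw [h1, Complex.im_ofReal_mul, hh, mul_zero]
  · change g₁ (τ (t + Q)) = _
    rw [hτp, hp1]
  · change g₂ (τ (t + Q)) = _
    rw [hτp, hp2]

end P205T
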