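import Vale.Agent.P205T.Defs

/-! Module FI1 (match_period) and FI2: final assembly.
1. `match_period`: `f(ε) = ‖Z ε ω₁‖/√ε → ∞` as `ε → 0+`, continuous on `(0, ε₁]`; for `N` large there is `ε` with
   `f ε = 2πN` and `|Im(conj(Z ε ω₁) Z ε ω₂)|/(ε f ε) ≥ 2π`.
2. `k = 1/√ε`, `μ = conj(c₁)/‖c₁‖`: `μ k Z` has periods `2πN` and `P + iQ'`, `|Q'| ≥ 2π`; Hopf torus
   `ψ(s,t) = e^{is}(g₁ t, g₂ t)` with `g (t+Q) = e^{-iP} g t`, where `(P,Q) = ±(P,Q')`, `Q > 0`.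
3. `F = √ε l a ψ(μ k Z)` (coordinates: re, im of the two complex components). -/

open Complex ComplexConjugate
open scoped ContDiff

namespace P205T

theorem match_period (L : Lat) (ε₁ : ℝ) (hε : 0 < ε₁) (c₁ c₂ : ℝ → ℂ)
    (h1 : ContinuousOn c₁ (Set.Icc 0 ε₁)) (h2 : ContinuousOn c₂ (Set.Icc 0 ε₁))
    (e1 : c₁ 0 = L.ω₁) (e2 : c₂ 0 = L.ω₂) :
    ∃ ε ∈ Set.Ioc (0 : ℝ) ε₁, ∃ N : ℕ, 0 < N ∧ ‖c₁ ε‖ / √ε = 2 * Real.pi * N ∧
      2 * Real.pi ≤ |(conj (c₁ ε) * c₂ ε).im| / (‖c₁ ε‖ * √ε) := by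
  have hω₁ : L.ω₁ ≠ 0 := by
    intro h
    apply L.h
    simp [h]
  set W : ℝ := ‖L.ω₁‖ with hW
  have hWpos : 0 < W := norm_pos_iff.mpr hω₁
  set D : ℝ := |(conj L.ω₁ * L.ω₂).im| with hD
  have hDpos : 0 < D := abs_pos.mpr L.h
  have hpi := Real.pi_pos
  have mem0 : (0 : ℝ) ∈ Set.Icc 0 ε₁ := ⟨le_refl _, hε.le⟩
  have cn : ContinuousOn (fun ε => ‖c₁ ε‖) (Set.Icc 0 ε₁) := h1.norm
  have cd : ContinuousOn (fun ε => |(conj (c₁ ε) * c₂ ε).im|) (Set.Icc 0 ε₁) := by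
    have hc : ContinuousOn (fun ε => conj (c₁ ε) * c₂ ε) (Set.Icc 0 ε₁) :=
      (Complex.continuous_conj.comp_continuousOn h1).mul h2
    exact (Complex.continuous_im.comp_continuousOn hc).abs
  have ev1 : ∀ᶠ ε in nhdsWithin 0 (Set.Icc 0 ε₁), W / 2 < ‖c₁ ε‖ := by
    have := (cn 0 mem0)
    refine this.eventually_const_lt ?_
    simp only [e1]
    linarith
  have ev2 : ∀ᶠ ε in nhdsWithin 0 (Set.Icc 0 ε₁), ‖c₁ ε‖ < 2 * W := by
    have := (cn 0 mem0)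
    refine this.eventually_lt_const ?_
    simp only [e1]
    linarith
  have ev3 : ∀ᶠ ε in nhdsWithin 0 (Set.Icc 0 ε₁), D / 2 < |(conj (c₁ ε) * c₂ ε).im| := by
    have := (cd 0 mem0)
    refine this.eventually_const_lt ?_
    simp only [e1, e2]
    linarith
  have ev := (ev1.and (ev2.and ev3))
  rw [Filter.Eventually, mem_nhdsWithin_iff_exists_mem_nhds_inter] at ev
  obtain ⟨U, hU, hUs⟩ := ev
  obtain ⟨r, hr, hrU⟩ := Metric.mem_nhds_iff.mp hU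
  -- choose δ
  set B : ℝ := D / (8 * Real.pi * W) with hB
  have hBpos : 0 < B := by positivity
  set δ : ℝ := min ε₁ (min (r / 2) (B ^ 2)) with hδ
  have hδpos : 0 < δ := by
    apply lt_min hε (lt_min (by linarith) (by positivity))
  have hδ1 : δ ≤ ε₁ := min_le_left _ _
  have hδr : δ < r := lt_of_le_of_lt ((min_le_right _ _).trans (min_le_left _ _)) (by linarith)
  have hδB : δ ≤ B ^ 2 := (min_le_right _ _).trans (min_le_right _ _)
  have key : ∀ ε, 0 ≤ ε → ε ≤ δ → W / 2 < ‖c₁ ε‖ ∧ ‖c₁ ε‖ < 2 * W ∧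
      D / 2 < |(conj (c₁ ε) * c₂ ε).im| := by
    intro ε h0 hle
    apply hUs
    refine ⟨hrU ?_, h0, hle.trans hδ1⟩
    rw [Metric.mem_ball, Real.dist_eq, sub_zero, abs_of_nonneg h0]
    linarith
  have key2 : ∀ ε, 0 < ε → ε ≤ δ →
      2 * Real.pi ≤ |(conj (c₁ ε) * c₂ ε).im| / (‖c₁ ε‖ * √ε) := by
    intro ε h0 hle
    obtain ⟨k1, k2, k3⟩ := key ε h0.le hle
    have hs : 0 < √ε := Real.sqrt_pos.mpr h0
    have hsB : √ε ≤ B := by
      rw [Real.sqrt_le_left hBpos.le]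
      exact hle.trans hδB
    have hc : 0 < ‖c₁ ε‖ := by linarith
    rw [le_div_iff₀ (by positivity)]
    have h3 : 2 * Real.pi * (‖c₁ ε‖ * √ε) ≤ 2 * Real.pi * (2 * W * B) := by
      gcongr
    have h4 : 2 * Real.pi * (2 * W * B) = D / 2 := by
      rw [hB]; field_simp; ring
    linarith
  -- IVT
  obtain ⟨N, hN⟩ := exists_nat_gt (max 1 (‖c₁ δ‖ / √δ / (2 * Real.pi)))
  have hN1 : (1 : ℝ) < N := lt_of_le_of_lt (le_max_left _ _) hN
  have hN2 : ‖c₁ δ‖ / √δ / (2 * Real.pi) < N := lt_of_le_of_lt (le_max_right _ _) hN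
  have hNpos : 0 < N := by
    have : (0 : ℝ) < N := by linarith
    exact_mod_cast this
  have hN3 : ‖c₁ δ‖ / √δ ≤ 2 * Real.pi * N := by
    rw [div_lt_iff₀ (by positivity)] at hN2
    linarith
  set e' : ℝ := min δ ((W / (4 * Real.pi * N)) ^ 2) with he'
  have hNr : (0 : ℝ) < N := by linarith
  have hq : 0 < W / (4 * Real.pi * N) := by positivity
  have he'pos : 0 < e' := lt_min hδpos (by positivity)
  have he'δ : e' ≤ δ := min_le_left _ _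
  have hfe' : 2 * Real.pi * N ≤ ‖c₁ e'‖ / √e' := by
    obtain ⟨k1, -, -⟩ := key e' he'pos.le he'δ
    have hs : 0 < √e' := Real.sqrt_pos.mpr he'pos
    have hsB : √e' ≤ W / (4 * Real.pi * N) := by
      rw [Real.sqrt_le_left hq.le]
      exact min_le_right _ _
    rw [le_div_iff₀ hs]
    have h3 : 2 * Real.pi * N * √e' ≤ 2 * Real.pi * N * (W / (4 * Real.pi * N)) := by
      gcongr
    have h4 : 2 * Real.pi * N * (W / (4 * Real.pi * N)) = W / 2 := by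
      field_simp; ring
    linarith
  have hcont : ContinuousOn (fun ε => ‖c₁ ε‖ / √ε) (Set.Icc e' δ) := by
    apply ContinuousOn.div
    · exact cn.mono (Set.Icc_subset_Icc he'pos.le hδ1)
    · exact Real.continuous_sqrt.continuousOn
    · intro x hx
      exact (Real.sqrt_pos.mpr (lt_of_lt_of_le he'pos hx.1)).ne'
  have hivt := intermediate_value_Icc' he'δ hcont
  obtain ⟨ε, hεm, hεv⟩ := hivt ⟨hN3, hfe'⟩
  have hεpos : 0 < ε := lt_of_lt_of_le he'pos hεm.1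
  exact ⟨ε, ⟨hεpos, hεm.2.trans hδ1⟩, N, hNpos, hεv, key2 ε hεpos hεm.2⟩

end P205T
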