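import Vale.Agent.P205T.GFlat
import Vale.Agent.P205T.Hopf
import Vale.Agent.P205T.Match

/-! Module FI2: final assembly (helper2).
1. `match_period`: `f(ε) = ‖Z ε ω₁‖/√ε → ∞` as `ε → 0+`, continuous on `(0, ε₁]`; for `N` large there is `ε` with
   `f ε = 2πN` and `|Im(conj(Z ε ω₁) Z ε ω₂)|/(ε f ε) ≥ 2π`.
2. `k = 1/√ε`, `μ = conj(c₁)/‖c₁‖`: `μ k Z` has periods `2πN` and `P + iQ'`, `|Q'| ≥ 2π`; Hopf torus
   `ψ(s,t) = e^{is}(g₁ t, g₂ t)` with `g (t+Q) = e^{-iP} g t`, where `(P,Q) = ±(P,Q')`, `Q > 0`.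
3. `F = √ε l a ψ(μ k Z)` (coordinates: re, im of the two complex components). -/

open Complex ComplexConjugate
open scoped ContDiff

namespace P205T

theorem fi_fderiv (f : ℂ → ℝ) (z v : ℂ) : fderiv ℝ f z v = v.re * dx f z + v.im * dy f z := by
  have hv : v = v.re • (1 : ℂ) + v.im • Complex.I := by
    apply Complex.ext <;> simp
  conv_lhs => rw [hv]
  rw [map_add, map_smul, map_smul]
  simp [dx, dy]

/-- signed version of the Hopf curve -/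
theorem fi_hopf (P Q : ℝ) (hQ : 2 * Real.pi ≤ |Q|) :
    ∃ g₁ g₂ : ℝ → ℂ, ContDiff ℝ ∞ g₁ ∧ ContDiff ℝ ∞ g₂ ∧
      (∀ t, ‖g₁ t‖ ^ 2 + ‖g₂ t‖ ^ 2 = 1) ∧
      (∀ t, ‖deriv g₁ t‖ ^ 2 + ‖deriv g₂ t‖ ^ 2 = 1) ∧
      (∀ t, (conj (g₁ t) * deriv g₁ t + conj (g₂ t) * deriv g₂ t).im = 0) ∧
      (∀ t, Complex.exp (Complex.I * P) * g₁ (t + Q) = g₁ t) ∧
      (∀ t, Complex.exp (Complex.I * P) * g₂ (t + Q) = g₂ t) := by
  have key : ∀ x : ℂ, Complex.exp (Complex.I * P) * (Complex.exp (-(Complex.I * P)) * x) = x := by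
    intro x
    rw [← mul_assoc, ← Complex.exp_add]; simp
  rcases le_or_gt 0 Q with h | h
  · obtain ⟨g₁, g₂, h1, h2, h3, h4, h5, h6, h7⟩ := hopf_curve P Q (by rwa [abs_of_nonneg h] at hQ)
    refine ⟨g₁, g₂, h1, h2, h3, h4, h5, fun t => ?_, fun t => ?_⟩
    · rw [h6]; exact key _
    · rw [h7]; exact key _
  · obtain ⟨g₁, g₂, h1, h2, h3, h4, h5, h6, h7⟩ := hopf_curve (-P) (-Q) (by rwa [abs_of_neg h] at hQ)
    refine ⟨g₁, g₂, h1, h2, h3, h4, h5, fun t => ?_, fun t => ?_⟩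
    · have := h6 (t + Q)
      simp only [add_neg_cancel_right] at this
      rw [this]; push_cast; ring_nf
    · have := h7 (t + Q)
      simp only [add_neg_cancel_right] at this
      rw [this]; push_cast; ring_nf

/-- real part of the hermitian product vanishes -/
theorem fi_herm (g₁ g₂ : ℝ → ℂ) (h1 : ContDiff ℝ ∞ g₁) (h2 : ContDiff ℝ ∞ g₂)
    (h3 : ∀ t, ‖g₁ t‖ ^ 2 + ‖g₂ t‖ ^ 2 = 1)
    (h5 : ∀ t, (conj (g₁ t) * deriv g₁ t + conj (g₂ t) * deriv g₂ t).im = 0) (t : ℝ) :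
    conj (g₁ t) * deriv g₁ t + conj (g₂ t) * deriv g₂ t = 0 := by
  have hd1 : HasDerivAt g₁ (deriv g₁ t) t := (h1.differentiable (by simp) t).hasDerivAt
  have hd2 : HasDerivAt g₂ (deriv g₂ t) t := (h2.differentiable (by simp) t).hasDerivAt
  have e1 : HasDerivAt (fun t => ‖g₁ t‖ ^ 2) (2 * inner ℝ (g₁ t) (deriv g₁ t)) t := hd1.norm_sq
  have e2 : HasDerivAt (fun t => ‖g₂ t‖ ^ 2) (2 * inner ℝ (g₂ t) (deriv g₂ t)) t := hd2.norm_sq
  have e3 := e1.add e2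
  have e4 : HasDerivAt (fun _ : ℝ => (1 : ℝ)) (0 : ℝ) t := hasDerivAt_const _ _
  have e5 : (fun t => ‖g₁ t‖ ^ 2) + (fun t => ‖g₂ t‖ ^ 2) = fun _ : ℝ => (1 : ℝ) := by
    funext s; exact h3 s
  rw [e5] at e3
  have e6 := e3.unique e4
  apply Complex.ext
  · rw [Complex.inner, Complex.inner] at e6
    rw [mul_comm (deriv g₁ t), mul_comm (deriv g₂ t)] at e6
    simp only [Complex.add_re, Complex.zero_re]
    linarith
  · simpa using h5 t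

theorem fi_line {β : Type*} [NormedAddCommGroup β] [NormedSpace ℝ β] (f : ℂ → β) (hf : Differentiable ℝ f)
    (z v : ℂ) : HasDerivAt (fun s : ℝ => f (z + s • v)) (fderiv ℝ f z v) 0 := by
  have h1 : HasDerivAt (fun s : ℝ => z + s • v) v 0 := by
    simpa using ((hasDerivAt_id (0 : ℝ)).smul_const v).const_add z
  have h2 : HasFDerivAt f (fderiv ℝ f z) (z + (0 : ℝ) • v) := by
    simpa using (hf z).hasFDerivAt
  exact h2.comp_hasDerivAt (0 : ℝ) h1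

/-- one component of the immersion -/
noncomputable def fiC (R : ℂ → ℝ) (ζ : ℂ → ℂ) (g : ℝ → ℂ) (z : ℂ) : ℂ :=
  (R z : ℂ) * (Complex.exp (Complex.I * ((ζ z).re : ℂ)) * g (ζ z).im)

theorem fiC_contDiff {R : ℂ → ℝ} {ζ : ℂ → ℂ} {g : ℝ → ℂ} (hR : ContDiff ℝ ∞ R) (hζ : ContDiff ℝ ∞ ζ)
    (hg : ContDiff ℝ ∞ g) : ContDiff ℝ ∞ (fiC R ζ g) := by
  unfold fiC
  have h1 : ContDiff ℝ ∞ (fun z => ((R z : ℝ) : ℂ)) := Complex.ofRealCLM.contDiff.comp hR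
  have h2 : ContDiff ℝ ∞ (fun z => (((ζ z).re : ℝ) : ℂ)) :=
    Complex.ofRealCLM.contDiff.comp (Complex.reCLM.contDiff.comp hζ)
  have h3 : ContDiff ℝ ∞ (fun z => g (ζ z).im) := hg.comp (Complex.imCLM.contDiff.comp hζ)
  exact h1.mul (((contDiff_const.mul h2).cexp).mul h3)

theorem fiC_fderiv {R : ℂ → ℝ} {ζ : ℂ → ℂ} {g : ℝ → ℂ} (hR : ContDiff ℝ ∞ R) (hζ : ContDiff ℝ ∞ ζ)
    (hg : ContDiff ℝ ∞ g) (z v : ℂ) :
    fderiv ℝ (fiC R ζ g) z v = Complex.exp (Complex.I * ((ζ z).re : ℂ)) *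
      ((((fderiv ℝ R z v : ℝ) : ℂ) + Complex.I * ((R z * (fderiv ℝ ζ z v).re : ℝ) : ℂ)) * g (ζ z).im
        + ((R z * (fderiv ℝ ζ z v).im : ℝ) : ℂ) * deriv g (ζ z).im) := by
  have hf : Differentiable ℝ (fiC R ζ g) := (fiC_contDiff hR hζ hg).differentiable (by simp)
  have e0 := fi_line (fiC R ζ g) hf z v
  have eR := fi_line R (hR.differentiable (by simp)) z v
  have eζ := fi_line ζ (hζ.differentiable (by simp)) z v
  have eRc : HasDerivAt (fun s : ℝ => ((R (z + s • v) : ℝ) : ℂ)) ((fderiv ℝ R z v : ℝ) : ℂ) 0 := eR.ofReal_comp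
  have ere : HasDerivAt (fun s : ℝ => (ζ (z + s • v)).re) (fderiv ℝ ζ z v).re 0 := by
    have := (Complex.reCLM.hasFDerivAt (x := ζ (z + (0:ℝ) • v))).comp_hasDerivAt (0 : ℝ) eζ
    simpa [Function.comp_def] using this
  have eim : HasDerivAt (fun s : ℝ => (ζ (z + s • v)).im) (fderiv ℝ ζ z v).im 0 := by
    have := (Complex.imCLM.hasFDerivAt (x := ζ (z + (0:ℝ) • v))).comp_hasDerivAt (0 : ℝ) eζ
    simpa [Function.comp_def] using this
  have ereC : HasDerivAt (fun s : ℝ => (((ζ (z + s • v)).re : ℝ) : ℂ)) (((fderiv ℝ ζ z v).re : ℝ) : ℂ) 0 :=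
    ere.ofReal_comp
  have eexp : HasDerivAt (fun s : ℝ => Complex.exp (Complex.I * (((ζ (z + s • v)).re : ℝ) : ℂ)))
      (Complex.exp (Complex.I * ((ζ z).re : ℂ)) * (Complex.I * (((fderiv ℝ ζ z v).re : ℝ) : ℂ))) 0 := by
    have := (ereC.const_mul Complex.I).cexp
    simpa using this
  have eg : HasDerivAt (fun s : ℝ => g (ζ (z + s • v)).im)
      ((fderiv ℝ ζ z v).im • deriv g (ζ z).im) 0 := by
    have h1 : HasDerivAt g (deriv g (ζ z).im) (ζ (z + (0:ℝ) • v)).im := by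
      simpa using (hg.differentiable (by simp) (ζ z).im).hasDerivAt
    exact h1.scomp (0 : ℝ) eim
  have e1 := eRc.mul (eexp.mul eg)
  have e2 : (fun s : ℝ => fiC R ζ g (z + s • v)) = (fun s : ℝ => ((R (z + s • v) : ℝ) : ℂ)) *
      ((fun s : ℝ => Complex.exp (Complex.I * (((ζ (z + s • v)).re : ℝ) : ℂ))) * (fun s : ℝ => g (ζ (z + s • v)).im)) := by
    funext s; simp [fiC]
  rw [e2] at e0
  rw [e0.unique e1]
  simp
  ring

theorem fi_norm {R : ℂ → ℝ} {ζ : ℂ → ℂ} {g₁ g₂ : ℝ → ℂ} (hR : ContDiff ℝ ∞ R) (hζ : ContDiff ℝ ∞ ζ)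
    (h1 : ContDiff ℝ ∞ g₁) (h2 : ContDiff ℝ ∞ g₂)
    (h3 : ∀ t, ‖g₁ t‖ ^ 2 + ‖g₂ t‖ ^ 2 = 1)
    (h4 : ∀ t, ‖deriv g₁ t‖ ^ 2 + ‖deriv g₂ t‖ ^ 2 = 1)
    (h5 : ∀ t, (conj (g₁ t) * deriv g₁ t + conj (g₂ t) * deriv g₂ t).im = 0) (z v : ℂ) :
    ‖fderiv ℝ (fiC R ζ g₁) z v‖ ^ 2 + ‖fderiv ℝ (fiC R ζ g₂) z v‖ ^ 2
      = (fderiv ℝ R z v) ^ 2 + R z ^ 2 * ‖fderiv ℝ ζ z v‖ ^ 2 := by
  have hH := fi_herm g₁ g₂ h1 h2 h3 h5 (ζ z).im
  rw [fiC_fderiv hR hζ h1, fiC_fderiv hR hζ h2, norm_mul, norm_mul]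
  have hexp : ‖Complex.exp (Complex.I * ((ζ z).re : ℂ))‖ = 1 := by
    rw [mul_comm]; exact Complex.norm_exp_ofReal_mul_I _
  rw [hexp, one_mul, one_mul]
  have h3' := h3 (ζ z).im
  have h4' := h4 (ζ z).im
  set a := fderiv ℝ R z v
  set s := (fderiv ℝ ζ z v).re with hs
  set t := (fderiv ℝ ζ z v).im with ht
  have hζn : ‖fderiv ℝ ζ z v‖ ^ 2 = s ^ 2 + t ^ 2 := by
    rw [← Complex.normSq_eq_norm_sq, Complex.normSq_apply]; ring
  rw [hζn]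
  set x := g₁ (ζ z).im
  set y := g₂ (ζ z).im
  set x' := deriv g₁ (ζ z).im
  set y' := deriv g₂ (ζ z).im
  have hre := congrArg Complex.re hH
  have him := congrArg Complex.im hH
  simp only [← Complex.normSq_eq_norm_sq, Complex.normSq_apply] at h3' h4' ⊢
  simp only [Complex.add_re, Complex.add_im, Complex.mul_re, Complex.mul_im, Complex.conj_re, Complex.conj_im,
    Complex.ofReal_re, Complex.ofReal_im, Complex.I_re, Complex.I_im, Complex.zero_re, Complex.zero_im] at hre him ⊢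
  linear_combination (a ^ 2 + R z ^ 2 * s ^ 2) * h3' + (R z ^ 2 * t ^ 2) * h4'
    + 2 * R z * t * a * hre + 2 * R z * t * R z * s * him

/-- the map into `ℝ⁴` -/
noncomputable def fiF (f₁ f₂ : ℂ → ℂ) (z : ℂ) : EuclideanSpace ℝ (Fin 4) :=
  !₂[(f₁ z).re, (f₁ z).im, (f₂ z).re, (f₂ z).im]

theorem fiF_contDiff {f₁ f₂ : ℂ → ℂ} (h1 : ContDiff ℝ ∞ f₁) (h2 : ContDiff ℝ ∞ f₂) :
    ContDiff ℝ ∞ (fiF f₁ f₂) := by
  rw [contDiff_euclidean]
  intro i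
  fin_cases i
  · exact Complex.reCLM.contDiff.comp h1
  · exact Complex.imCLM.contDiff.comp h1
  · exact Complex.reCLM.contDiff.comp h2
  · exact Complex.imCLM.contDiff.comp h2

theorem fiF_norm {f₁ f₂ : ℂ → ℂ} (h1 : ContDiff ℝ ∞ f₁) (h2 : ContDiff ℝ ∞ f₂) (z v : ℂ) :
    ‖fderiv ℝ (fiF f₁ f₂) z v‖ ^ 2 = ‖fderiv ℝ f₁ z v‖ ^ 2 + ‖fderiv ℝ f₂ z v‖ ^ 2 := by
  have hd : HasFDerivAt (fiF f₁ f₂) (fderiv ℝ (fiF f₁ f₂) z) z :=
    ((fiF_contDiff h1 h2).differentiable (by simp) z).hasFDerivAt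
  have hd1 : HasFDerivAt f₁ (fderiv ℝ f₁ z) z := (h1.differentiable (by simp) z).hasFDerivAt
  have hd2 : HasFDerivAt f₂ (fderiv ℝ f₂ z) z := (h2.differentiable (by simp) z).hasFDerivAt
  have hc : ∀ i : Fin 4, HasFDerivAt (fun x => fiF f₁ f₂ x i)
      ((EuclideanSpace.proj i : EuclideanSpace ℝ (Fin 4) →L[ℝ] ℝ).comp (fderiv ℝ (fiF f₁ f₂) z)) z :=
    fun i => (EuclideanSpace.proj i : EuclideanSpace ℝ (Fin 4) →L[ℝ] ℝ).hasFDerivAt.comp z hd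
  have c0 : (fderiv ℝ (fiF f₁ f₂) z v) 0 = (fderiv ℝ f₁ z v).re := by
    have e1 := hc 0
    have e2 : HasFDerivAt (fun x => (fiF f₁ f₂ x) 0) (Complex.reCLM.comp (fderiv ℝ f₁ z)) z :=
      Complex.reCLM.hasFDerivAt.comp z hd1
    have := congrArg (fun A => A v) (e1.unique e2)
    simpa using this
  have c1 : (fderiv ℝ (fiF f₁ f₂) z v) 1 = (fderiv ℝ f₁ z v).im := by
    have e1 := hc 1
    have e2 : HasFDerivAt (fun x => (fiF f₁ f₂ x) 1) (Complex.imCLM.comp (fderiv ℝ f₁ z)) z :=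
      Complex.imCLM.hasFDerivAt.comp z hd1
    have := congrArg (fun A => A v) (e1.unique e2)
    simpa using this
  have c2 : (fderiv ℝ (fiF f₁ f₂) z v) 2 = (fderiv ℝ f₂ z v).re := by
    have e1 := hc 2
    have e2 : HasFDerivAt (fun x => (fiF f₁ f₂ x) 2) (Complex.reCLM.comp (fderiv ℝ f₂ z)) z :=
      Complex.reCLM.hasFDerivAt.comp z hd2
    have := congrArg (fun A => A v) (e1.unique e2)
    simpa using this
  have c3 : (fderiv ℝ (fiF f₁ f₂) z v) 3 = (fderiv ℝ f₂ z v).im := by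
    have e1 := hc 3
    have e2 : HasFDerivAt (fun x => (fiF f₁ f₂ x) 3) (Complex.imCLM.comp (fderiv ℝ f₂ z)) z :=
      Complex.imCLM.hasFDerivAt.comp z hd2
    have := congrArg (fun A => A v) (e1.unique e2)
    simpa using this
  rw [EuclideanSpace.norm_sq_eq, Fin.sum_univ_four, c0, c1, c2, c3]
  simp only [Real.norm_eq_abs, sq_abs, ← Complex.normSq_eq_norm_sq, Complex.normSq_apply]
  ring

/-- polarisation -/
theorem fi_polar {f : ℂ → EuclideanSpace ℝ (Fin 4)} (z : ℂ) (c : ℝ)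
    (h : ∀ v, ‖fderiv ℝ f z v‖ ^ 2 = c * ‖v‖ ^ 2) (v w : ℂ) :
    inner ℝ (fderiv ℝ f z v) (fderiv ℝ f z w) = c * inner ℝ v w := by
  have h1 := h (v + w)
  rw [map_add, norm_add_sq_real, norm_add_sq_real, h v, h w] at h1
  linarith

theorem torus_immersion (ω₁ ω₂ : ℂ) (hω : (conj ω₁ * ω₂).im ≠ 0) (l : ℂ → ℝ) (hl : ContDiff ℝ ∞ l)
    (hpos : ∀ z, 0 < l z) (h1 : ∀ z, l (z + ω₁) = l z) (h2 : ∀ z, l (z + ω₂) = l z) :
    ∃ F : ℂ → EuclideanSpace ℝ (Fin 4), ContDiff ℝ ∞ F ∧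
      (∀ z, F (z + ω₁) = F z) ∧ (∀ z, F (z + ω₂) = F z) ∧
      ∀ z v w, inner ℝ (fderiv ℝ F z v) (fderiv ℝ F z w) = l z ^ 2 * inner ℝ v w := by
  set L : Lat := ⟨ω₁, ω₂, hω⟩ with hL
  set w : ℂ → ℝ := fun z => Real.log (l z) with hw_def
  have hw : ContDiff ℝ ∞ w := hl.log (fun z => (hpos z).ne')
  have hwper : Per L w := ⟨fun z => by simp [w, L, h1], fun z => by simp [w, L, h2]⟩
  obtain ⟨ε₁, hε₁, a, Z, hfam, hc1, hc2, e1, e2⟩ := flat_family L w hw hwper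
  obtain ⟨ε, hε, N, hN, hper1, hper2⟩ :=
    match_period L ε₁ hε₁ (fun ε => Z ε L.ω₁) (fun ε => Z ε L.ω₂) hc1 hc2 e1 e2
  obtain ⟨ha, haper, hapos, hZ, hZ1, hZ2, hmet⟩ := hfam ε ⟨hε.1.le, hε.2⟩
  set c₁ := Z ε L.ω₁ with hc₁
  set c₂ := Z ε L.ω₂ with hc₂
  set r := √ε with hr
  have hr0 : 0 < r := Real.sqrt_pos.2 hε.1
  have hr2 : r ^ 2 = ε := Real.sq_sqrt hε.1.le
  have hπ := Real.pi_pos
  have hNpos : (0 : ℝ) < N := by exact_mod_cast hN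
  have hn1 : 0 < ‖c₁‖ := by
    have : 0 < ‖c₁‖ / r := by rw [hper1]; positivity
    by_contra hcon
    have h0 : ‖c₁‖ = 0 := le_antisymm (not_lt.1 hcon) (norm_nonneg _)
    rw [h0] at this; simp at this
  set P : ℝ := (conj c₁ * c₂).re / (‖c₁‖ * r) with hP
  set Q : ℝ := (conj c₁ * c₂).im / (‖c₁‖ * r) with hQ
  have hQabs : 2 * Real.pi ≤ |Q| := by
    rw [hQ, abs_div, abs_of_pos (mul_pos hn1 hr0)]; exact hper2
  obtain ⟨g₁, g₂, hg1, hg2, hg3, hg4, hg5, hg6, hg7⟩ := fi_hopf P Q hQabs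
  set μ : ℂ := conj c₁ / ((‖c₁‖ * r : ℝ) : ℂ) with hμ
  have hμnorm : ‖μ‖ = 1 / r := by
    rw [hμ, norm_div, RCLike.norm_conj, Complex.norm_real, Real.norm_eq_abs, abs_of_pos (mul_pos hn1 hr0)]
    field_simp
  have hμ1 : μ * c₁ = ((2 * Real.pi * N : ℝ) : ℂ) := by
    rw [← hper1, hμ, div_mul_eq_mul_div, ← Complex.normSq_eq_conj_mul_self, Complex.normSq_eq_norm_sq,
      ← Complex.ofReal_div]
    congr 1
    field_simp
  have hμ2 : μ * c₂ = ⟨P, Q⟩ := by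
    rw [hμ, div_mul_eq_mul_div]
    apply Complex.ext
    · rw [Complex.div_ofReal_re]
    · rw [Complex.div_ofReal_im]
  set ζ : ℂ → ℂ := fun z => μ * Z ε z with hζdef
  have hζ : ContDiff ℝ ∞ ζ := contDiff_const.mul hZ
  set R : ℂ → ℝ := fun z => r * (l z * a ε z) with hRdef
  have hR : ContDiff ℝ ∞ R := contDiff_const.mul (hl.mul ha)
  have hζ1 : ∀ z, ζ (z + ω₁) = ζ z + ((2 * Real.pi * N : ℝ) : ℂ) := by
    intro z
    have := hZ1 z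
    simp only [hζdef]
    rw [show ω₁ = L.ω₁ from rfl, this, mul_add, hμ1]
  have hζ2 : ∀ z, ζ (z + ω₂) = ζ z + ⟨P, Q⟩ := by
    intro z
    have := hZ2 z
    simp only [hζdef]
    rw [show ω₂ = L.ω₂ from rfl, this, mul_add, hμ2]
  have hR1 : ∀ z, R (z + ω₁) = R z := by
    intro z
    have := haper.1 z
    simp only [hRdef, h1]
    rw [show ω₁ = L.ω₁ from rfl, this]
  have hR2 : ∀ z, R (z + ω₂) = R z := by
    intro z
    have := haper.2 z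
    simp only [hRdef, h2]
    rw [show ω₂ = L.ω₂ from rfl, this]
  have hf1 : ∀ g : ℝ → ℂ, ∀ z, fiC R ζ g (z + ω₁) = fiC R ζ g z := by
    intro g z
    unfold fiC
    rw [hζ1, hR1]
    have e1 : (ζ z + ((2 * Real.pi * N : ℝ) : ℂ)).im = (ζ z).im := by simp
    have e2 : (((ζ z + ((2 * Real.pi * N : ℝ) : ℂ)).re : ℝ) : ℂ) = ((ζ z).re : ℂ) + N * (2 * Real.pi) := by
      simp; ring
    rw [e1, e2]
    have e3 : Complex.I * (((ζ z).re : ℂ) + N * (2 * Real.pi))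
        = Complex.I * ((ζ z).re : ℂ) + N * (2 * Real.pi * Complex.I) := by ring
    rw [e3, Complex.exp_add, Complex.exp_nat_mul_two_pi_mul_I, mul_one]
  have hf2 : ∀ g : ℝ → ℂ, (∀ t, Complex.exp (Complex.I * P) * g (t + Q) = g t) →
      ∀ z, fiC R ζ g (z + ω₂) = fiC R ζ g z := by
    intro g hg z
    unfold fiC
    rw [hζ2, hR2]
    have e1 : (ζ z + (⟨P, Q⟩ : ℂ)).im = (ζ z).im + Q := by simp
    have e2 : (((ζ z + (⟨P, Q⟩ : ℂ)).re : ℝ) : ℂ) = ((ζ z).re : ℂ) + P := by simp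
    rw [e1, e2, mul_add, Complex.exp_add, mul_assoc (Complex.exp (Complex.I * ((ζ z).re : ℂ))), hg]
  refine ⟨fiF (fiC R ζ g₁) (fiC R ζ g₂),
    fiF_contDiff (fiC_contDiff hR hζ hg1) (fiC_contDiff hR hζ hg2), ?_, ?_, ?_⟩
  · intro z; unfold fiF; rw [hf1, hf1]
  · intro z; unfold fiF; rw [hf2 g₁ hg6, hf2 g₂ hg7]
  · intro z v v'
    apply fi_polar
    intro v
    rw [fiF_norm (fiC_contDiff hR hζ hg1) (fiC_contDiff hR hζ hg2), fi_norm hR hζ hg1 hg2 hg3 hg4 hg5]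
    -- derivative of R
    have hldiff := hl.differentiable (by simp) z
    have hadiff := ha.differentiable (by simp) z
    have hlog : fderiv ℝ w z v = fderiv ℝ l z v / l z := by
      have hd := (hldiff.hasFDerivAt.log (hpos z).ne').fderiv
      rw [hw_def, hd]
      simp [div_eq_inv_mul]
    have hRd : fderiv ℝ R z v = r * (l z * fderiv ℝ (a ε) z v + a ε z * fderiv ℝ l z v) := by
      have hd : HasFDerivAt R (r • (l z • fderiv ℝ (a ε) z + a ε z • fderiv ℝ l z)) z :=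
        (hldiff.hasFDerivAt.mul hadiff.hasFDerivAt).const_mul r
      rw [hd.fderiv]; simp; ring
    have hζd : ‖fderiv ℝ ζ z v‖ ^ 2 = ‖fderiv ℝ (Z ε) z v‖ ^ 2 / r ^ 2 := by
      have hd : HasFDerivAt ζ (μ • fderiv ℝ (Z ε) z) z :=
        (hZ.differentiable (by simp) z).hasFDerivAt.const_mul μ
      rw [hd.fderiv]
      simp only [ContinuousLinearMap.smul_apply, smul_eq_mul, norm_mul, hμnorm]
      ring
    have hm := hmet z v
    have hp : p1 (a ε) w z * v.re + p2 (a ε) w z * v.im = fderiv ℝ (a ε) z v + a ε z * fderiv ℝ w z v := by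
      rw [fi_fderiv (a ε) z v, fi_fderiv w z v]; unfold p1 p2; ring
    rw [hRd, hζd]
    rw [hp, hlog] at hm
    have hl0 := hpos z
    have hfl : fderiv ℝ l z v = l z * (fderiv ℝ l z v / l z) := by field_simp
    set A := fderiv ℝ (a ε) z v
    set B := fderiv ℝ l z v / l z
    rw [hfl]
    have : (R z) ^ 2 * (‖fderiv ℝ (Z ε) z v‖ ^ 2 / r ^ 2)
        = l z ^ 2 * (a ε z ^ 2 * ‖fderiv ℝ (Z ε) z v‖ ^ 2) := by
      simp only [hRdef]; field_simp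
    rw [this, hm, ← hr2]
    ring

end P205T
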