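import Mathlib

/-! Module GH: holonomy lemma (pure algebra) and integral representations with parameters.
Holonomy: `1 - e^{ih} = -2i sin(h/2) e^{ih/2}`; multiply `c₁ sin(h₂/2) e^{ih₂/2} = c₂ sin(h₁/2) e^{ih₁/2}` by
`conj c₂ e^{-ih₁/2}` and take imaginary parts. -/

open Complex ComplexConjugate
open scoped ContDiff

namespace P205T

theorem GH_key (h : ℝ) : (1 : ℂ) - Complex.exp (Complex.I * h) =
    -2 * Complex.I * ((Real.sin (h / 2) : ℝ) : ℂ) * Complex.exp (Complex.I * (h / 2)) := by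
  have h1 : Complex.exp (Complex.I * h) =
      Complex.exp (Complex.I * (h / 2)) * Complex.exp (Complex.I * (h / 2)) := by
    rw [← Complex.exp_add]
    congr 1
    ring
  have h2 : Complex.exp (-(Complex.I * (h / 2))) * Complex.exp (Complex.I * (h / 2)) = 1 := by
    rw [← Complex.exp_add]
    simp
  have h3 : ((Real.sin (h / 2) : ℝ) : ℂ) = (Complex.exp (-(Complex.I * (h / 2))) -
      Complex.exp (Complex.I * (h / 2))) * Complex.I / 2 := by
    rw [Complex.ofReal_sin, Complex.sin]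
    push_cast
    rw [show -((h : ℂ) / 2) * Complex.I = -(Complex.I * (h / 2)) by ring,
      show ((h : ℂ) / 2) * Complex.I = Complex.I * (h / 2) by ring]
  rw [h1, h3]
  have h4 : Complex.I * Complex.I = -1 := Complex.I_mul_I
  linear_combination (-1 : ℂ) * h2 + (Complex.exp (-(Complex.I * (h / 2))) *
    Complex.exp (Complex.I * (h / 2)) - Complex.exp (Complex.I * (h / 2)) *
    Complex.exp (Complex.I * (h / 2))) * h4

theorem GH_sin (h : ℝ) (hb : |h| < Real.pi) (hs : Real.sin (h / 2) = 0) : h = 0 := by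
  rw [abs_lt] at hb
  have := (Real.sin_eq_zero_iff_of_lt_of_lt (x := h / 2) (by linarith [Real.pi_pos])
    (by linarith [Real.pi_pos])).mp hs
  linarith

theorem holonomy (c₁ c₂ : ℂ) (h₁ h₂ : ℝ)
    (heq : Complex.exp (Complex.I * h₁) * c₂ + c₁ = Complex.exp (Complex.I * h₂) * c₁ + c₂)
    (hb1 : |h₁| < Real.pi) (hb2 : |h₂| < Real.pi)
    (him : (c₁ * conj c₂ * Complex.exp (Complex.I * ((h₂ - h₁) / 2))).im ≠ 0) : h₁ = 0 ∧ h₂ = 0 := by
  have e1 := GH_key h₁
  have e2 := GH_key h₂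
  have hc2 : c₂ ≠ 0 := by
    rintro rfl
    simp at him
  have hI : (-2 * Complex.I : ℂ) ≠ 0 := by simp
  have h1 : c₁ * ((Real.sin (h₂ / 2) : ℝ) : ℂ) * Complex.exp (Complex.I * (h₂ / 2)) =
      c₂ * ((Real.sin (h₁ / 2) : ℝ) : ℂ) * Complex.exp (Complex.I * (h₁ / 2)) := by
    refine mul_left_cancel₀ hI ?_
    linear_combination c₂ * e1 - c₁ * e2 + heq
  have h2 : Complex.exp (-(Complex.I * (h₁ / 2))) * Complex.exp (Complex.I * (h₁ / 2)) = 1 := by
    rw [← Complex.exp_add]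
    simp
  have h3 : Complex.exp (Complex.I * ((h₂ - h₁) / 2)) =
      Complex.exp (Complex.I * (h₂ / 2)) * Complex.exp (-(Complex.I * (h₁ / 2))) := by
    rw [← Complex.exp_add]
    congr 1
    ring
  have h4 : (c₁ * conj c₂ * Complex.exp (Complex.I * ((h₂ - h₁) / 2))) *
      ((Real.sin (h₂ / 2) : ℝ) : ℂ) = ((Complex.normSq c₂ * Real.sin (h₁ / 2) : ℝ) : ℂ) := by
    rw [h3, Complex.ofReal_mul, ← Complex.mul_conj]
    linear_combination (conj c₂ * Complex.exp (-(Complex.I * (h₁ / 2)))) * h1 +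
      (c₂ * conj c₂ * ((Real.sin (h₁ / 2) : ℝ) : ℂ)) * h2
  have h5 : Real.sin (h₂ / 2) = 0 := by
    have := congrArg Complex.im h4
    rw [Complex.im_mul_ofReal, Complex.ofReal_im] at this
    exact (mul_eq_zero.mp this).resolve_left him
  have h6 : Real.sin (h₁ / 2) = 0 := by
    rw [h5] at h4
    have h7 : (Complex.normSq c₂ * Real.sin (h₁ / 2) : ℝ) = 0 := by
      have : ((Complex.normSq c₂ * Real.sin (h₁ / 2) : ℝ) : ℂ) = 0 := by
        rw [← h4]
        simp
      exact_mod_cast this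
    exact (mul_eq_zero.mp h7).resolve_left (fun h => hc2 (Complex.normSq_eq_zero.mp h))
  exact ⟨GH_sin h₁ hb1 h6, GH_sin h₂ hb2 h5⟩

end P205T
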