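import Mathlib

/-! Module GS (segment integrals): holonomy lemma (pure algebra) and integral representations with parameters.
Holonomy: `1 - e^{ih} = -2i sin(h/2) e^{ih/2}`; multiply `c₁ sin(h₂/2) e^{ih₂/2} = c₂ sin(h₁/2) e^{ih₁/2}` by
`conj c₂ e^{-ih₁/2}` and take imaginary parts. -/

open Complex ComplexConjugate
open scoped ContDiff

namespace P205T

/-- fundamental theorem of calculus along the segment `[0,z]` -/
theorem segment_rep {β : Type*} [NormedAddCommGroup β] [NormedSpace ℝ β] [CompleteSpace β]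
    (g : ℂ → β) (hg : ContDiff ℝ 1 g) (z : ℂ) :
    g z = g 0 + ∫ t in (0:ℝ)..1, fderiv ℝ g (t * z) z := by
  have hline : ∀ t : ℝ, HasDerivAt (fun s : ℝ => (s : ℂ) * z) z t := by
    intro t
    have h1 : HasDerivAt (fun s : ℝ => (s : ℂ)) 1 t := Complex.ofRealCLM.hasDerivAt
    have h2 := h1.mul_const z
    rw [one_mul] at h2
    exact h2
  have hcont : Continuous fun t : ℝ => (t : ℂ) * z :=
    Complex.continuous_ofReal.mul continuous_const
  have hd : ∀ t : ℝ, HasDerivAt (fun s : ℝ => g ((s : ℂ) * z)) (fderiv ℝ g ((t : ℂ) * z) z) t := by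
    intro t
    exact ((hg.differentiable one_ne_zero ((t : ℂ) * z)).hasFDerivAt).comp_hasDerivAt t (hline t)
  have hc : Continuous fun t : ℝ => fderiv ℝ g ((t : ℂ) * z) z :=
    ((hg.continuous_fderiv one_ne_zero).comp hcont).clm_apply continuous_const
  have h3 := intervalIntegral.integral_eq_sub_of_hasDerivAt (a := 0) (b := 1)
    (fun t _ => hd t) (hc.intervalIntegrable 0 1)
  rw [h3, Complex.ofReal_one, Complex.ofReal_zero, one_mul, zero_mul]
  abel

theorem GSeg_param {Y β : Type*} [TopologicalSpace Y] [NormedAddCommGroup β] [NormedSpace ℝ β]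
    (F : Y → ℝ → β) (hF : Continuous fun p : Y × ℝ => F p.1 p.2) :
    Continuous fun y => ∫ t in (0:ℝ)..1, F y t := by
  have hFy : ∀ y, Continuous (F y) := fun y => hF.comp (continuous_const.prodMk continuous_id)
  rw [continuous_iff_continuousAt]
  intro y₀
  rw [Metric.continuousAt_iff']
  intro ε hε
  have h1 : ∀ᶠ y in nhds y₀, ∀ t ∈ Set.Icc (0 : ℝ) 1, ‖F y t - F y₀ t‖ < ε / 2 := by
    refine IsCompact.eventually_forall_of_forall_eventually isCompact_Icc fun t _ => ?_
    have h2 : Continuous fun p : Y × ℝ => ‖F p.1 p.2 - F y₀ p.2‖ :=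
      (hF.sub ((hFy y₀).comp continuous_snd)).norm
    have h3 : (fun p : Y × ℝ => ‖F p.1 p.2 - F y₀ p.2‖) (y₀, t) < ε / 2 := by
      change ‖F y₀ t - F y₀ t‖ < ε / 2
      rw [sub_self, norm_zero]
      linarith
    exact h2.continuousAt.eventually_lt continuousAt_const h3
  refine h1.mono fun y hy => ?_
  rw [dist_eq_norm, ← intervalIntegral.integral_sub ((hFy y).intervalIntegrable 0 1)
    ((hFy y₀).intervalIntegrable 0 1)]
  have h4 : ‖∫ t in (0:ℝ)..1, (F y t - F y₀ t)‖ ≤ ε / 2 * |1 - 0| := by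
    refine intervalIntegral.norm_integral_le_of_norm_le_const fun t ht => ?_
    rw [Set.uIoc_of_le zero_le_one] at ht
    exact (hy t ⟨ht.1.le, ht.2⟩).le
  rw [sub_zero, abs_one, mul_one] at h4
  linarith

/-- continuity of a segment integral in parameters -/
theorem param_continuous {X β : Type*} [TopologicalSpace X] [NormedAddCommGroup β] [NormedSpace ℝ β]
    (f : X → ℂ → ℂ → β) (hf : Continuous fun q : X × ℂ × ℂ => f q.1 q.2.1 q.2.2) :
    Continuous fun q : X × ℂ => ∫ t in (0:ℝ)..1, f q.1 (t * q.2) q.2 := by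
  refine GSeg_param (fun (q : X × ℂ) (t : ℝ) => f q.1 (t * q.2) q.2) ?_
  have h1 : Continuous fun p : (X × ℂ) × ℝ => ((p.1.1, ((p.2 : ℂ) * p.1.2, p.1.2)) : X × ℂ × ℂ) :=
    (continuous_fst.comp continuous_fst).prodMk
      (((Complex.continuous_ofReal.comp continuous_snd).mul
        (continuous_snd.comp continuous_fst)).prodMk (continuous_snd.comp continuous_fst))
  exact hf.comp h1

end P205T
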