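import Vale.Agent.P205T.WFam
import Vale.Agent.P205T.WDeriv
import Vale.Agent.P205T.Fourier

/-! Module PDE: solutions of `Lstar = const` near `a = 1`.  `a ε z = 1 + (ev z (mult M0 (u ε))).re`. -/

open Complex ComplexConjugate
open scoped ContDiff

namespace P205T

private theorem pde_fderiv_re (L : Lat) {m : ℤ × ℤ → ℂ} (hm : Bdd m)
    (hmx : Bdd fun n => Complex.I * (kx L n : ℂ) * m n)
    (hmy : Bdd fun n => Complex.I * (ky L n : ℂ) * m n) (c : V) (k : ℝ) (z : ℂ) :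
    dx (fun z => k + (ev L z (mult m c)).re) z
      = (ev L z (mult (fun n => Complex.I * (kx L n : ℂ) * m n) c)).re ∧
    dy (fun z => k + (ev L z (mult m c)).re) z
      = (ev L z (mult (fun n => Complex.I * (ky L n : ℂ) * m n) c)).re := by
  have h := ev_mult_hasFDerivAt L hm hmx hmy c z
  have h2 : HasFDerivAt (fun z => k + (ev L z (mult m c)).re)
      (Complex.reCLM.comp (Complex.reCLM.smulRight
        (ev L z (mult (fun n => Complex.I * (kx L n : ℂ) * m n) c))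
        + Complex.imCLM.smulRight (ev L z (mult (fun n => Complex.I * (ky L n : ℂ) * m n) c)))) z :=
    (Complex.reCLM.hasFDerivAt.comp z h).const_add k
  constructor
  · unfold dx
    rw [h2.fderiv]
    simp
  · unfold dy
    rw [h2.fderiv]
    simp

private theorem pde_real (L : Lat) {m : ℤ × ℤ → ℂ} (hm : Bdd m)
    (hs : ∀ n, m (-n) = conj (m n)) {c : V} (hc : J c = c) (z : ℂ) :
    ev L z (mult m c) = (((ev L z (mult m c)).re : ℝ) : ℂ) := by
  have h1 : conj (ev L z (mult m c)) = ev L z (mult m c) := by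
    rw [← ev_J, ← mult_J hm hs, hc]
  exact (Complex.conj_eq_iff_re.1 h1).symm

private theorem pde_cast (ε a a1 a2 a11 a12 a22 w1 w2 w11 w12 w22 : ℝ) :
    Lstar (ε : ℂ) (a : ℂ) (a1 : ℂ) (a2 : ℂ) (a11 : ℂ) (a12 : ℂ) (a22 : ℂ) (w1 : ℂ) (w2 : ℂ)
      (w11 : ℂ) (w12 : ℂ) (w22 : ℂ)
      = ((Lstar ε a a1 a2 a11 a12 a22 w1 w2 w11 w12 w22 : ℝ) : ℂ) := by
  unfold Lstar
  push_cast
  ring

private theorem pde_smooth_d {f : ℂ → ℝ} (hf : ContDiff ℝ ∞ f) (v : ℂ) :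
    ContDiff ℝ ∞ (fun z => fderiv ℝ f z v) := by
  have h1 : ContDiff ℝ ∞ (fderiv ℝ f) := hf.fderiv_right (m := ∞) (by simp)
  exact h1.clm_apply contDiff_const

private theorem pde_per_d {L : Lat} {f : ℂ → ℝ} (hf : Per L f) (v : ℂ) :
    Per L (fun z => fderiv ℝ f z v) := by
  have key : ∀ e : ℂ, (∀ z, f (z + e) = f z) → ∀ z, fderiv ℝ f (z + e) v = fderiv ℝ f z v := by
    intro e h z
    have h1 : (fun z => f (z + e)) = f := funext h
    have h2 : fderiv ℝ (fun z => f (z + e)) z = fderiv ℝ f (z + e) := fderiv_comp_add_right e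
    rw [h1] at h2
    rw [← h2]
  exact ⟨key _ hf.1, key _ hf.2⟩

private theorem pde_cont (L : Lat) (m : ℤ × ℤ → ℂ) {u : ℝ → V} {S : Set ℝ}
    (hu : ContinuousOn u S) :
    ContinuousOn (fun q : ℝ × ℂ => (ev L q.2 (mult m (u q.1))).re) (S ×ˢ Set.univ) := by
  have h0 : ContinuousOn (fun q : ℝ × ℂ => mult m (u q.1)) (S ×ˢ Set.univ) := by
    have h2 : ContinuousOn (fun q : ℝ × ℂ => u q.1) (S ×ˢ Set.univ) :=
      hu.comp continuousOn_fst (fun q hq => hq.1)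
    exact (mult m).continuous.comp_continuousOn h2
  have h1 : ContinuousOn (fun q : ℝ × ℂ => (mult m (u q.1), q.2)) (S ×ˢ Set.univ) :=
    h0.prodMk continuousOn_snd
  have h3 : ContinuousOn (fun q : ℝ × ℂ => ev L q.2 (mult m (u q.1))) (S ×ˢ Set.univ) := by
    have := Continuous.comp_continuousOn (g := fun q : V × ℂ => ev L q.2 q.1) (ev_continuous L) h1
    exact this
  exact Complex.continuous_re.comp_continuousOn h3

private theorem pde_eval (L : Lat) (u : V) (W : Fin 5 → V) (ε : ℝ) (hG : Gmap L (u, (W, ε)) = 0)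
    (hJu : J u = u) (z : ℂ) (w1 w2 w11 w12 w22 : ℝ) (e0 : ev L z (W 0) = (w1 : ℂ))
    (e1 : ev L z (W 1) = (w2 : ℂ)) (e2 : ev L z (W 2) = (w11 : ℂ))
    (e3 : ev L z (W 3) = (w12 : ℂ)) (e4 : ev L z (W 4) = (w22 : ℂ)) :
    Lstar ε (1 + (ev L z (mult (M0 L) u)).re) (ev L z (mult (M1 L) u)).re
      (ev L z (mult (M2 L) u)).re (ev L z (mult (M11 L) u)).re
      (ev L z (mult (M12 L) u)).re (ev L z (mult (M22 L) u)).re w1 w2 w11 w12 w22
      = -(u 0).re := by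
  have hE := ev_Gmap L z u W ε
  rw [hG, map_zero] at hE
  have hu0' : u 0 = (((u 0).re : ℝ) : ℂ) := by
    have h1 : conj (u 0) = u 0 := by
      have h2 := J_apply u 0
      rw [hJu, neg_zero] at h2
      exact h2.symm
    exact (Complex.conj_eq_iff_re.1 h1).symm
  have r0 := pde_real L (bdd_M0 L) (M0_neg L) hJu z
  have r1 := pde_real L (bdd_M1 L) (M1_neg L) hJu z
  have r2 := pde_real L (bdd_M2 L) (M2_neg L) hJu z
  have r11 := pde_real L (bdd_M11 L) (M11_neg L) hJu z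
  have r12 := pde_real L (bdd_M12 L) (M12_neg L) hJu z
  have r22 := pde_real L (bdd_M22 L) (M22_neg L) hJu z
  rw [r0, r1, r2, r11, r12, r22, e0, e1, e2, e3, e4, hu0'] at hE
  have hone : (1 : ℂ) + (((ev L z (mult (M0 L) u)).re : ℝ) : ℂ)
      = (((1 + (ev L z (mult (M0 L) u)).re : ℝ)) : ℂ) := by push_cast; rfl
  rw [hone, pde_cast, ← Complex.ofReal_add] at hE
  have hE3 := Complex.ofReal_eq_zero.1 hE.symm
  linarith

theorem pde_family (L : Lat) (w : ℂ → ℝ) (hw : ContDiff ℝ ∞ w) (hper : Per L w) :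
    ∃ ε₀ > 0, ∃ a : ℝ → ℂ → ℝ, ∃ c : ℝ → ℝ,
      (∀ z, a 0 z = 1) ∧
      (∀ ε ∈ Set.Icc (0 : ℝ) ε₀, ContDiff ℝ ∞ (a ε) ∧ Per L (a ε) ∧ ∀ z, LstarF ε (a ε) w z = c ε) ∧
      ContinuousOn (fun q : ℝ × ℂ => a q.1 q.2) (Set.Icc 0 ε₀ ×ˢ Set.univ) ∧
      ContinuousOn (fun q : ℝ × ℂ => dx (a q.1) q.2) (Set.Icc 0 ε₀ ×ˢ Set.univ) ∧
      ContinuousOn (fun q : ℝ × ℂ => dy (a q.1) q.2) (Set.Icc 0 ε₀ ×ˢ Set.univ) ∧
      ContinuousOn (fun q : ℝ × ℂ => dx (dx (a q.1)) q.2) (Set.Icc 0 ε₀ ×ˢ Set.univ) ∧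
      ContinuousOn (fun q : ℝ × ℂ => dx (dy (a q.1)) q.2) (Set.Icc 0 ε₀ ×ˢ Set.univ) ∧
      ContinuousOn (fun q : ℝ × ℂ => dy (dy (a q.1)) q.2) (Set.Icc 0 ε₀ ×ˢ Set.univ) := by
  have s1 := pde_smooth_d hw 1
  have s2 := pde_smooth_d hw Complex.I
  have q1 := pde_per_d hper 1
  have q2 := pde_per_d hper Complex.I
  obtain ⟨c0, r0, j0, e0⟩ := exists_fourier L (dx w) s1 q1
  obtain ⟨c1, r1, j1, e1⟩ := exists_fourier L (dy w) s2 q2
  obtain ⟨c2, r2, j2, e2⟩ := exists_fourier L (dx (dx w)) (pde_smooth_d s1 1) (pde_per_d q1 1)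
  obtain ⟨c3, r3, j3, e3⟩ := exists_fourier L (dx (dy w)) (pde_smooth_d s2 1) (pde_per_d q2 1)
  obtain ⟨c4, r4, j4, e4⟩ := exists_fourier L (dy (dy w)) (pde_smooth_d s2 Complex.I)
    (pde_per_d q2 Complex.I)
  set W : Fin 5 → V := ![c0, c1, c2, c3, c4] with hW
  have hR : ∀ i, Rapid L (W i) := by
    intro i; fin_cases i
    · exact r0
    · exact r1
    · exact r2
    · exact r3
    · exact r4
  have hJ : ∀ i, J (W i) = W i := by
    intro i; fin_cases i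
    · exact j0
    · exact j1
    · exact j2
    · exact j3
    · exact j4
  obtain ⟨ε₀, hε, u, hu, hu0, hF⟩ := family L W hR hJ
  set a : ℝ → ℂ → ℝ := fun ε z => 1 + (ev L z (mult (M0 L) (u ε))).re with ha
  have d1 : ∀ ε z, dx (a ε) z = (ev L z (mult (M1 L) (u ε))).re := fun ε z =>
    (pde_fderiv_re L (bdd_M0 L) (bdd_M1 L) (bdd_M2 L) (u ε) 1 z).1
  have d2 : ∀ ε z, dy (a ε) z = (ev L z (mult (M2 L) (u ε))).re := fun ε z =>
    (pde_fderiv_re L (bdd_M0 L) (bdd_M1 L) (bdd_M2 L) (u ε) 1 z).2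
  have f1 : ∀ ε, dx (a ε) = fun z => 0 + (ev L z (mult (M1 L) (u ε))).re := fun ε => by
    funext z; rw [d1, zero_add]
  have f2 : ∀ ε, dy (a ε) = fun z => 0 + (ev L z (mult (M2 L) (u ε))).re := fun ε => by
    funext z; rw [d2, zero_add]
  have hM21 : (fun n => Complex.I * (ky L n : ℂ) * M1 L n) = M12 L := by
    funext n; unfold M12 M1 M2; ring
  have d11 : ∀ ε z, dx (dx (a ε)) z = (ev L z (mult (M11 L) (u ε))).re := fun ε z => by
    rw [f1]
    exact (pde_fderiv_re L (bdd_M1 L) (bdd_M11 L) (by rw [hM21]; exact bdd_M12 L) (u ε) 0 z).1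
  have d12 : ∀ ε z, dx (dy (a ε)) z = (ev L z (mult (M12 L) (u ε))).re := fun ε z => by
    rw [f2]
    exact (pde_fderiv_re L (bdd_M2 L) (bdd_M12 L) (bdd_M22 L) (u ε) 0 z).1
  have d22 : ∀ ε z, dy (dy (a ε)) z = (ev L z (mult (M22 L) (u ε))).re := fun ε z => by
    rw [f2]
    exact (pde_fderiv_re L (bdd_M2 L) (bdd_M12 L) (bdd_M22 L) (u ε) 0 z).2
  have hcont : ∀ m : ℤ × ℤ → ℂ, ContinuousOn (fun q : ℝ × ℂ => (ev L q.2 (mult m (u q.1))).re)
      (Set.Icc 0 ε₀ ×ˢ Set.univ) := fun m => pde_cont L m hu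
  refine ⟨ε₀, hε, a, fun ε => -((u ε) 0).re, ?_, ?_, ?_, ?_, ?_, ?_, ?_, ?_⟩
  · intro z
    simp only [ha, hu0, map_zero, Complex.zero_re, add_zero]
  · intro ε hεI
    obtain ⟨hG, hJu, hS⟩ := hF ε hεI
    refine ⟨?_, ?_, ?_⟩
    · exact contDiff_const.add (Complex.reCLM.contDiff.comp (hS (M0 L) (bdd_M0 L)))
    · have hp := ev_per L (mult (M0 L) (u ε))
      exact ⟨fun z => congrArg (fun t : ℂ => 1 + t.re) (hp.1 z),
        fun z => congrArg (fun t : ℂ => 1 + t.re) (hp.2 z)⟩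
    · intro z
      unfold LstarF
      rw [d1, d2, d11, d12, d22]
      exact pde_eval L (u ε) W ε hG hJu z _ _ _ _ _ (e0 z) (e1 z) (e2 z) (e3 z) (e4 z)
  · exact continuousOn_const.add (hcont (M0 L))
  · exact (hcont (M1 L)).congr (fun q _ => d1 q.1 q.2)
  · exact (hcont (M2 L)).congr (fun q _ => d2 q.1 q.2)
  · exact (hcont (M11 L)).congr (fun q _ => d11 q.1 q.2)
  · exact (hcont (M12 L)).congr (fun q _ => d12 q.1 q.2)
  · exact (hcont (M22 L)).congr (fun q _ => d22 q.1 q.2)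

end P205T
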