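import Vale.Agent.P205T.GFlatMet
import Vale.Agent.P205T.PDE
import Vale.Agent.P205T.GCurv
import Vale.Agent.P205T.GCoframe
import Vale.Agent.P205T.GConst
import Vale.Agent.P205T.GDevelop
import Vale.Agent.P205T.GHolo
import Vale.Agent.P205T.GSeg

/-! Auxiliary lemmas for module GG (helper95): clamping of the parameter, joint continuity of the
developing maps. -/

open Complex ComplexConjugate Topology Filter
open scoped ContDiff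

namespace P205T

/-- clamp to `[0, δ]` -/
noncomputable def ggcl (δ ε : ℝ) : ℝ := max 0 (min ε δ)

theorem ggcl_cont (δ : ℝ) : Continuous (ggcl δ) :=
  continuous_const.max (continuous_id.min continuous_const)

theorem ggcl_mem {δ : ℝ} (hδ : 0 ≤ δ) (ε : ℝ) : ggcl δ ε ∈ Set.Icc 0 δ :=
  ⟨le_max_left _ _, max_le hδ (min_le_right _ _)⟩

theorem ggcl_eq {δ ε : ℝ} (h : ε ∈ Set.Icc 0 δ) : ggcl δ ε = ε := by
  unfold ggcl
  rw [min_eq_left h.2, max_eq_right h.1]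

theorem gg_family {ε₀ δ : ℝ} (hδ0 : 0 ≤ δ) (hδ : δ ≤ ε₀) {a : ℝ → ℂ → ℝ}
    (hsm : ∀ ε ∈ Set.Icc (0 : ℝ) ε₀, ContDiff ℝ ∞ (a ε))
    (ca : ContinuousOn (fun q : ℝ × ℂ => a q.1 q.2) (Set.Icc 0 ε₀ ×ˢ Set.univ))
    (cax : ContinuousOn (fun q : ℝ × ℂ => dx (a q.1) q.2) (Set.Icc 0 ε₀ ×ˢ Set.univ))
    (cay : ContinuousOn (fun q : ℝ × ℂ => dy (a q.1) q.2) (Set.Icc 0 ε₀ ×ˢ Set.univ))
    (caxx : ContinuousOn (fun q : ℝ × ℂ => dx (dx (a q.1)) q.2) (Set.Icc 0 ε₀ ×ˢ Set.univ))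
    (caxy : ContinuousOn (fun q : ℝ × ℂ => dx (dy (a q.1)) q.2) (Set.Icc 0 ε₀ ×ˢ Set.univ))
    (cayy : ContinuousOn (fun q : ℝ × ℂ => dy (dy (a q.1)) q.2) (Set.Icc 0 ε₀ ×ˢ Set.univ)) :
    GGJ (fun ε => a (ggcl δ ε)) ∧ GGJ (fun ε => dx (a (ggcl δ ε))) ∧
      GGJ (fun ε => dy (a (ggcl δ ε))) := by
  have hm : ∀ ε, ggcl δ ε ∈ Set.Icc 0 ε₀ := fun ε =>
    ⟨(ggcl_mem hδ0 ε).1, (ggcl_mem hδ0 ε).2.trans hδ⟩
  have hcm : Continuous fun q : ℝ × ℂ => ((ggcl δ q.1, q.2) : ℝ × ℂ) :=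
    ((ggcl_cont δ).comp continuous_fst).prodMk continuous_snd
  have hmm : ∀ q : ℝ × ℂ, ((ggcl δ q.1, q.2) : ℝ × ℂ) ∈ Set.Icc (0 : ℝ) ε₀ ×ˢ Set.univ :=
    fun q => ⟨hm _, trivial⟩
  have t : ∀ {f : ℝ × ℂ → ℝ}, ContinuousOn f (Set.Icc (0 : ℝ) ε₀ ×ˢ Set.univ) →
      Continuous fun q : ℝ × ℂ => f (ggcl δ q.1, q.2) := fun hf => hf.comp_continuous hcm hmm
  refine ⟨⟨fun ε => ((hsm _ (hm ε)).differentiable (by norm_cast)), t ca, t cax, t cay⟩,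
    ⟨fun ε => ((gg_dx_contDiff (hsm _ (hm ε))).differentiable (by norm_cast)), t cax, t caxx, ?_⟩,
    ⟨fun ε => ((gg_dy_contDiff (hsm _ (hm ε))).differentiable (by norm_cast)), t cay, t caxy,
      t cayy⟩⟩
  have h1 : (fun q : ℝ × ℂ => dy (dx (a (ggcl δ q.1))) q.2) =
      fun q : ℝ × ℂ => dx (dy (a (ggcl δ q.1))) q.2 := by
    funext q
    exact gg_symm (hsm _ (hm q.1)) q.2
  rw [h1]
  exact t caxy

/-- joint continuity of functions with given derivatives -/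
theorem gg_seg {β : Type*} [NormedAddCommGroup β] [NormedSpace ℝ β] [CompleteSpace β]
    {g : ℝ → ℂ → β} (hg : ∀ ε, ContDiff ℝ ∞ (g ε)) (h0 : ∀ ε, g ε 0 = 0)
    {f : ℝ → ℂ → ℂ → β} (hf : Continuous fun q : ℝ × ℂ × ℂ => f q.1 q.2.1 q.2.2)
    (hd : ∀ ε z v, fderiv ℝ (g ε) z v = f ε z v) :
    (Continuous fun q : ℝ × ℂ => g q.1 q.2) ∧
      ∀ ε z, g ε z = ∫ t in (0:ℝ)..1, f ε (t * z) z := by
  have h1 : ∀ ε z, g ε z = ∫ t in (0:ℝ)..1, f ε (t * z) z := by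
    intro ε z
    have h2 := segment_rep (g ε) ((hg ε).of_le (by norm_cast)) z
    rw [h0, zero_add] at h2
    rw [h2]
    refine intervalIntegral.integral_congr fun t _ => ?_
    exact hd ε _ _
  refine ⟨?_, h1⟩
  have h3 : (fun q : ℝ × ℂ => g q.1 q.2) =
      fun q : ℝ × ℂ => ∫ t in (0:ℝ)..1, f q.1 (t * q.2) q.2 := by
    funext q
    exact h1 q.1 q.2
  rw [h3]
  exact param_continuous f hf

/-- closedness of the connection form and the developing map for one parameter -/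
theorem gg_develop (L : Lat) {ε c : ℝ} {a w : ℂ → ℝ} (ha : ContDiff ℝ ∞ a) (hw : ContDiff ℝ ∞ w)
    (hpa : Per L a) (hpw : Per L w) (h0 : ∀ z, 0 < a z) (hε0 : 0 ≤ ε)
    (hε : ∀ z, ε * (p1 a w z ^ 2 + p2 a w z ^ 2) < 1) (hc : ∀ z, LstarF ε a w z = c) :
    ∃ α : ℂ → ℝ, ∃ Z : ℂ → ℂ, ContDiff ℝ ∞ α ∧ ContDiff ℝ ∞ Z ∧ α 0 = 0 ∧ Z 0 = 0 ∧
      (∀ z v, fderiv ℝ α z v = Om1 (mE ε a w) (mF ε a w) (mG ε a w) z * v.re +
        Om2 (mE ε a w) (mF ε a w) (mG ε a w) z * v.im) ∧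
      (∀ z v, fderiv ℝ Z z v = Complex.exp (Complex.I * (α z : ℂ)) *
        (thx (mE ε a w) z * (v.re : ℂ) + thy (mE ε a w) (mF ε a w) (mG ε a w) z * (v.im : ℂ))) ∧
      (∀ z, α (z + L.ω₁) = α z + α L.ω₁) ∧ (∀ z, α (z + L.ω₂) = α z + α L.ω₂) ∧
      (∀ z, Z (z + L.ω₁) = Complex.exp (Complex.I * (α L.ω₁ : ℂ)) * Z z + Z L.ω₁) ∧
      (∀ z, Z (z + L.ω₂) = Complex.exp (Complex.I * (α L.ω₂ : ℂ)) * Z z + Z L.ω₂) := by
  have hE := gg_mE_smooth (ε := ε) ha hw h0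
  have hF := gg_mF_smooth (ε := ε) ha hw h0
  have hG := gg_mG_smooth (ε := ε) ha hw h0
  have hE0 := gg_mE_pos h0 hε0 hε
  have hD := gg_det_pos h0 hε
  obtain ⟨pE, pF, pG⟩ := gg_m_per (ε := ε) hpa hpw
  obtain ⟨pO1, pO2⟩ := gg_Om_per pE pF pG
  obtain ⟨px, py⟩ := gg_th_per pE pF pG
  have hO1 := gg_Om1_smooth hE hF hG hE0 hD
  have hO2 := gg_Om2_smooth hE hF hG hE0 hD
  have hκpos : ∀ z, 0 < a z ^ 8 * √(mE ε a w z * mG ε a w z - mF ε a w z ^ 2) ^ 3 := fun z =>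
    mul_pos (pow_pos (h0 z) 8) (pow_pos (Real.sqrt_pos.mpr (hD z)) 3)
  have hκc : Continuous fun z =>
      (a z ^ 8 * √(mE ε a w z * mG ε a w z - mF ε a w z ^ 2) ^ 3)⁻¹ := by
    refine Continuous.inv₀ ?_ fun z => (hκpos z).ne'
    exact (ha.continuous.pow 8).mul ((gg_D_smooth hE hF hG hD).continuous.pow 3)
  have hzero : -c = 0 := by
    refine const_zero L _ _ _ hO1 hO2 pO1 pO2 hκc (fun z => inv_pos.mpr (hκpos z)) (-c) fun z => ?_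
    rw [curv ε a w ha hw h0 hε0 hε z, hc z, div_eq_mul_inv]
  have hcl : ∀ z, dx (Om2 (mE ε a w) (mF ε a w) (mG ε a w)) z =
      dy (Om1 (mE ε a w) (mF ε a w) (mG ε a w)) z := by
    intro z
    have h1 := curv ε a w ha hw h0 hε0 hε z
    rw [hc z, hzero, zero_div] at h1
    exact sub_eq_zero.mp h1
  exact develop L _ _ _ _ hO1 hO2 (gg_thx_smooth hE hE0) (gg_thy_smooth hE hF hG hE0 hD)
    pO1 pO2 px py hcl fun z => coframe _ _ _ hE hF hG hE0 hD z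

end P205T
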