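import Vale.Agent.P205T.PDE
import Vale.Agent.P205T.GCurv
import Vale.Agent.P205T.GCoframe
import Vale.Agent.P205T.GConst
import Vale.Agent.P205T.GDevelop
import Vale.Agent.P205T.GHolo
import Vale.Agent.P205T.GSeg
import Vale.Agent.P205T.GFlatFam

/-! Module GG: assembly of the geometry.  From `pde_family`: shrink `ε₀` so that `a > 1/2` and
`ε(p1²+p2²) < 1` (compactness of a fundamental domain / joint continuity at `ε = 0`, tube lemma, periodicity).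
`curv` + `const_zero` (κ = 1/(a⁸ D³)) give `LstarF = 0`, hence `dx Om2 = dy Om1`; `coframe`, `develop` give `α ε`,
`Z ε`; `Z(ω₁+ω₂)` computed in two ways gives the hypothesis of `holonomy`; `α ε ω_j → 0`, `Z ε ω_j → ω_j` as `ε → 0`
by `segment_rep` and `param_continuous` (work on the parameter space `Set.Icc 0 ε₁`). -/

open Complex ComplexConjugate Topology Filter
open scoped ContDiff

namespace P205T

/-- first shrinking of the parameter interval -/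
theorem gg_shrink (L : Lat) {w : ℂ → ℝ} (hw : ContDiff ℝ ∞ w) (hper : Per L w) {ε₀ : ℝ}
    (hε₀ : 0 < ε₀) {a : ℝ → ℂ → ℝ} (ha0 : ∀ z, a 0 z = 1)
    (hp : ∀ ε ∈ Set.Icc (0 : ℝ) ε₀, Per L (a ε))
    (hb : GGJ fun ε => a (ggcl ε₀ ε)) (hbx : GGJ fun ε => dx (a (ggcl ε₀ ε)))
    (hby : GGJ fun ε => dy (a (ggcl ε₀ ε))) :
    ∃ ε₁ > 0, ε₁ ≤ ε₀ ∧ ∀ ε ∈ Set.Icc (0 : ℝ) ε₁, (∀ z, 0 < a ε z) ∧
      ∀ z, ε * (p1 (a ε) w z ^ 2 + p2 (a ε) w z ^ 2) < 1 := by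
  have h00 : ggcl ε₀ 0 = 0 := ggcl_eq ⟨le_rfl, hε₀.le⟩
  have hpp : ∀ ε, Per L (a (ggcl ε₀ ε)) := fun ε => hp _ (ggcl_mem hε₀.le ε)
  have h1 := gg_small L (f := fun ε z => -a (ggcl ε₀ ε) z) hb.c.neg
    (fun ε => ⟨fun z => by beta_reduce; rw [(hpp ε).1], fun z => by beta_reduce; rw [(hpp ε).2]⟩)
    (c := 0) (fun z => by
      rw [h00, ha0]
      norm_num)
  have h2 := gg_small L (f := fun ε z => ggcl ε₀ ε *
      (p1 (a (ggcl ε₀ ε)) w z ^ 2 + p2 (a (ggcl ε₀ ε)) w z ^ 2))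
    (((ggcl_cont ε₀).comp continuous_fst).mul
      (((gg_j_p1 hb hbx hw).c.pow 2).add ((gg_j_p2 hb hby hw).c.pow 2)))
    (fun ε => by
      obtain ⟨q1, q2⟩ := gg_p_per (hpp ε) hper
      exact ⟨fun z => by beta_reduce; rw [q1.1, q2.1],
        fun z => by beta_reduce; rw [q1.2, q2.2]⟩) (c := 1) (fun z => by
      rw [h00, zero_mul]
      norm_num)
  obtain ⟨η, hη, h⟩ := Metric.eventually_nhds_iff.mp (h1.and h2)
  refine ⟨min ε₀ (η / 2), lt_min hε₀ (by positivity), min_le_left _ _, fun ε hε => ?_⟩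
  have hd : dist ε 0 < η := by
    rw [Real.dist_eq, sub_zero, abs_of_nonneg hε.1]
    have := hε.2.trans (min_le_right _ _)
    linarith
  have hcl : ggcl ε₀ ε = ε := ggcl_eq ⟨hε.1, hε.2.trans (min_le_left _ _)⟩
  obtain ⟨h3, h4⟩ := h hd
  rw [hcl] at h3 h4
  exact ⟨fun z => by have := h3 z; linarith, h4⟩

/-- values at the parameter `0` -/
theorem gg_at_zero {a w : ℂ → ℝ} (ha : ∀ z, a z = 1) :
    (∀ z, Om1 (mE 0 a w) (mF 0 a w) (mG 0 a w) z = 0) ∧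
    (∀ z, Om2 (mE 0 a w) (mF 0 a w) (mG 0 a w) z = 0) ∧
    (∀ z, thx (mE 0 a w) z = 1) ∧
    ∀ z, thy (mE 0 a w) (mF 0 a w) (mG 0 a w) z = Complex.I := by
  have h1 : mE 0 a w = fun _ => 1 := by
    funext z
    unfold mE
    rw [ha]
    norm_num
  have h2 : mF 0 a w = fun _ => 0 := by
    funext z
    unfold mF
    norm_num
  have h3 : mG 0 a w = fun _ => 1 := by
    funext z
    unfold mG
    rw [ha]
    norm_num
  have hdx : ∀ (c : ℝ) (z : ℂ), dx (fun _ : ℂ => c) z = 0 := by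
    intro c z
    simp [dx]
  have hdy : ∀ (c : ℝ) (z : ℂ), dy (fun _ : ℂ => c) z = 0 := by
    intro c z
    simp [dy]
  rw [h1, h2, h3]
  refine ⟨fun z => ?_, fun z => ?_, fun z => ?_, fun z => ?_⟩
  · unfold Om1
    simp only [hdx, hdy]
    norm_num
  · unfold Om2
    simp only [hdx, hdy]
    norm_num
  · unfold thx
    simp
  · unfold thy
    simp

theorem flat_family (L : Lat) (w : ℂ → ℝ) (hw : ContDiff ℝ ∞ w) (hper : Per L w) :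
    ∃ ε₁ > 0, ∃ a : ℝ → ℂ → ℝ, ∃ Z : ℝ → ℂ → ℂ,
      (∀ ε ∈ Set.Icc (0 : ℝ) ε₁, ContDiff ℝ ∞ (a ε) ∧ Per L (a ε) ∧ (∀ z, 0 < a ε z) ∧ ContDiff ℝ ∞ (Z ε) ∧
        (∀ z, Z ε (z + L.ω₁) = Z ε z + Z ε L.ω₁) ∧ (∀ z, Z ε (z + L.ω₂) = Z ε z + Z ε L.ω₂) ∧
        (∀ z v, a ε z ^ 2 * ‖fderiv ℝ (Z ε) z v‖ ^ 2
          = ‖v‖ ^ 2 - ε * (p1 (a ε) w z * v.re + p2 (a ε) w z * v.im) ^ 2)) ∧
      ContinuousOn (fun ε => Z ε L.ω₁) (Set.Icc 0 ε₁) ∧ ContinuousOn (fun ε => Z ε L.ω₂) (Set.Icc 0 ε₁) ∧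
      Z 0 L.ω₁ = L.ω₁ ∧ Z 0 L.ω₂ = L.ω₂ := by
  obtain ⟨ε₀, hε₀, a, c, ha0, hall, ca, cax, cay, caxx, caxy, cayy⟩ := pde_family L w hw hper
  have hsm : ∀ ε ∈ Set.Icc (0 : ℝ) ε₀, ContDiff ℝ ∞ (a ε) := fun ε hε => (hall ε hε).1
  have hp : ∀ ε ∈ Set.Icc (0 : ℝ) ε₀, Per L (a ε) := fun ε hε => (hall ε hε).2.1
  obtain ⟨hb, hbx, hby⟩ := gg_family hε₀.le le_rfl hsm ca cax cay caxx caxy cayy
  obtain ⟨ε₁, hε₁, hε₁₀, hsh⟩ := gg_shrink L hw hper hε₀ ha0 hp hb hbx hby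
  -- the clamped family
  obtain ⟨gb, gbx, gby⟩ := gg_family hε₁.le hε₁₀ hsm ca cax cay caxx caxy cayy
  have hm1 : ∀ ε, ggcl ε₁ ε ∈ Set.Icc 0 ε₁ := ggcl_mem hε₁.le
  have hm0 : ∀ ε, ggcl ε₁ ε ∈ Set.Icc 0 ε₀ := fun ε => ⟨(hm1 ε).1, (hm1 ε).2.trans hε₁₀⟩
  have hpos : ∀ ε z, 0 < a (ggcl ε₁ ε) z := fun ε => (hsh _ (hm1 ε)).1
  have hlt : ∀ ε z, ggcl ε₁ ε * (p1 (a (ggcl ε₁ ε)) w z ^ 2 + p2 (a (ggcl ε₁ ε)) w z ^ 2) < 1 :=
    fun ε => (hsh _ (hm1 ε)).2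
  have hdev := fun ε => gg_develop L (hsm _ (hm0 ε)) hw (hp _ (hm0 ε)) hper (hpos ε) (hm1 ε).1
    (hlt ε) (hall _ (hm0 ε)).2.2
  choose α Z hα hZ hα0 hZ0 hdα hdZ qα1 qα2 qZ1 qZ2 using hdev
  -- joint continuity
  obtain ⟨gE, gF, gG⟩ := gg_j_m (ggcl_cont ε₁) gb gbx gby hw hpos
  have hE0 : ∀ ε z, 0 < mE (ggcl ε₁ ε) (a (ggcl ε₁ ε)) w z := fun ε =>
    gg_mE_pos (hpos ε) (hm1 ε).1 (hlt ε)
  have hD : ∀ ε z, 0 < mE (ggcl ε₁ ε) (a (ggcl ε₁ ε)) w z * mG (ggcl ε₁ ε) (a (ggcl ε₁ ε)) w z -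
      mF (ggcl ε₁ ε) (a (ggcl ε₁ ε)) w z ^ 2 := fun ε => gg_det_pos (hpos ε) (hlt ε)
  obtain ⟨cO1, cO2, cx, cy⟩ := gg_j_Om gE gF gG hE0 hD
  have e1 : Continuous fun q : ℝ × ℂ × ℂ => ((q.1, q.2.1) : ℝ × ℂ) :=
    continuous_fst.prodMk (continuous_fst.comp continuous_snd)
  have e2 : Continuous fun q : ℝ × ℂ × ℂ => q.2.2.re :=
    Complex.continuous_re.comp (continuous_snd.comp continuous_snd)
  have e3 : Continuous fun q : ℝ × ℂ × ℂ => q.2.2.im :=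
    Complex.continuous_im.comp (continuous_snd.comp continuous_snd)
  obtain ⟨cα, iα⟩ := gg_seg hα hα0 (f := fun ε z v =>
      Om1 (mE (ggcl ε₁ ε) (a (ggcl ε₁ ε)) w) (mF (ggcl ε₁ ε) (a (ggcl ε₁ ε)) w)
        (mG (ggcl ε₁ ε) (a (ggcl ε₁ ε)) w) z * v.re +
      Om2 (mE (ggcl ε₁ ε) (a (ggcl ε₁ ε)) w) (mF (ggcl ε₁ ε) (a (ggcl ε₁ ε)) w)
        (mG (ggcl ε₁ ε) (a (ggcl ε₁ ε)) w) z * v.im)
    (((cO1.comp e1).mul e2).add ((cO2.comp e1).mul e3)) hdα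
  obtain ⟨cZ, iZ⟩ := gg_seg hZ hZ0 (f := fun ε z v => Complex.exp (Complex.I * (α ε z : ℂ)) *
      (thx (mE (ggcl ε₁ ε) (a (ggcl ε₁ ε)) w) z * (v.re : ℂ) +
      thy (mE (ggcl ε₁ ε) (a (ggcl ε₁ ε)) w) (mF (ggcl ε₁ ε) (a (ggcl ε₁ ε)) w)
        (mG (ggcl ε₁ ε) (a (ggcl ε₁ ε)) w) z * (v.im : ℂ)))
    ((Complex.continuous_exp.comp (continuous_const.mul (Complex.continuous_ofReal.comp
      (cα.comp e1)))).mul (((cx.comp e1).mul (Complex.continuous_ofReal.comp e2)).add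
      ((cy.comp e1).mul (Complex.continuous_ofReal.comp e3)))) hdZ
  -- values at zero
  have h00 : ggcl ε₁ 0 = 0 := ggcl_eq ⟨le_rfl, hε₁.le⟩
  obtain ⟨z1, z2, z3, z4⟩ := gg_at_zero (w := w) ha0
  have hα00 : ∀ z, α 0 z = 0 := by
    intro z
    rw [iα 0 z, h00]
    simp only [z1, z2, zero_mul, add_zero, intervalIntegral.integral_zero]
  have hZ00 : ∀ z, Z 0 z = z := by
    intro z
    rw [iZ 0 z, h00]
    simp only [z3, z4, hα00, Complex.ofReal_zero, mul_zero, Complex.exp_zero, one_mul]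
    rw [intervalIntegral.integral_const, sub_zero, one_smul, mul_comm Complex.I, Complex.re_add_im]
  -- continuity in the parameter at fixed points
  have cα' : ∀ z, Continuous fun ε => α ε z := fun z =>
    cα.comp (continuous_id.prodMk continuous_const)
  have cZ' : ∀ z, Continuous fun ε => Z ε z := fun z =>
    cZ.comp (continuous_id.prodMk continuous_const)
  have s1 : ∀ᶠ ε in 𝓝 (0 : ℝ), |α ε L.ω₁| < Real.pi := by
    refine (cα' L.ω₁).abs.continuousAt.eventually_lt continuousAt_const ?_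
    rw [hα00, abs_zero]
    exact Real.pi_pos
  have s2 : ∀ᶠ ε in 𝓝 (0 : ℝ), |α ε L.ω₂| < Real.pi := by
    refine (cα' L.ω₂).abs.continuousAt.eventually_lt continuousAt_const ?_
    rw [hα00, abs_zero]
    exact Real.pi_pos
  have s3 : ∀ᶠ ε in 𝓝 (0 : ℝ), (Z ε L.ω₁ * conj (Z ε L.ω₂) * Complex.exp
      (Complex.I * (((α ε L.ω₂ : ℝ) - (α ε L.ω₁ : ℝ) : ℂ) / 2))).im ≠ 0 := by
    have hc : Continuous fun ε => (Z ε L.ω₁ * conj (Z ε L.ω₂) * Complex.exp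
        (Complex.I * (((α ε L.ω₂ : ℝ) - (α ε L.ω₁ : ℝ) : ℂ) / 2))).im := by
      refine Complex.continuous_im.comp (((cZ' L.ω₁).mul
        (Complex.continuous_conj.comp (cZ' L.ω₂))).mul (Complex.continuous_exp.comp ?_))
      exact continuous_const.mul (((Complex.continuous_ofReal.comp (cα' L.ω₂)).sub
        (Complex.continuous_ofReal.comp (cα' L.ω₁))).div_const 2)
    refine hc.continuousAt.eventually_ne ?_
    rw [hα00, hα00, hZ00, hZ00]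
    simp only [Complex.ofReal_zero, sub_zero, zero_div, mul_zero, Complex.exp_zero, mul_one]
    intro h
    apply L.h
    have h1 : (conj L.ω₁ * L.ω₂).im = -(L.ω₁ * conj L.ω₂).im := by
      simp [Complex.mul_im]
      ring
    rw [h1, h, neg_zero]
  obtain ⟨η, hη, hs⟩ := Metric.eventually_nhds_iff.mp (s1.and (s2.and s3))
  refine ⟨min ε₁ (η / 2), lt_min hε₁ (by positivity), fun ε => a (ggcl ε₁ ε), Z, ?_,
    (cZ' L.ω₁).continuousOn, (cZ' L.ω₂).continuousOn, hZ00 _, hZ00 _⟩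
  intro ε hε
  have hd : dist ε 0 < η := by
    rw [Real.dist_eq, sub_zero, abs_of_nonneg hε.1]
    have := hε.2.trans (min_le_right _ _)
    linarith
  have hcl : ggcl ε₁ ε = ε := ggcl_eq ⟨hε.1, hε.2.trans (min_le_left _ _)⟩
  obtain ⟨t1, t2, t3⟩ := hs hd
  have heq : Complex.exp (Complex.I * (α ε L.ω₁ : ℂ)) * Z ε L.ω₂ + Z ε L.ω₁ =
      Complex.exp (Complex.I * (α ε L.ω₂ : ℂ)) * Z ε L.ω₁ + Z ε L.ω₂ := by
    rw [← qZ1 ε L.ω₂, ← qZ2 ε L.ω₁, add_comm L.ω₁]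
  obtain ⟨u1, u2⟩ := holonomy _ _ _ _ heq t1 t2 t3
  refine ⟨hsm _ (hm0 ε), hp _ (hm0 ε), hpos ε, hZ ε, fun z => ?_, fun z => ?_, fun z v => ?_⟩
  · rw [qZ1 ε z, u1, Complex.ofReal_zero, mul_zero, Complex.exp_zero, one_mul]
  · rw [qZ2 ε z, u2, Complex.ofReal_zero, mul_zero, Complex.exp_zero, one_mul]
  · beta_reduce
    rw [hdZ ε z v, norm_mul, Complex.norm_exp_I_mul_ofReal, one_mul,
      gg_norm_m (hpos ε) (hm1 ε).1 (hlt ε) z v, hcl]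

end P205T
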