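import Vale.Agent.P205T.WDefs

/-! Module WA1a: API for `ev, mult, T, J, one` (no convolution). -/

open Complex ComplexConjugate

namespace P205T

theorem norm_ch (L : Lat) (n : ℤ × ℤ) (z : ℂ) : ‖ch L n z‖ = 1 := wb1_norm_ch L n z

theorem bdd_ch (L : Lat) (h : ℂ) : Bdd (fun n => ch L n h) := ⟨1, fun n => (norm_ch L n h).le⟩

theorem bdd_Z0 : Bdd Z0 := by
  refine ⟨1, fun n => ?_⟩
  unfold Z0
  split
  · rw [norm_one]
  · rw [norm_zero]
    exact zero_le_one

theorem T_apply (L : Lat) (h : ℂ) (c : V) (n : ℤ × ℤ) : T L h c n = ch L n h * c n :=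
  mult_apply (bdd_ch L h) c n

theorem WApi1a_ch_add (L : Lat) (n : ℤ × ℤ) (z h : ℂ) :
    ch L n (z + h) = ch L n z * ch L n h := by
  unfold ch
  rw [← Complex.exp_add]
  congr 1
  rw [Complex.add_re, Complex.add_im]
  push_cast
  ring

theorem WApi1a_ch_neg (L : Lat) (n : ℤ × ℤ) (z : ℂ) : ch L (-n) z = conj (ch L n z) := by
  unfold ch
  rw [← Complex.exp_conj]
  congr 1
  have h1 : kx L (-n) = -kx L n := by
    unfold kx
    rw [Prod.fst_neg, Prod.snd_neg]
    push_cast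
    ring
  have h2 : ky L (-n) = -ky L n := by
    unfold ky
    rw [Prod.fst_neg, Prod.snd_neg]
    push_cast
    ring
  rw [h1, h2, map_mul, Complex.conj_I, Complex.conj_ofReal]
  push_cast
  ring

theorem WApi1a_ch_zero (L : Lat) (z : ℂ) : ch L 0 z = 1 := by
  unfold ch kx ky
  simp

theorem ev_T (L : Lat) (z h : ℂ) (c : V) : ev L z (T L h c) = ev L (z + h) c := by
  rw [ev_apply, ev_apply]
  refine tsum_congr fun n => ?_
  rw [T_apply, WApi1a_ch_add]
  ring

theorem ev_J (L : Lat) (z : ℂ) (c : V) : ev L z (J c) = conj (ev L z c) := by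
  rw [ev_apply, ev_apply, Complex.conj_tsum, ← (Equiv.neg (ℤ × ℤ)).tsum_eq]
  refine tsum_congr fun n => ?_
  change J c (-n) * ch L (-n) z = _
  rw [J_apply, neg_neg, WApi1a_ch_neg, map_mul]

theorem WApi1a_one_apply (n : ℤ × ℤ) : one n = if n = 0 then 1 else 0 := by
  unfold one
  by_cases h : n = 0
  · rw [if_pos h, h]
    exact lp.single_apply_self _ _ _
  · rw [if_neg h]
    exact lp.single_apply_ne _ _ _ h

theorem ev_one (L : Lat) (z : ℂ) : ev L z one = 1 := by
  rw [ev_apply, tsum_eq_single 0]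
  · rw [WApi1a_one_apply, if_pos rfl, WApi1a_ch_zero, one_mul]
  · intro n hn
    rw [WApi1a_one_apply, if_neg hn, zero_mul]

theorem ev_Z0 (L : Lat) (z : ℂ) (c : V) : ev L z (mult Z0 c) = c 0 := by
  rw [ev_apply, tsum_eq_single 0]
  · rw [mult_apply bdd_Z0, WApi1a_ch_zero]
    unfold Z0
    rw [if_pos rfl, one_mul, mul_one]
  · intro n hn
    rw [mult_apply bdd_Z0]
    unfold Z0
    rw [if_neg hn, zero_mul, zero_mul]

theorem norm_ev_le (L : Lat) (z : ℂ) (c : V) : ‖ev L z c‖ ≤ ‖c‖ := by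
  rw [ev_apply, wb1_norm]
  refine (norm_tsum_le_tsum_norm ?_).trans (le_of_eq ?_)
  · simp only [norm_mul, wb1_norm_ch, mul_one]
    exact wb1_summable c
  · simp only [norm_mul, wb1_norm_ch, mul_one]

theorem WApi1a_ch_continuous (L : Lat) (n : ℤ × ℤ) : Continuous fun z => ch L n z := by
  unfold ch
  have h1 : Continuous fun z : ℂ => kx L n * z.re + ky L n * z.im :=
    (continuous_const.mul Complex.continuous_re).add (continuous_const.mul Complex.continuous_im)
  exact Complex.continuous_exp.comp (continuous_const.mul (Complex.continuous_ofReal.comp h1))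

theorem ev_continuous (L : Lat) : Continuous fun q : V × ℂ => ev L q.2 q.1 := by
  refine continuous_prod_of_continuous_lipschitzWith (fun q : V × ℂ => ev L q.2 q.1) 1
    (fun c => ?_) (fun z => ?_)
  · have h1 : (fun z : ℂ => ev L z c) = fun z => ∑' n, c n * ch L n z := by
      funext z
      exact ev_apply L z c
    change Continuous fun z : ℂ => ev L z c
    rw [h1]
    refine continuous_tsum (u := fun n => ‖c n‖) (fun n => ?_) (wb1_summable c) (fun n z => ?_)
    · exact continuous_const.mul (WApi1a_ch_continuous L n)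
    · rw [norm_mul, norm_ch, mul_one]
  · refine LipschitzWith.of_dist_le_mul fun c c' => ?_
    rw [dist_eq_norm, dist_eq_norm, NNReal.coe_one, one_mul]
    change ‖ev L z c - ev L z c'‖ ≤ _
    rw [← map_sub]
    exact norm_ev_le L z (c - c')

theorem WApi1a_exp_int (k : ℤ) : Complex.exp (Complex.I * ((2 * Real.pi * k : ℝ) : ℂ)) = 1 := by
  have h1 : Complex.I * ((2 * Real.pi * k : ℝ) : ℂ) = (k : ℂ) * (2 * Real.pi * Complex.I) := by
    push_cast
    ring
  rw [h1]
  exact Complex.exp_int_mul_two_pi_mul_I k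

theorem WApi1a_det (L : Lat) : (conj L.ω₁ * L.ω₂).im = L.ω₁.re * L.ω₂.im - L.ω₁.im * L.ω₂.re := by
  rw [Complex.mul_im, Complex.conj_re, Complex.conj_im]
  ring

theorem WApi1a_ch_w1 (L : Lat) (n : ℤ × ℤ) : ch L n L.ω₁ = 1 := by
  unfold ch
  have hD := L.h
  rw [WApi1a_det] at hD
  have h1 : kx L n * L.ω₁.re + ky L n * L.ω₁.im = 2 * Real.pi * (n.1 : ℤ) := by
    unfold kx ky
    rw [WApi1a_det]
    have h2 : 2 * Real.pi * ((n.1 : ℤ) : ℝ) = 2 * Real.pi * (n.1 : ℤ)
        * (L.ω₁.re * L.ω₂.im - L.ω₁.im * L.ω₂.re) / (L.ω₁.re * L.ω₂.im - L.ω₁.im * L.ω₂.re) :=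
      (mul_div_cancel_right₀ _ hD).symm
    rw [h2]
    ring
  rw [h1]
  exact WApi1a_exp_int n.1

theorem WApi1a_ch_w2 (L : Lat) (n : ℤ × ℤ) : ch L n L.ω₂ = 1 := by
  unfold ch
  have hD := L.h
  rw [WApi1a_det] at hD
  have h1 : kx L n * L.ω₂.re + ky L n * L.ω₂.im = 2 * Real.pi * (n.2 : ℤ) := by
    unfold kx ky
    rw [WApi1a_det]
    have h2 : 2 * Real.pi * ((n.2 : ℤ) : ℝ) = 2 * Real.pi * (n.2 : ℤ)
        * (L.ω₁.re * L.ω₂.im - L.ω₁.im * L.ω₂.re) / (L.ω₁.re * L.ω₂.im - L.ω₁.im * L.ω₂.re) :=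
      (mul_div_cancel_right₀ _ hD).symm
    rw [h2]
    ring
  rw [h1]
  exact WApi1a_exp_int n.2

theorem ev_per (L : Lat) (c : V) : Per L (fun z => ev L z c) := by
  constructor
  · intro z
    change ev L (z + L.ω₁) c = ev L z c
    rw [ev_apply, ev_apply]
    refine tsum_congr fun n => ?_
    rw [WApi1a_ch_add, WApi1a_ch_w1, mul_one]
  · intro z
    change ev L (z + L.ω₂) c = ev L z c
    rw [ev_apply, ev_apply]
    refine tsum_congr fun n => ?_
    rw [WApi1a_ch_add, WApi1a_ch_w2, mul_one]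

end P205T
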