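import Vale.Agent.P205T.WApi1a

/-! Module WA1b: API for `mult, T, J, one`, second part. -/

open Complex ComplexConjugate

namespace P205T

theorem mult_T {m : ℤ × ℤ → ℂ} (hm : Bdd m) (L : Lat) (h : ℂ) (c : V) :
    mult m (T L h c) = T L h (mult m c) := by
  apply lp.ext
  funext n
  rw [mult_apply hm, T_apply, T_apply, mult_apply hm]
  ring

theorem mult_J {m : ℤ × ℤ → ℂ} (hm : Bdd m) (hs : ∀ n, m (-n) = conj (m n)) (c : V) :
    mult m (J c) = J (mult m c) := by
  apply lp.ext
  funext n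
  rw [mult_apply hm, J_apply, J_apply, mult_apply hm, hs n, map_mul, Complex.conj_conj]

theorem WApi1b_one_apply (n : ℤ × ℤ) : (one : V) n = if n = 0 then 1 else 0 := by
  unfold one
  by_cases h : n = 0
  · subst h
    rw [lp.single_apply_self, if_pos rfl]
  · rw [lp.single_apply_ne _ _ _ h, if_neg h]

theorem WApi1b_ch_zero (L : Lat) (h : ℂ) : ch L 0 h = 1 := by
  unfold ch kx ky
  simp

theorem T_one (L : Lat) (h : ℂ) : T L h one = one := by
  apply lp.ext
  funext n
  rw [T_apply, WApi1b_one_apply]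
  by_cases hn : n = 0
  · subst hn
    rw [if_pos rfl, WApi1b_ch_zero, mul_one]
  · rw [if_neg hn, mul_zero]

theorem J_one : J one = one := by
  apply lp.ext
  funext n
  rw [J_apply, WApi1b_one_apply, WApi1b_one_apply]
  by_cases hn : n = 0
  · subst hn
    simp
  · have : -n ≠ 0 := fun h => hn (neg_eq_zero.1 h)
    rw [if_neg hn, if_neg this, map_zero]

theorem norm_T (L : Lat) (h : ℂ) (c : V) : ‖T L h c‖ = ‖c‖ := by
  rw [wb1_norm, wb1_norm]
  apply tsum_congr
  intro n
  rw [T_apply, norm_mul, norm_ch, one_mul]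

theorem norm_J (c : V) : ‖J c‖ = ‖c‖ := by
  rw [wb1_norm, wb1_norm]
  have h1 : ∀ n, ‖J c n‖ = ‖c (-n)‖ := fun n => by rw [J_apply, RCLike.norm_conj]
  simp only [h1]
  exact (Equiv.neg (ℤ × ℤ)).tsum_eq (fun n => ‖c n‖)

end P205T
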