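import Vale.Agent.P205T.Defs

/-! Module WB1: basic continuous linear maps on `V = ℓ¹(ℤ²)`. -/

open Complex ComplexConjugate

namespace P205T

theorem wb1_summable (c : V) : Summable fun n => ‖c n‖ := by
  have h := (memℓp_gen_iff (p := 1) (by simp)).1 (lp.memℓp c)
  simpa using h

theorem wb1_norm (c : V) : ‖c‖ = ∑' n, ‖c n‖ := by
  have h := lp.norm_eq_tsum_rpow (p := 1) (by simp) c
  simpa using h

theorem wb1_mem {f : ℤ × ℤ → ℂ} (h : Summable fun n => ‖f n‖) :
    Memℓp (E := fun _ : ℤ × ℤ => ℂ) f 1 := by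
  refine (memℓp_gen_iff (p := 1) (by simp)).2 ?_
  simpa using h

theorem wb1_norm_ch (L : Lat) (n : ℤ × ℤ) (z : ℂ) : ‖ch L n z‖ = 1 := by
  unfold ch
  rw [mul_comm, Complex.norm_exp_ofReal_mul_I]

theorem wb1_summable_ev (L : Lat) (z : ℂ) (c : V) : Summable fun n => c n * ch L n z := by
  refine Summable.of_norm ?_
  simp only [norm_mul, wb1_norm_ch, mul_one]
  exact wb1_summable c

theorem exists_ev (L : Lat) (z : ℂ) : ∃ B : V →L[ℝ] ℂ, ∀ c : V, B c = ∑' n, c n * ch L n z := by
  refine ⟨LinearMap.mkContinuous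
    { toFun := fun c : V => ∑' n, c n * ch L n z
      map_add' := fun a b => ?_
      map_smul' := fun r a => ?_ } 1 (fun c => ?_), fun c => rfl⟩
  · have h : ∀ n, (a + b) n * ch L n z = a n * ch L n z + b n * ch L n z := by
      intro n
      rw [lp.coeFn_add, Pi.add_apply, add_mul]
    simp only [h]
    exact (wb1_summable_ev L z a).tsum_add (wb1_summable_ev L z b)
  · have h : ∀ n, (r • a) n * ch L n z = r • (a n * ch L n z) := by
      intro n
      rw [lp.coeFn_smul, Pi.smul_apply, smul_mul_assoc]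
    simp only [h, RingHom.id_apply]
    exact (wb1_summable_ev L z a).tsum_const_smul r
  · rw [one_mul, wb1_norm]
    refine (norm_tsum_le_tsum_norm ?_).trans (le_of_eq ?_)
    · simp only [norm_mul, wb1_norm_ch, mul_one]
      exact wb1_summable c
    · simp only [norm_mul, wb1_norm_ch, mul_one]

theorem exists_mult (m : ℤ × ℤ → ℂ) (hm : ∃ K : ℝ, ∀ n, ‖m n‖ ≤ K) :
    ∃ B : V →L[ℝ] V, ∀ (c : V) (n : ℤ × ℤ), B c n = m n * c n := by
  obtain ⟨K, hK⟩ := hm
  have hs : ∀ c : V, Summable fun n => ‖m n * c n‖ := by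
    intro c
    refine Summable.of_nonneg_of_le (fun n => norm_nonneg _) (fun n => ?_)
      ((wb1_summable c).mul_left K)
    rw [norm_mul]
    exact mul_le_mul_of_nonneg_right (hK n) (norm_nonneg _)
  refine ⟨LinearMap.mkContinuous
    { toFun := fun c : V => ⟨fun n => m n * c n, wb1_mem (hs c)⟩
      map_add' := fun a b => ?_
      map_smul' := fun r a => ?_ } K (fun c => ?_), fun c n => rfl⟩
  · apply lp.ext
    funext n
    show m n * (a + b) n = m n * a n + m n * b n
    rw [lp.coeFn_add, Pi.add_apply, mul_add]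
  · apply lp.ext
    funext n
    show m n * (r • a) n = r • (m n * a n)
    rw [lp.coeFn_smul, Pi.smul_apply, mul_smul_comm]
  · rw [wb1_norm, wb1_norm, ← tsum_mul_left]
    refine (hs c).tsum_le_tsum (fun n => ?_) ((wb1_summable c).mul_left K)
    show ‖m n * c n‖ ≤ K * ‖c n‖
    rw [norm_mul]
    exact mul_le_mul_of_nonneg_right (hK n) (norm_nonneg _)

theorem exists_J : ∃ B : V →L[ℝ] V, ∀ (c : V) (n : ℤ × ℤ), B c n = conj (c (-n)) := by
  have hs : ∀ c : V, Summable fun n => ‖conj (c (-n))‖ := by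
    intro c
    simp only [RCLike.norm_conj]
    exact (Equiv.neg (ℤ × ℤ)).summable_iff.2 (wb1_summable c)
  refine ⟨LinearMap.mkContinuous
    { toFun := fun c : V => ⟨fun n => conj (c (-n)), wb1_mem (hs c)⟩
      map_add' := fun a b => ?_
      map_smul' := fun r a => ?_ } 1 (fun c => ?_), fun c n => rfl⟩
  · apply lp.ext
    funext n
    show conj ((a + b) (-n)) = conj (a (-n)) + conj (b (-n))
    rw [lp.coeFn_add, Pi.add_apply, map_add]
  · apply lp.ext
    funext n
    show conj ((r • a) (-n)) = r • conj (a (-n))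
    rw [lp.coeFn_smul, Pi.smul_apply, Complex.real_smul, Complex.real_smul, map_mul,
      Complex.conj_ofReal]
  · rw [one_mul, wb1_norm, wb1_norm]
    have h : ∀ n, ‖conj (c (-n))‖ = ‖c (-n)‖ := fun n => RCLike.norm_conj _
    show ∑' n, ‖conj (c (-n))‖ ≤ _
    simp only [h]
    exact le_of_eq ((Equiv.neg (ℤ × ℤ)).tsum_eq (fun n => ‖c n‖))

end P205T
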