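import Mathlib

/-! Module WI: abstract implicit function theorem with analytic dependence and local uniqueness.
Use `Ψ (u,p) = (G (u,p), p)`, `ContDiffAt.toOpenPartialHomeomorph`, `OpenPartialHomeomorph.contDiffAt_symm` with
`n = ω` at the base point and then `ContDiffAt.eventually` (`ω ≠ ∞`). -/

open scoped ContDiff Topology

namespace P205T

theorem ift_analytic {E P : Type*} [NormedAddCommGroup E] [NormedSpace ℝ E] [CompleteSpace E]
    [NormedAddCommGroup P] [NormedSpace ℝ P] [CompleteSpace P]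
    (G : E × P → E) (hG : ContDiff ℝ ω G) (p₀ : P) (h0 : G (0, p₀) = 0)
    (hd : HasFDerivAt (fun u : E => G (u, p₀)) (ContinuousLinearMap.id ℝ E) 0) :
    ∃ r > 0, ∃ δ > 0, ∃ s : P → E, s p₀ = 0 ∧
      (∀ p ∈ Metric.ball p₀ r, G (s p, p) = 0 ∧ ‖s p‖ < δ ∧ ContDiffAt ℝ ω s p) ∧
      (∀ p ∈ Metric.ball p₀ r, ∀ u : E, ‖u‖ < δ → G (u, p) = 0 → u = s p) := by
  have hω : (ω : WithTop ℕ∞) ≠ 0 := by simp
  -- the map `Ψ`
  set Ψ : E × P → E × P := fun q => (G q, q.2) with hΨ
  have hΨc : ContDiff ℝ ω Ψ := hG.prodMk contDiff_snd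
  -- derivative of `G`
  set D : E × P →L[ℝ] E := fderiv ℝ G (0, p₀) with hD
  have hGd : HasFDerivAt G D (0, p₀) := (hG.differentiable hω _).hasFDerivAt
  have hDinl : D.comp (ContinuousLinearMap.inl ℝ E P) = ContinuousLinearMap.id ℝ E := by
    have h1 : HasFDerivAt (fun u : E => ((u, p₀) : E × P)) (ContinuousLinearMap.inl ℝ E P) 0 :=
      hasFDerivAt_prodMk_left 0 p₀
    have h2 : HasFDerivAt (fun u : E => G (u, p₀)) (D.comp (ContinuousLinearMap.inl ℝ E P)) 0 :=
      HasFDerivAt.comp (g := G) (f := fun u : E => ((u, p₀) : E × P)) 0 hGd h1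
    exact h2.unique hd
  have hDv : ∀ v : E, D (v, 0) = v := fun v => by
    have := congrArg (fun f : E →L[ℝ] E => f v) hDinl
    simpa using this
  set B : P →L[ℝ] E := D.comp (ContinuousLinearMap.inr ℝ E P) with hB
  have hDsplit : ∀ q : E × P, D q = q.1 + B q.2 := by
    intro q
    have : q = (q.1, 0) + (0, q.2) := by simp
    conv_lhs => rw [this]
    rw [map_add, hDv]
    rfl
  -- the invertible derivative
  let e : (E × P) ≃L[ℝ] (E × P) := ContinuousLinearEquiv.equivOfInverse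
    (D.prod (ContinuousLinearMap.snd ℝ E P))
    ((ContinuousLinearMap.fst ℝ E P - B.comp (ContinuousLinearMap.snd ℝ E P)).prod
      (ContinuousLinearMap.snd ℝ E P))
    (fun q => by
      refine Prod.ext ?_ rfl
      change D q - B q.2 = q.1
      rw [hDsplit, add_sub_cancel_right])
    (fun q => by
      refine Prod.ext ?_ rfl
      change D (q.1 - B q.2, q.2) = q.1
      rw [hDsplit]
      simp)
  have hΨd : HasFDerivAt Ψ (e : E × P →L[ℝ] E × P) (0, p₀) := by
    have : (e : E × P →L[ℝ] E × P) = D.prod (ContinuousLinearMap.snd ℝ E P) := rfl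
    rw [this]
    exact hGd.prodMk hasFDerivAt_snd
  have hΨat : ContDiffAt ℝ ω Ψ (0, p₀) := hΨc.contDiffAt
  set F := hΨat.toOpenPartialHomeomorph Ψ hΨd hω with hF
  have hFcoe : (F : E × P → E × P) = Ψ := rfl
  have hsrc : ((0 : E), p₀) ∈ F.source := hΨat.mem_toOpenPartialHomeomorph_source hΨd hω
  have hΨ0 : Ψ (0, p₀) = (0, p₀) := by rw [hΨ]; simp only [h0]
  have htgt : ((0 : E), p₀) ∈ F.target := by
    have := hΨat.image_mem_toOpenPartialHomeomorph_target hΨd hω
    rwa [hΨ0] at this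
  have hsymm0 : F.symm (0, p₀) = (0, p₀) := by
    have := F.left_inv hsrc
    rw [hFcoe, hΨ0] at this
    exact this
  have hsymmC : ContDiffAt ℝ ω F.symm (0, p₀) := by
    apply F.contDiffAt_symm htgt (f₀' := e)
    · rw [hsymm0]; exact hΨd
    · rw [hsymm0]; exact hΨat
  -- the solution
  set s : P → E := fun p => (F.symm (0, p)).1 with hs
  have hs0 : s p₀ = 0 := by
    change (F.symm (0, p₀)).1 = 0
    rw [hsymm0]
  have hsC : ContDiffAt ℝ ω s p₀ := by
    have h1 : ContDiffAt ℝ ω (fun p : P => ((0 : E), p)) p₀ := contDiffAt_const.prodMk contDiffAt_id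
    have h2 : ContDiffAt ℝ ω (fun p : P => F.symm ((0 : E), p)) p₀ :=
      ContDiffAt.comp (g := F.symm) (f := fun p : P => ((0 : E), p)) p₀ hsymmC h1
    exact h2.fst
  have hsE : ∀ᶠ p in 𝓝 p₀, ContDiffAt ℝ ω s p := hsC.eventually (by simp)
  -- uniqueness domain
  obtain ⟨ρ, hρ, hρs⟩ := Metric.isOpen_iff.mp F.open_source _ hsrc
  have hsn : ∀ᶠ p in 𝓝 p₀, ‖s p‖ < ρ := by
    have hc : Filter.Tendsto (fun p => ‖s p‖) (𝓝 p₀) (𝓝 ‖s p₀‖) := hsC.continuousAt.norm
    rw [hs0, norm_zero] at hc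
    exact hc.eventually_lt_const hρ
  have hpt : ∀ᶠ p in 𝓝 p₀, ((0 : E), p) ∈ F.target := by
    have hc : ContinuousAt (fun p : P => ((0 : E), p)) p₀ := by fun_prop
    exact hc.eventually (F.open_target.mem_nhds htgt)
  obtain ⟨r, hr, hrball⟩ := Metric.eventually_nhds_iff_ball.mp (hsE.and (hsn.and hpt))
  refine ⟨min r ρ, lt_min hr hρ, ρ, hρ, s, hs0, ?_, ?_⟩
  · intro p hp
    have hp' : p ∈ Metric.ball p₀ r := Metric.ball_subset_ball (min_le_left _ _) hp
    obtain ⟨a1, a2, a3⟩ := hrball p hp'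
    refine ⟨?_, a2, a1⟩
    have h1 := F.right_inv a3
    rw [hFcoe] at h1
    have h2 : (F.symm (0, p)).2 = p := congrArg Prod.snd h1
    have h3 : G (F.symm (0, p)) = 0 := congrArg Prod.fst h1
    have h4 : ((s p, p) : E × P) = F.symm (0, p) := Prod.ext rfl h2.symm
    rw [h4]; exact h3
  · intro p hp u hu hGu
    have hp' : p ∈ Metric.ball p₀ ρ := Metric.ball_subset_ball (min_le_right _ _) hp
    have hmem : ((u, p) : E × P) ∈ F.source := by
      apply hρs
      rw [Metric.mem_ball, Prod.dist_eq]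
      apply max_lt
      · rw [dist_zero_right]; exact hu
      · exact hp'
    have h1 := F.left_inv hmem
    have h2 : F (u, p) = (0, p) := by
      rw [hFcoe, hΨ]
      simp only [hGu]
    rw [h2] at h1
    change u = (F.symm (0, p)).1
    rw [h1]

end P205T
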