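import Vale.Agent.P205T.WG
import Vale.Agent.P205T.WIft
import Vale.Agent.P205T.WTrans

/-! Module WF: the family of solutions.  Apply `ift_analytic` to `Gmap L`, `E = V`, `P = (Fin 5 → V) × ℝ`,
`p₀ = (W, 0)`; `u ε := s (W, ε)`.  Reality: `J (u ε)` also solves the equation (Gmap_J, norm_J) so equals `u ε`.
Smoothness: for small `h`, `T h (u ε) = s (fun i => T h (W i), ε)` (Gmap_T, norm_T), which is smooth in `h`
(contDiff_T, composition); and `ev (x+h) (mult m (u ε)) = ev x (mult m (T h (u ε)))`. -/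

open Complex ComplexConjugate
open scoped ContDiff

namespace P205T

theorem WF_T_zero (L : Lat) (c : V) : T L 0 c = c := by
  refine lp.ext (funext fun n => ?_)
  rw [T_apply]
  unfold ch
  simp

/-- the parameter of the translated data -/
noncomputable def WF_H (L : Lat) (W : Fin 5 → V) (ε : ℝ) (h : ℂ) : (Fin 5 → V) × ℝ :=
  (fun i => T L h (W i), ε)

theorem WF_H_zero (L : Lat) (W : Fin 5 → V) (ε : ℝ) : WF_H L W ε 0 = (W, ε) := by
  unfold WF_H
  refine Prod.ext (funext fun i => ?_) rfl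
  exact WF_T_zero L (W i)

theorem WF_H_contDiff (L : Lat) (W : Fin 5 → V) (hW : ∀ i, Rapid L (W i)) (ε : ℝ) :
    ContDiff ℝ ∞ (WF_H L W ε) :=
  (contDiff_pi.2 fun i => contDiff_T L (W i) (hW i)).prodMk contDiff_const

theorem WF_smooth (L : Lat) (W : Fin 5 → V) (hW : ∀ i, Rapid L (W i)) (ε r δ : ℝ)
    (s : (Fin 5 → V) × ℝ → V)
    (hs1 : ∀ p ∈ Metric.ball (W, (0 : ℝ)) r, Gmap L (s p, p) = 0 ∧ ‖s p‖ < δ ∧ ContDiffAt ℝ ω s p)
    (hs2 : ∀ p ∈ Metric.ball (W, (0 : ℝ)) r, ∀ u : V, ‖u‖ < δ → Gmap L (u, p) = 0 → u = s p)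
    (hε : (W, ε) ∈ Metric.ball (W, (0 : ℝ)) r) :
    ContDiffAt ℝ ∞ (fun h : ℂ => T L h (s (W, ε))) 0 := by
  have hH := WF_H_contDiff L W hW ε
  have h1 : ContDiffAt ℝ ∞ (fun h : ℂ => s (WF_H L W ε h)) 0 := by
    have h2 : ContDiffAt ℝ ∞ s (WF_H L W ε 0) := by
      rw [WF_H_zero]
      exact (hs1 _ hε).2.2.of_le le_top
    exact h2.comp (0 : ℂ) hH.contDiffAt
  refine h1.congr_of_eventuallyEq ?_
  have h3 : ∀ᶠ h : ℂ in nhds 0, WF_H L W ε h ∈ Metric.ball (W, (0 : ℝ)) r := by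
    refine hH.continuous.continuousAt.eventually_mem ?_
    rw [WF_H_zero]
    exact Metric.isOpen_ball.mem_nhds hε
  filter_upwards [h3] with h hh
  refine hs2 _ hh _ ?_ ?_
  · rw [norm_T]
    exact (hs1 _ hε).2.1
  · have h4 := Gmap_T L h (s (W, ε)) W ε
    rw [(hs1 _ hε).1, map_zero] at h4
    exact h4

theorem family (L : Lat) (W : Fin 5 → V) (hW : ∀ i, Rapid L (W i)) (hJ : ∀ i, J (W i) = W i) :
    ∃ ε₀ > 0, ∃ u : ℝ → V, ContinuousOn u (Set.Icc 0 ε₀) ∧ u 0 = 0 ∧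
      ∀ ε ∈ Set.Icc (0 : ℝ) ε₀, Gmap L (u ε, (W, ε)) = 0 ∧ J (u ε) = u ε ∧
        ∀ m, Bdd m → ContDiff ℝ ∞ (fun z => ev L z (mult m (u ε))) := by
  obtain ⟨r, hr, δ, hδ, s, hs0, hs1, hs2⟩ := ift_analytic (Gmap L) (Gmap_contDiff L) (W, (0 : ℝ))
    (Gmap_zero L W) (Gmap_hasFDerivAt L W)
  have hball : ∀ ε ∈ Set.Icc (0 : ℝ) (r / 2), (W, ε) ∈ Metric.ball (W, (0 : ℝ)) r := by
    rintro ε ⟨h1, h2⟩
    rw [Metric.mem_ball, Prod.dist_eq, dist_self, Real.dist_eq, sub_zero, abs_of_nonneg h1,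
      max_eq_right h1]
    linarith
  refine ⟨r / 2, by positivity, fun ε => s (W, ε), ?_, hs0, ?_⟩
  · intro ε hε
    have h1 : ContinuousAt s (W, ε) := (hs1 _ (hball ε hε)).2.2.continuousAt
    have h2 : ContinuousAt (fun ε : ℝ => ((W, ε) : (Fin 5 → V) × ℝ)) ε := by fun_prop
    exact (ContinuousAt.comp (f := fun ε : ℝ => ((W, ε) : (Fin 5 → V) × ℝ)) h1 h2).continuousWithinAt
  · intro ε hε
    obtain ⟨h1, h2, h3⟩ := hs1 _ (hball ε hε)
    refine ⟨h1, ?_, ?_⟩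
    · refine hs2 _ (hball ε hε) _ ?_ ?_
      · rw [norm_J]
        exact h2
      · have h4 := Gmap_J L (s (W, ε)) W ε
        rw [h1, map_zero] at h4
        simpa only [hJ] using h4
    · intro m hm
      rw [contDiff_iff_contDiffAt]
      intro x
      have h4 := WF_smooth L W hW ε r δ s hs1 hs2 (hball ε hε)
      have h5 : ContDiffAt ℝ ∞ (fun z : ℂ => z - x) x := by fun_prop
      have h6 : ContDiffAt ℝ ∞ (fun z : ℂ => T L (z - x) (s (W, ε))) x := by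
        have h7 : ContDiffAt ℝ ∞ (fun h : ℂ => T L h (s (W, ε))) (x - x) := by
          rw [sub_self]
          exact h4
        exact ContDiffAt.comp (g := fun h : ℂ => T L h (s (W, ε))) x h7 h5
      have h8 : ContDiffAt ℝ ∞ (fun z : ℂ => ((ev L x).comp (mult m)) (T L (z - x) (s (W, ε)))) x :=
        ((ev L x).comp (mult m)).contDiff.contDiffAt.comp x h6
      refine h8.congr_of_eventuallyEq (Filter.Eventually.of_forall fun z => ?_)
      show ev L z (mult m (s (W, ε))) = ev L x (mult m (T L (z - x) (s (W, ε))))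
      rw [mult_T hm, ev_T, add_sub_cancel]

end P205T
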