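import Vale.Agent.P205T.WApi1
import Vale.Agent.P205T.WApi2
import Vale.Agent.P205T.WMult

/-! Module WG1: smoothness of the polynomial map `Gmap`. -/

open Complex ComplexConjugate
open scoped ContDiff

namespace P205T

theorem wg1_conv {E : Type*} [NormedAddCommGroup E] [NormedSpace ℝ E] {f g : E → V}
    (hf : ContDiff ℝ ω f) (hg : ContDiff ℝ ω g) : ContDiff ℝ ω (fun x => conv (f x) (g x)) :=
  (conv.contDiff.comp hf).clm_apply hg

theorem wg1_smul {E : Type*} [NormedAddCommGroup E] [NormedSpace ℝ E] {f : E → ℝ} {g : E → V}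
    (hf : ContDiff ℝ ω f) (hg : ContDiff ℝ ω g) : ContDiff ℝ ω (fun x => f x • g x) := hf.smul hg

theorem wg1_Lhat {E : Type*} [NormedAddCommGroup E] [NormedSpace ℝ E]
    {A A1 A2 A11 A12 A22 : E → V} {W : E → Fin 5 → V} {ε : E → ℝ} (hA : ContDiff ℝ ω A)
    (hA1 : ContDiff ℝ ω A1) (hA2 : ContDiff ℝ ω A2) (hA11 : ContDiff ℝ ω A11)
    (hA12 : ContDiff ℝ ω A12) (hA22 : ContDiff ℝ ω A22) (hW : ∀ i, ContDiff ℝ ω (fun x => W x i))
    (hε : ContDiff ℝ ω ε) :
    ContDiff ℝ ω (fun x => Lhat (A x) (A1 x) (A2 x) (A11 x) (A12 x) (A22 x) (W x) (ε x)) := by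
  unfold Lhat
  repeat' first
    | exact hA | exact hA1 | exact hA2 | exact hA11 | exact hA12 | exact hA22
    | exact hW _ | exact hε | exact contDiff_const
    | apply wg1_conv | apply ContDiff.add | apply ContDiff.sub | apply wg1_smul

theorem Gmap_contDiff (L : Lat) : ContDiff ℝ ω (Gmap L) := by
  have hm : ∀ m, ContDiff ℝ ω (fun q : V × ((Fin 5 → V) × ℝ) => mult m q.1) := fun m =>
    (mult m).contDiff.comp contDiff_fst
  have hW : ∀ i, ContDiff ℝ ω (fun q : V × ((Fin 5 → V) × ℝ) => q.2.1 i) := fun i =>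
    (contDiff_apply ℝ V i).comp (contDiff_fst.comp contDiff_snd)
  exact (wg1_Lhat (contDiff_const.add (hm _)) (hm _) (hm _) (hm _) (hm _) (hm _) hW
    (contDiff_snd.comp contDiff_snd)).add (hm _)

theorem Gmap_zero (L : Lat) (W : Fin 5 → V) : Gmap L (0, (W, 0)) = 0 := by
  simp [Gmap, Lhat]

theorem wg1_quad (S T : V →L[ℝ] V) :
    HasFDerivAt (fun u : V => conv (S u) (T u)) (0 : V →L[ℝ] V) 0 := by
  have h1 : HasFDerivAt (fun u : V => conv (S u)) (conv.comp S) 0 :=
    (conv.comp S).hasFDerivAt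
  have h2 := h1.clm_apply (T.hasFDerivAt (x := 0))
  have h3 : (conv (S 0)).comp T + (conv.comp S).flip (T 0) = 0 := by
    ext1 u
    simp
  rw [h3] at h2
  exact h2

/-- at `ε = 0`: `Gmap (u,(W,0)) = u + quadratic` -/
theorem Gmap_hasFDerivAt (L : Lat) (W : Fin 5 → V) :
    HasFDerivAt (fun u : V => Gmap L (u, (W, (0 : ℝ)))) (ContinuousLinearMap.id ℝ V) 0 := by
  have hid : ∀ u : V, mult (M11 L) u + mult (M22 L) u + mult Z0 u = u := by
    intro u
    apply lp.ext
    funext n
    have hZ : Bdd Z0 := ⟨1, fun n => by unfold Z0; split_ifs <;> simp⟩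
    show mult (M11 L) u n + mult (M22 L) u n + mult Z0 u n = u n
    rw [mult_apply (bdd_M11 L), mult_apply (bdd_M22 L), mult_apply hZ, ← add_mul,
      M11_add_M22, ← add_mul, sub_add_cancel, one_mul]
  have he : (fun u : V => Gmap L (u, (W, (0 : ℝ)))) = fun u => u +
      (conv (mult (M0 L) u) ((mult (M11 L) + mult (M22 L)) u) - conv (mult (M1 L) u) (mult (M1 L) u)
        - conv (mult (M2 L) u) (mult (M2 L) u)) := by
    funext u
    have h1 := hid u
    have h2 : Gmap L (u, (W, (0 : ℝ))) = mult (M11 L) u + mult (M22 L) u +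
        conv (mult (M0 L) u) (mult (M11 L) u + mult (M22 L) u) - conv (mult (M1 L) u) (mult (M1 L) u)
        - conv (mult (M2 L) u) (mult (M2 L) u) + mult Z0 u := by
      simp only [Gmap, Lhat, zero_smul, sub_zero, add_zero, one_conv, map_add, add_apply]
      abel
    rw [h2, add_apply]
    generalize conv (mult (M0 L) u) (mult (M11 L) u + mult (M22 L) u) = x
    generalize conv (mult (M1 L) u) (mult (M1 L) u) = y
    generalize conv (mult (M2 L) u) (mult (M2 L) u) = z
    have h3 : mult (M11 L) u + mult (M22 L) u + x - y - z + mult Z0 u =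
        (mult (M11 L) u + mult (M22 L) u + mult Z0 u) + (x - y - z) := by abel
    rw [h3, h1]
  rw [he]
  have h := ((hasFDerivAt_id (𝕜 := ℝ) (0 : V)).add
    (((wg1_quad (mult (M0 L)) (mult (M11 L) + mult (M22 L))).sub
      (wg1_quad (mult (M1 L)) (mult (M1 L)))).sub (wg1_quad (mult (M2 L)) (mult (M2 L)))))
  have h3 : ContinuousLinearMap.id ℝ V + ((0 : V →L[ℝ] V) - 0 - 0) = ContinuousLinearMap.id ℝ V := by
    rw [sub_zero, sub_zero, add_zero]
  rw [h3] at h
  exact h

end P205T
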