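import Vale.Agent.P205T.WApi1
import Vale.Agent.P205T.WApi2
import Vale.Agent.P205T.WMult

/-! Module WG2: equivariance and evaluation of the polynomial map `Gmap`. -/

open Complex ComplexConjugate
open scoped ContDiff

namespace P205T

/-- a real linear map which is multiplicative for `conv` and fixes `one` commutes with `Lhat`. -/
private theorem wg2_Lhat_map (φ : V →L[ℝ] V) (h1 : φ one = one)
    (hc : ∀ a b, φ (conv a b) = conv (φ a) (φ b)) (A A1 A2 A11 A12 A22 : V) (W : Fin 5 → V)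
    (ε : ℝ) :
    Lhat (φ A) (φ A1) (φ A2) (φ A11) (φ A12) (φ A22) (fun i => φ (W i)) ε
      = φ (Lhat A A1 A2 A11 A12 A22 W ε) := by
  simp only [Lhat, map_add φ, map_sub φ, map_smul φ, hc, h1]

private theorem wg2_bdd_Z0 : Bdd Z0 := by
  refine ⟨1, fun n => ?_⟩
  unfold Z0
  split_ifs <;> simp

theorem Gmap_T (L : Lat) (h : ℂ) (u : V) (W : Fin 5 → V) (ε : ℝ) :
    Gmap L (T L h u, (fun i => T L h (W i), ε)) = T L h (Gmap L (u, (W, ε))) := by
  have hL := wg2_Lhat_map (T L h) (T_one L h) (fun a b => (conv_T L h a b).symm)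
    (one + mult (M0 L) u) (mult (M1 L) u) (mult (M2 L) u) (mult (M11 L) u) (mult (M12 L) u)
    (mult (M22 L) u) W ε
  simp only [Gmap, map_add (T L h), mult_T (bdd_M0 L), mult_T (bdd_M1 L), mult_T (bdd_M2 L),
    mult_T (bdd_M11 L), mult_T (bdd_M12 L), mult_T (bdd_M22 L), mult_T wg2_bdd_Z0] at hL ⊢
  rw [T_one] at hL
  rw [hL]

theorem Gmap_J (L : Lat) (u : V) (W : Fin 5 → V) (ε : ℝ) :
    Gmap L (J u, (fun i => J (W i), ε)) = J (Gmap L (u, (W, ε))) := by
  have hL := wg2_Lhat_map J J_one (fun a b => (conv_J a b).symm)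
    (one + mult (M0 L) u) (mult (M1 L) u) (mult (M2 L) u) (mult (M11 L) u) (mult (M12 L) u)
    (mult (M22 L) u) W ε
  simp only [Gmap, map_add J, mult_J (bdd_M0 L) (M0_neg L), mult_J (bdd_M1 L) (M1_neg L),
    mult_J (bdd_M2 L) (M2_neg L), mult_J (bdd_M11 L) (M11_neg L), mult_J (bdd_M12 L) (M12_neg L),
    mult_J (bdd_M22 L) (M22_neg L), mult_J wg2_bdd_Z0 Z0_neg] at hL ⊢
  rw [J_one] at hL
  rw [hL]

theorem ev_Gmap (L : Lat) (z : ℂ) (u : V) (W : Fin 5 → V) (ε : ℝ) :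
    ev L z (Gmap L (u, (W, ε))) =
      Lstar (ε : ℂ) (1 + ev L z (mult (M0 L) u)) (ev L z (mult (M1 L) u)) (ev L z (mult (M2 L) u))
        (ev L z (mult (M11 L) u)) (ev L z (mult (M12 L) u)) (ev L z (mult (M22 L) u))
        (ev L z (W 0)) (ev L z (W 1)) (ev L z (W 2)) (ev L z (W 3)) (ev L z (W 4)) + u 0 := by
  simp only [Gmap, Lhat, Lstar, map_add (ev L z), map_sub (ev L z), map_smul (ev L z), ev_conv,
    ev_one, ev_Z0, Complex.real_smul]
  push_cast
  ring

end P205T
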